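import Vale.Agent.Lib.P154Q4.GWLink

/-!
Reconstruction above the Kesten-Stigum bound for the four-state channel, from the recursion of the
functionals: `2 * al * (A + B) - al ^ 2 * (A + B + 8 / 3 * A * B) <= bprod E E' I2`.
-/

namespace Vale.Agent.Lib.P154Q4

open Filter Topology
open Vale.Agent.Lib.P154 (poissonLaw reconError)

/-- the linear part of the polynomial below the integrand of the Bayesian product of `I2` -/
noncomputable def ksF1 (a b c d p q r s : ℝ) : ℝ :=
  8 * ((a * p - (a * p + b * q + c * r + d * s) / 4) * ((a - 1 / 4) + (p - 1 / 4))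
    + (b * q - (a * p + b * q + c * r + d * s) / 4) * ((b - 1 / 4) + (q - 1 / 4))
    + (c * r - (a * p + b * q + c * r + d * s) / 4) * ((c - 1 / 4) + (r - 1 / 4))
    + (d * s - (a * p + b * q + c * r + d * s) / 4) * ((d - 1 / 4) + (s - 1 / 4)))

/-- the quadratic part of the polynomial below the integrand of the Bayesian product of `I2` -/
noncomputable def ksF2 (a b c d p q r s : ℝ) : ℝ :=
  4 * (a * p + b * q + c * r + d * s) * (((a - 1 / 4) + (p - 1 / 4)) ^ 2 + ((b - 1 / 4) + (q - 1 / 4)) ^ 2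
    + ((c - 1 / 4) + (r - 1 / 4)) ^ 2 + ((d - 1 / 4) + (s - 1 / 4)) ^ 2)

theorem ks_le (al : ℝ) {a b c d p q r s : ℝ} (h : Simp a b c d) (h' : Simp p q r s) :
    al * ksF1 a b c d p q r s - al ^ 2 * ksF2 a b c d p q r s ≤ wt I2 a b c d p q r s := by
  rcases (dot_nonneg h h').eq_or_lt with hD | hD
  · rw [wt_of_dot_zero I2 hD.symm]
    have h1 := mul_nonneg h.ha h'.ha
    have h2 := mul_nonneg h.hb h'.hb
    have h3 := mul_nonneg h.hc h'.hc
    have h4 := mul_nonneg h.hd h'.hd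
    have e1 : a * p = 0 := by linarith
    have e2 : b * q = 0 := by linarith
    have e3 : c * r = 0 := by linarith
    have e4 : d * s = 0 := by linarith
    unfold ksF1 ksF2
    rw [e1, e2, e3, e4]
    norm_num
  · unfold wt ksF1 ksF2 I2
    set D := a * p + b * q + c * r + d * s with hDd
    have hx : a * p = D * (a * p / D) := by field_simp
    have hy : b * q = D * (b * q / D) := by field_simp
    have hz : c * r = D * (c * r / D) := by field_simp
    have hw : d * s = D * (d * s / D) := by field_simp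
    set x := a * p / D with hxd
    set y := b * q / D with hyd
    set z := c * r / D with hzd
    set w := d * s / D with hwd
    rw [hx, hy, hz, hw]
    have hsq : 0 ≤ 4 * D * ((x - 1 / 4 - al * ((a - 1 / 4) + (p - 1 / 4))) ^ 2
        + (y - 1 / 4 - al * ((b - 1 / 4) + (q - 1 / 4))) ^ 2
        + (z - 1 / 4 - al * ((c - 1 / 4) + (r - 1 / 4))) ^ 2
        + (w - 1 / 4 - al * ((d - 1 / 4) + (s - 1 / 4))) ^ 2) := by positivity
    refine sub_nonneg.1 ?_
    convert hsq using 1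
    ring

theorem ksF1_sym {a b c d p q r s : ℝ} (hs : a + b + c + d = 1) (hs' : p + q + r + s = 1) :
    avg24 (fun p q r s => ksF1 a b c d p q r s) p q r s = 2 * (I2 a b c d + I2 p q r s) := by
  have hc : d = 1 - a - b - c := by linarith
  have hr : s = 1 - p - q - r := by linarith
  subst hc hr
  unfold avg24 ksF1 I2
  ring

theorem ksF2_sym {a b c d p q r s : ℝ} (hs : a + b + c + d = 1) (hs' : p + q + r + s = 1) :
    avg24 (fun p q r s => ksF2 a b c d p q r s) p q r s
      = I2 a b c d + I2 p q r s + 8 / 3 * I2 a b c d * I2 p q r s := by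
  have hc : d = 1 - a - b - c := by linarith
  have hr : s = 1 - p - q - r := by linarith
  subst hc hr
  unfold avg24 ksF2 I2
  ring

theorem bd_ksF1 (a b c d : ℝ) : Bd (fun p q r s => ksF1 a b c d p q r s) := by
  unfold ksF1
  have hD : Bd (fun p q r s => a * p + b * q + c * r + d * s) :=
    (((Bd.smul a Bd.fst).add (Bd.smul b Bd.snd)).add (Bd.smul c Bd.thd)).add (Bd.smul d Bd.fth)
  have h1 : Bd (fun p _ _ _ : ℝ => (a - 1 / 4) + (p - 1 / 4)) :=
    (Bd.const _).add (Bd.fst.sub (Bd.const _))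
  have h2 : Bd (fun _ q _ _ : ℝ => (b - 1 / 4) + (q - 1 / 4)) :=
    (Bd.const _).add (Bd.snd.sub (Bd.const _))
  have h3 : Bd (fun _ _ r _ : ℝ => (c - 1 / 4) + (r - 1 / 4)) :=
    (Bd.const _).add (Bd.thd.sub (Bd.const _))
  have h4 : Bd (fun _ _ _ s : ℝ => (d - 1 / 4) + (s - 1 / 4)) :=
    (Bd.const _).add (Bd.fth.sub (Bd.const _))
  have hD4 : Bd (fun p q r s => (a * p + b * q + c * r + d * s) / 4) := by
    have := Bd.smul (1 / 4) hD
    have e : (fun p q r s => (a * p + b * q + c * r + d * s) / 4)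
        = fun p q r s => 1 / 4 * (a * p + b * q + c * r + d * s) := by
      funext p q r s
      ring
    rw [e]
    exact this
  have t1 := ((Bd.smul a Bd.fst).sub hD4).mul h1
  have t2 := ((Bd.smul b Bd.snd).sub hD4).mul h2
  have t3 := ((Bd.smul c Bd.thd).sub hD4).mul h3
  have t4 := ((Bd.smul d Bd.fth).sub hD4).mul h4
  exact Bd.smul 8 (((t1.add t2).add t3).add t4)

theorem bd_ksF2 (a b c d : ℝ) : Bd (fun p q r s => ksF2 a b c d p q r s) := by
  unfold ksF2
  have hD : Bd (fun p q r s => a * p + b * q + c * r + d * s) :=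
    (((Bd.smul a Bd.fst).add (Bd.smul b Bd.snd)).add (Bd.smul c Bd.thd)).add (Bd.smul d Bd.fth)
  have h1 : Bd (fun p _ _ _ : ℝ => (a - 1 / 4) + (p - 1 / 4)) :=
    (Bd.const _).add (Bd.fst.sub (Bd.const _))
  have h2 : Bd (fun _ q _ _ : ℝ => (b - 1 / 4) + (q - 1 / 4)) :=
    (Bd.const _).add (Bd.snd.sub (Bd.const _))
  have h3 : Bd (fun _ _ r _ : ℝ => (c - 1 / 4) + (r - 1 / 4)) :=
    (Bd.const _).add (Bd.thd.sub (Bd.const _))
  have h4 : Bd (fun _ _ _ s : ℝ => (d - 1 / 4) + (s - 1 / 4)) :=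
    (Bd.const _).add (Bd.fth.sub (Bd.const _))
  exact (Bd.smul 4 hD).mul ((((h1.pow 2).add (h2.pow 2)).add (h3.pow 2)).add (h4.pow 2))

theorem bd_I2' : Bd I2 := by
  have h : ∀ f : Fn4, Bd f → Bd (fun a b c d => (f a b c d - 1 / 4) ^ 2) :=
    fun f hf => (hf.sub (Bd.const _)).pow 2
  exact (((h _ Bd.fst).add (h _ Bd.snd)).add (h _ Bd.thd)).add (h _ Bd.fth)

theorem I2_nonneg' (a b c d : ℝ) : 0 ≤ I2 a b c d := by
  unfold I2
  positivity

theorem I2_le_three_quarters {a b c d : ℝ} (h : Simp a b c d) : I2 a b c d ≤ 3 / 4 := by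
  obtain ⟨a1, b1, c1, d1⟩ := h.le_one
  have h1 := mul_le_mul_of_nonneg_left a1 h.ha
  have h2 := mul_le_mul_of_nonneg_left b1 h.hb
  have h3 := mul_le_mul_of_nonneg_left c1 h.hc
  have h4 := mul_le_mul_of_nonneg_left d1 h.hd
  have hs := h.hs
  unfold I2
  nlinarith

/-- the inner expectations of the polynomials -/
theorem ks_inner {E' : Ex4} (hE' : BExp E' Simp) {a b c d : ℝ} (hs : a + b + c + d = 1) :
    E' (fun p q r s => ksF1 a b c d p q r s) = 2 * (I2 a b c d + E' I2) ∧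
      E' (fun p q r s => ksF2 a b c d p q r s)
        = I2 a b c d + (1 + 8 / 3 * I2 a b c d) * E' I2 := by
  constructor
  · rw [← hE'.sym24 (bd_ksF1 a b c d)]
    have e : E' (avg24 (fun p q r s => ksF1 a b c d p q r s))
        = E' (fun p q r s => 2 * I2 a b c d + 2 * I2 p q r s) := by
      refine hE'.congr _ _ (fun p q r s h => ?_)
      rw [ksF1_sym hs h.hs]
      ring
    rw [e, hE'.add (fun _ _ _ _ => 2 * I2 a b c d) (fun p q r s => 2 * I2 p q r s)
      (Bd.const _) (Bd.smul _ bd_I2'), hE'.const, hE'.smul]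
    ring
  · rw [← hE'.sym24 (bd_ksF2 a b c d)]
    have e : E' (avg24 (fun p q r s => ksF2 a b c d p q r s))
        = E' (fun p q r s => I2 a b c d + (1 + 8 / 3 * I2 a b c d) * I2 p q r s) := by
      refine hE'.congr _ _ (fun p q r s h => ?_)
      rw [ksF2_sym hs h.hs]
      ring
    rw [e, hE'.add (fun _ _ _ _ => I2 a b c d) (fun p q r s => (1 + 8 / 3 * I2 a b c d) * I2 p q r s)
      (Bd.const _) (Bd.smul _ bd_I2'), hE'.const, hE'.smul]

/-- the basic inequality of the Bayesian product -/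
theorem bprod_I2_ge (al : ℝ) {E E' : Ex4} (hE : BExp E Simp) (hE' : BExp E' Simp) :
    2 * al * (E I2 + E' I2) - al ^ 2 * (E I2 + E' I2 + 8 / 3 * E I2 * E' I2) ≤ bprod E E' I2 := by
  set B := E' I2 with hB
  have key : ∀ a b c d, Simp a b c d →
      (2 * al * B - al ^ 2 * B) + (2 * al - al ^ 2 * (1 + 8 / 3 * B)) * I2 a b c d
        ≤ E' (fun p q r s => wt I2 a b c d p q r s) := by
    intro a b c d h
    obtain ⟨e1, e2⟩ := ks_inner hE' h.hs
    have hm := hE'.mono (f := fun p q r s => al * ksF1 a b c d p q r s - al ^ 2 * ksF2 a b c d p q r s)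
      ((Bd.smul al (bd_ksF1 a b c d)).sub (Bd.smul _ (bd_ksF2 a b c d))) (bd_wt bd_I2' h)
      (fun p q r s h' => ks_le al h h')
    rw [hE'.sub (Bd.smul al (bd_ksF1 a b c d)) (Bd.smul _ (bd_ksF2 a b c d)), hE'.smul, hE'.smul, e1, e2]
      at hm
    refine le_trans (le_of_eq ?_) hm
    rw [hB]
    ring
  have hb : Bd (fun a b c d => (2 * al * B - al ^ 2 * B) + (2 * al - al ^ 2 * (1 + 8 / 3 * B)) * I2 a b c d) :=
    (Bd.const _).add (Bd.smul _ bd_I2')
  have hm := hE.mono hb (bd_inner bd_I2' hE') (fun a b c d h => key a b c d h)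
  rw [hE.add (fun _ _ _ _ => 2 * al * B - al ^ 2 * B)
    (fun a b c d => (2 * al - al ^ 2 * (1 + 8 / 3 * B)) * I2 a b c d) (Bd.const _) (Bd.smul _ bd_I2'),
    hE.const, hE.smul] at hm
  have e3 : bprod E E' I2 = E (fun a b c d => E' (fun p q r s => wt I2 a b c d p q r s)) := rfl
  rw [e3]
  refine le_trans (le_of_eq ?_) hm
  ring

theorem centre_I2 : centre I2 = 0 := by
  show I2 (1 / 4) (1 / 4) (1 / 4) (1 / 4) = 0
  unfold I2
  norm_num

theorem Pk_bexp' {E' : Ex4} (hE' : BExp E' Simp) (k : ℕ) : BExp (Pk E' k) Simp := by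
  induction k with
  | zero => exact centre_bexp (fun _ _ _ _ h => h) simp_centre
  | succ k ih =>
    exact bprod_bexp ih hE' (fun _ _ _ _ h => h) (fun a b c d q r s t h1 h2 hD => prod_simp h1 h2 hD)

/-- the lower bound for `k` children -/
theorem Pk_I2_ge {E' : Ex4} (hE' : BExp E' Simp) (hμ : E' I2 ≤ 3 / 8) (k : ℕ) :
    (k : ℝ) * E' I2 - 4 / 3 * ((k : ℝ) * ((k : ℝ) - 1)) * (E' I2) ^ 2 ≤ Pk E' k I2 := by
  have hμ0 : 0 ≤ E' I2 := hE'.nonneg _ (fun a b c d _ => I2_nonneg' a b c d)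
  induction k with
  | zero =>
    show _ ≤ centre I2
    rw [centre_I2]
    norm_num
  | succ k ih =>
    have h1 := bprod_I2_ge 1 (Pk_bexp' hE' k) hE'
    have e : Pk E' (k + 1) I2 = bprod (Pk E' k) E' I2 := rfl
    rw [e]
    refine le_trans ?_ h1
    push_cast
    set μ := E' I2 with hμd
    set A := Pk E' k I2 with hA
    have h3 : 0 ≤ 1 - 8 / 3 * μ := by linarith
    have h4 := mul_le_mul_of_nonneg_right ih h3
    have hk : 0 ≤ (k : ℝ) * ((k : ℝ) - 1) := by
      rcases Nat.eq_zero_or_pos k with h | h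
      · subst h
        simp
      · have : (1 : ℝ) ≤ k := by exact_mod_cast h
        exact mul_nonneg (by linarith) (by linarith)
    have h5 : 0 ≤ (k : ℝ) * ((k : ℝ) - 1) * μ ^ 3 := mul_nonneg hk (pow_nonneg hμ0 3)
    nlinarith [h4, h5]

/-- one more child gives at least a fixed fraction of the second moment of the message -/
theorem Pk_I2_pos {E' : Ex4} (hE' : BExp E' Simp) (k : ℕ) : 3 / 4 * E' I2 ≤ Pk E' (k + 1) I2 := by
  have h1 := bprod_I2_ge (1 / 2) (Pk_bexp' hE' k) hE'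
  have e : Pk E' (k + 1) I2 = bprod (Pk E' k) E' I2 := rfl
  rw [e]
  refine le_trans ?_ h1
  have hA : 0 ≤ Pk E' k I2 := (Pk_bexp' hE' k).nonneg _ (fun a b c d _ => I2_nonneg' a b c d)
  have hB0 : 0 ≤ E' I2 := hE'.nonneg _ (fun a b c d _ => I2_nonneg' a b c d)
  have hB1 : E' I2 ≤ 3 / 4 := by
    have := hE'.mono (f := I2) (g := fun _ _ _ _ => 3 / 4) bd_I2' (Bd.const _)
      (fun a b c d h => I2_le_three_quarters h)
    rwa [hE'.const] at this
  nlinarith [mul_nonneg hA (sub_nonneg.2 hB1)]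

/-- the channel multiplies the second moment by `lam ^ 2` -/
theorem chan_I2 {E : Ex4} (hE : BExp E Simp) (lam : ℝ) : chan lam E I2 = lam ^ 2 * E I2 := by
  have e : chan lam E I2 = E (fun a b c d => lam ^ 2 * I2 a b c d) := by
    show E (fun a b c d => I2 (chanPt lam a) (chanPt lam b) (chanPt lam c) (chanPt lam d)) = _
    congr 1
    funext a b c d
    unfold I2 chanPt
    ring
  rw [e, hE.smul]

theorem I2_le_errFn {a b c d : ℝ} (h : Simp a b c d) : I2 a b c d ≤ 2 * errFn a b c d := by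
  obtain ⟨a1, b1, c1, d1⟩ := h.le_one
  have e : ∀ t : ℝ, 0 ≤ t → t ≤ 1 → (t - 1 / 4) ^ 2 ≤ |t - 1 / 4| := by
    intro t h0 h1
    have h2 : |t - 1 / 4| ≤ 1 := by
      rw [abs_le]
      constructor <;> linarith
    have h3 : (t - 1 / 4) ^ 2 = |t - 1 / 4| ^ 2 := (sq_abs _).symm
    rw [h3]
    nlinarith [abs_nonneg (t - 1 / 4)]
  unfold I2 errFn
  have := e a h.ha a1
  have := e b h.hb b1
  have := e c h.hc c1
  have := e d h.hd d1
  linarith

/-- the abstract end of the argument -/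
theorem not_tendsto_of_rec {M : ℕ → ℝ} {δ : ℝ} (hδ : 0 < δ) (hpos : ∀ n, 0 < M n)
    (hrec : ∀ n, M n ≤ δ → M n ≤ M (n + 1)) : ¬ Tendsto M atTop (𝓝 0) := by
  intro h
  have h1 : ∀ᶠ n in atTop, M n < δ := h (Iio_mem_nhds hδ)
  obtain ⟨N, hN⟩ := eventually_atTop.1 h1
  have hmono : ∀ n, N ≤ n → M N ≤ M n := by
    intro n hn
    induction n, hn using Nat.le_induction with
    | base => exact le_refl _
    | succ n hn ih => exact ih.trans (hrec n (hN n hn).le)
  have hle : M N ≤ 0 := by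
    refine ge_of_tendsto h ?_
    filter_upwards [eventually_ge_atTop N] with n hn using hmono n hn
  exact absurd (hpos N) (not_lt.2 hle)

/-- the second moment of the vertex law -/
theorem vertexEx_I2 : vertexEx I2 = 3 / 4 := by
  unfold vertexEx I2
  norm_num

/-- the threshold of the recursion -/
theorem rec_step {r M : ℝ} (hr : 1 < r) (hM0 : 0 ≤ M) (hM : M ≤ (r - 1) / (4 / 3 * r ^ 2)) :
    M ≤ r * M - 4 / 3 * r ^ 2 * M ^ 2 := by
  have hr0 : 0 < r := by linarith
  have h1 : 4 / 3 * r ^ 2 * M ≤ r - 1 := by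
    rw [le_div_iff₀ (by positivity)] at hM
    linarith
  nlinarith [mul_le_mul_of_nonneg_left h1 hM0]

/-! ### the `d`-ary tree -/

section dary

variable {d : ℕ} {lam : ℝ}

theorem dary_rec (hd : 1 ≤ d) (h0 : 0 ≤ lam) (h1 : lam ≤ 1) (n : ℕ) :
    let M := Ehat d lam n I2
    (lam ^ 2 * M ≤ 3 / 8 → (d : ℝ) * (lam ^ 2 * M) - 4 / 3 * (d : ℝ) ^ 2 * (lam ^ 2 * M) ^ 2
      ≤ Ehat d lam (n + 1) I2) ∧ 3 / 4 * (lam ^ 2 * M) ≤ Ehat d lam (n + 1) I2 := by
  intro M
  have hE : BExp (Ehat d lam n) Simp := Ehat_bexp h0 h1 n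
  have hc : BExp (chan lam (Ehat d lam n)) Simp :=
    chan_bexp hE h0 h1 (fun _ _ _ _ h => h) (fun a b c d hK => chan_simp h0 h1 hK)
  have e : Ehat d lam (n + 1) I2 = Pk (chan lam (Ehat d lam n)) d I2 := rfl
  have e2 : chan lam (Ehat d lam n) I2 = lam ^ 2 * M := chan_I2 hE lam
  rw [e]
  constructor
  · intro hm
    have h2 := Pk_I2_ge hc (by rw [e2]; exact hm) d
    rw [e2] at h2
    refine le_trans ?_ h2
    have hd0 : (0 : ℝ) ≤ d := by positivity
    have hμ : 0 ≤ (lam ^ 2 * M) ^ 2 := by positivity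
    nlinarith [mul_nonneg hd0 hμ]
  · obtain ⟨k, rfl⟩ : ∃ k, d = k + 1 := ⟨d - 1, by omega⟩
    have := Pk_I2_pos hc k
    rw [e2] at this
    exact this

/-- Reconstruction on the `d`-ary tree above the Kesten-Stigum bound. -/
theorem dary_ks (hd : 1 ≤ d) (h0 : 0 ≤ lam) (h1 : lam ≤ 1) (hKS : 1 < (d : ℝ) * lam ^ 2) :
    ¬ Tendsto (reconError d 4 lam) atTop (𝓝 0) := by
  have hE := fun n => (Ehat_bexp h0 h1 n : BExp (Ehat d lam n) Simp)
  have hlam : 0 < lam ^ 2 := by
    rcases (sq_nonneg lam).eq_or_lt with h | h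
    · rw [← h] at hKS
      norm_num at hKS
    · exact h
  have hlam1 : lam ^ 2 ≤ 1 := by nlinarith
  have hpos : ∀ n, 0 < Ehat d lam n I2 := by
    intro n
    induction n with
    | zero =>
      show 0 < vertexEx I2
      rw [vertexEx_I2]
      norm_num
    | succ n ih =>
      refine lt_of_lt_of_le ?_ (dary_rec hd h0 h1 n).2
      have := mul_pos hlam ih
      linarith
  set r := (d : ℝ) * lam ^ 2 with hr
  have hr0 : 0 < r := by linarith
  have hδ : 0 < min (3 / 8 : ℝ) ((r - 1) / (4 / 3 * r ^ 2)) :=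
    lt_min (by norm_num) (div_pos (by linarith) (by positivity))
  have hnot : ¬ Tendsto (fun n => Ehat d lam n I2) atTop (𝓝 0) := by
    refine not_tendsto_of_rec hδ hpos (fun n hn => ?_)
    have h2 := (hpos n).le
    have h3 : Ehat d lam n I2 ≤ 3 / 8 := hn.trans (min_le_left _ _)
    have h4 : Ehat d lam n I2 ≤ (r - 1) / (4 / 3 * r ^ 2) := hn.trans (min_le_right _ _)
    have h5 : lam ^ 2 * Ehat d lam n I2 ≤ 3 / 8 := by nlinarith
    have h6 := (dary_rec hd h0 h1 n).1 h5
    have h7 := rec_step hKS h2 h4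
    refine h7.trans (le_trans (le_of_eq ?_) h6)
    rw [hr]
    ring
  intro h
  refine hnot (squeeze_zero (fun n => (hpos n).le) (g := fun n => 2 * reconError d 4 lam n)
    (fun n => ?_) ?_)
  · rw [reconError_eq h0 h1 n]
    have := (hE n).mono (f := I2) (g := fun a b c d => 2 * errFn a b c d) bd_I2' (Bd.smul 2 bd_errFn)
      (fun a b c d h => I2_le_errFn h)
    rwa [(hE n).smul] at this
  · simpa using h.const_mul 2

end dary

/-! ### the Poisson tree -/

theorem ks_poisson_fact2 (d : ℝ) :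
    HasSum (fun k : ℕ => ((k : ℝ) * ((k : ℝ) - 1)) * poissonLaw d k) (d ^ 2) := by
  refine (hasSum_nat_add_iff' 2).1 ?_
  have h := (poisson_hasSum d).mul_left (d ^ 2)
  have e : (fun k : ℕ => d ^ 2 * poissonLaw d k)
      = fun k : ℕ => (((k + 2 : ℕ) : ℝ) * (((k + 2 : ℕ) : ℝ) - 1)) * poissonLaw d (k + 2) := by
    funext k
    unfold poissonLaw
    rw [Nat.factorial_succ, Nat.factorial_succ, pow_add]
    have h1 : ((k : ℝ) + 1) ≠ 0 := by positivity
    have h3 : ((k : ℝ) + 1 + 1) ≠ 0 := by positivity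
    have h2 : (k.factorial : ℝ) ≠ 0 := by exact_mod_cast k.factorial_ne_zero
    push_cast
    field_simp
    ring
  rw [e] at h
  simpa [Finset.sum_range_succ] using h

section poisson

variable {d lam : ℝ}

theorem poisson_rec (hd : 0 < d) (h0 : 0 ≤ lam) (h1 : lam ≤ 1) (n : ℕ) :
    let M := gwEx (poissonLaw d) lam n I2
    (lam ^ 2 * M ≤ 3 / 8 → d * (lam ^ 2 * M) - 4 / 3 * d ^ 2 * (lam ^ 2 * M) ^ 2
      ≤ gwEx (poissonLaw d) lam (n + 1) I2) ∧
      poissonLaw d 1 * (3 / 4 * (lam ^ 2 * M)) ≤ gwEx (poissonLaw d) lam (n + 1) I2 := by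
  intro M
  have hp0 := poisson_nonneg hd.le
  have hp1 := poisson_hasSum d
  have hE : BExp (gwEx (poissonLaw d) lam n) Simp := gwEx_bexp hp0 hp1 h0 h1 n
  have hc : BExp (chan lam (gwEx (poissonLaw d) lam n)) Simp :=
    chan_bexp hE h0 h1 (fun _ _ _ _ h => h) (fun a b c d hK => chan_simp h0 h1 hK)
  have e2 : chan lam (gwEx (poissonLaw d) lam n) I2 = lam ^ 2 * M := chan_I2 hE lam
  have hF := fun k => Pk_bexp' hc k
  have hs := mix_summable hp0 hp1.summable hF bd_I2'
  have e : gwEx (poissonLaw d) lam (n + 1) I2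
      = ∑' k, poissonLaw d k * Pk (chan lam (gwEx (poissonLaw d) lam n)) k I2 := rfl
  rw [e]
  constructor
  · intro hm
    have hμ : chan lam (gwEx (poissonLaw d) lam n) I2 ≤ 3 / 8 := by rw [e2]; exact hm
    set μ := lam ^ 2 * M with hμd
    have h2 : HasSum (fun k : ℕ => μ * ((k : ℝ) * poissonLaw d k)
        - 4 / 3 * μ ^ 2 * (((k : ℝ) * ((k : ℝ) - 1)) * poissonLaw d k))
        (μ * d - 4 / 3 * μ ^ 2 * d ^ 2) :=
      ((poisson_mean d).mul_left μ).sub ((ks_poisson_fact2 d).mul_left (4 / 3 * μ ^ 2))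
    have h3 : μ * d - 4 / 3 * μ ^ 2 * d ^ 2
        ≤ ∑' k, poissonLaw d k * Pk (chan lam (gwEx (poissonLaw d) lam n)) k I2 := by
      rw [← h2.tsum_eq]
      refine h2.summable.tsum_le_tsum (fun k => ?_) hs
      have h4 := Pk_I2_ge hc hμ k
      rw [e2] at h4
      have h5 := mul_le_mul_of_nonneg_left h4 (hp0 k)
      refine le_trans (le_of_eq ?_) h5
      ring
    refine le_trans (le_of_eq ?_) h3
    ring
  · have h2 : poissonLaw d 1 * Pk (chan lam (gwEx (poissonLaw d) lam n)) 1 I2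
        ≤ ∑' k, poissonLaw d k * Pk (chan lam (gwEx (poissonLaw d) lam n)) k I2 :=
      hs.le_tsum 1 (fun k _ => mul_nonneg (hp0 k) ((hF k).nonneg _ (fun a b c d _ => I2_nonneg' a b c d)))
    have h3 := Pk_I2_pos hc 0
    rw [e2] at h3
    exact (mul_le_mul_of_nonneg_left h3 (hp0 1)).trans h2

/-- the error as a functional -/
theorem gwError_eq_errFn {p : ℕ → ℝ} (hp0 : ∀ k, 0 ≤ p k) (hp1 : HasSum p 1) {lam : ℝ} (h0 : 0 ≤ lam)
    (h1 : lam ≤ 1) (n : ℕ) : Vale.Agent.Lib.P154.gwError 4 p lam n = gwEx p lam n errFn := by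
  have hR := gwEx_rep hp0 hp1 h0 h1
  have hterm : Vale.Agent.Lib.P154.gwTerm 4 p lam n = fun s => (1 / 4 * gwTot p lam n s)
      * errFn (gwPost p lam n 0 s) (gwPost p lam n 1 s) (gwPost p lam n 2 s) (gwPost p lam n 3 s) :=
    funext (fun s => gwTerm_eq n s)
  unfold Vale.Agent.Lib.P154.gwError
  rw [hterm, (hR n).eq errFn bd_errFn]

/-- Reconstruction on the Poisson tree above the Kesten-Stigum bound. -/
theorem poisson_ks (hd : 0 < d) (h0 : 0 ≤ lam) (h1 : lam ≤ 1) (hKS : 1 < d * lam ^ 2) :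
    ¬ Tendsto (Vale.Agent.Lib.P154.gwError 4 (poissonLaw d) lam) atTop (𝓝 0) := by
  have hp0 := poisson_nonneg hd.le
  have hp1 := poisson_hasSum d
  have hE := fun n => (gwEx_bexp hp0 hp1 h0 h1 n : BExp (gwEx (poissonLaw d) lam n) Simp)
  have hlam : 0 < lam ^ 2 := by
    rcases (sq_nonneg lam).eq_or_lt with h | h
    · rw [← h] at hKS
      norm_num at hKS
    · exact h
  have hlam1 : lam ^ 2 ≤ 1 := by nlinarith
  have hp1pos : 0 < poissonLaw d 1 := by
    unfold poissonLaw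
    positivity
  have hpos : ∀ n, 0 < gwEx (poissonLaw d) lam n I2 := by
    intro n
    induction n with
    | zero =>
      show 0 < vertexEx I2
      rw [vertexEx_I2]
      norm_num
    | succ n ih =>
      refine lt_of_lt_of_le ?_ (poisson_rec hd h0 h1 n).2
      have := mul_pos hlam ih
      positivity
  set r := d * lam ^ 2 with hr
  have hr0 : 0 < r := by linarith
  have hδ : 0 < min (3 / 8 : ℝ) ((r - 1) / (4 / 3 * r ^ 2)) :=
    lt_min (by norm_num) (div_pos (by linarith) (by positivity))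
  have hnot : ¬ Tendsto (fun n => gwEx (poissonLaw d) lam n I2) atTop (𝓝 0) := by
    refine not_tendsto_of_rec hδ hpos (fun n hn => ?_)
    have h2 := (hpos n).le
    have h3 : gwEx (poissonLaw d) lam n I2 ≤ 3 / 8 := hn.trans (min_le_left _ _)
    have h4 : gwEx (poissonLaw d) lam n I2 ≤ (r - 1) / (4 / 3 * r ^ 2) := hn.trans (min_le_right _ _)
    have h5 : lam ^ 2 * gwEx (poissonLaw d) lam n I2 ≤ 3 / 8 := by nlinarith
    have h6 := (poisson_rec hd h0 h1 n).1 h5
    have h7 := rec_step hKS h2 h4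
    refine h7.trans (le_trans (le_of_eq ?_) h6)
    rw [hr]
    ring
  intro h
  refine hnot (squeeze_zero (fun n => (hpos n).le)
    (g := fun n => 2 * Vale.Agent.Lib.P154.gwError 4 (poissonLaw d) lam n) (fun n => ?_) ?_)
  · rw [gwError_eq_errFn hp0 hp1 h0 h1 n]
    have := (hE n).mono (f := I2) (g := fun a b c d => 2 * errFn a b c d) bd_I2' (Bd.smul 2 bd_errFn)
      (fun a b c d h => I2_le_errFn h)
    rwa [(hE n).smul] at this
  · simpa using h.const_mul 2

end poisson

end Vale.Agent.Lib.P154Q4
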