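import Vale.Agent.Lib.P154Q4.Kron

/-!
Polynomials in the invariants of two points of the tetrahedron, nonnegativity on pairs of cells, and
bisection of cells.
-/

namespace Vale.Agent.Lib.P154Q4.Cells

open Kron Ex Filter Topology

/-- power of an expression -/
def pw (a : Ex) : ℕ → Ex
  | 0 => c 1
  | n + 1 => mul a (pw a n)

theorem eval_pw {R : Type} [CommRing R] (y : ℕ → R) (a : Ex) (n : ℕ) :
    (pw a n).eval y = (a.eval y) ^ n := by
  induction n with
  | zero => simp [pw, Ex.eval]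
  | succ n ih => simp [pw, Ex.eval, ih, pow_succ, mul_comm]

/-- exponents of a monomial in the invariants -/
abbrev Mono := ℕ × ℕ × ℕ

/-- degree of a monomial in the point -/
def deg (m : Mono) : ℕ := 2 * m.1 + 3 * m.2.1 + 4 * m.2.2

/-- value of a monomial -/
def monoVal (A B C : ℝ) (m : Mono) : ℝ := A ^ m.1 * B ^ m.2.1 * C ^ m.2.2

/-- expression of a monomial -/
def monoEx (A B C : Ex) (m : Mono) : Ex := mul (pw A m.1) (mul (pw B m.2.1) (pw C m.2.2))

theorem eval_monoEx (y : ℕ → ℝ) (A B C : Ex) (m : Mono) :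
    (monoEx A B C m).eval y = monoVal (A.eval y) (B.eval y) (C.eval y) m := by
  simp [monoEx, monoVal, Ex.eval, eval_pw, mul_assoc]

/-- the coefficients of a polynomial in two groups of invariants: for each monomial of the first
group, the list of monomials of the second group with their coefficients -/
abbrev Terms := List (Mono × List (Mono × ℤ))

/-- value of an inner list -/
def innerVal (g : Mono → ℝ) : List (Mono × ℤ) → ℝ
  | [] => 0
  | t :: l => (t.2 : ℝ) * g t.1 + innerVal g l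

/-- value of a polynomial in two groups -/
def outerVal (f g : Mono → ℝ) : Terms → ℝ
  | [] => 0
  | t :: l => f t.1 * innerVal g t.2 + outerVal f g l

/-- expression of an inner list -/
def innerEx (G : Mono → Ex) : List (Mono × ℤ) → Ex
  | [] => c 0
  | t :: l => add (mul (c t.2) (G t.1)) (innerEx G l)

/-- expression of a polynomial in two groups -/
def outerEx (F G : Mono → Ex) : Terms → Ex
  | [] => c 0
  | t :: l => add (mul (F t.1) (innerEx G t.2)) (outerEx F G l)

theorem eval_innerEx (y : ℕ → ℝ) (G : Mono → Ex) (g : Mono → ℝ) (hG : ∀ m, (G m).eval y = g m)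
    (l : List (Mono × ℤ)) : (innerEx G l).eval y = innerVal g l := by
  induction l with
  | nil => simp [innerEx, innerVal, Ex.eval]
  | cons t l ih => simp [innerEx, innerVal, Ex.eval, ih, hG]

/-- all monomials of the first group have degree at most `Ds`, of the second at most `Dt` -/
def degOK (Ds Dt : ℕ) : Terms → Bool
  | [] => true
  | t :: l => and (Nat.ble (deg t.1) Ds)
      (and ((t.2.all fun u => Nat.ble (deg u.1) Dt)) (degOK Ds Dt l))

theorem eval_innerEx_of (y : ℕ → ℝ) (Dt : ℕ) (G : Mono → Ex) (g : Mono → ℝ)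
    (hG : ∀ m, deg m ≤ Dt → (G m).eval y = g m) (l : List (Mono × ℤ))
    (hl : (l.all fun u => Nat.ble (deg u.1) Dt) = true) : (innerEx G l).eval y = innerVal g l := by
  induction l with
  | nil => simp [innerEx, innerVal, Ex.eval]
  | cons t l ih =>
    simp only [List.all_cons, Bool.and_eq_true] at hl
    simp [innerEx, innerVal, Ex.eval, ih hl.2, hG _ (Nat.le_of_ble_eq_true hl.1)]

theorem eval_outerEx_of (y : ℕ → ℝ) (Ds Dt : ℕ) (F G : Mono → Ex) (f g : Mono → ℝ)
    (hF : ∀ m, deg m ≤ Ds → (F m).eval y = f m) (hG : ∀ m, deg m ≤ Dt → (G m).eval y = g m)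
    (l : Terms) (hl : degOK Ds Dt l = true) : (outerEx F G l).eval y = outerVal f g l := by
  induction l with
  | nil => simp [outerEx, outerVal, Ex.eval]
  | cons t l ih =>
    simp only [degOK, Bool.and_eq_true] at hl
    simp [outerEx, outerVal, Ex.eval, ih hl.2.2, hF _ (Nat.le_of_ble_eq_true hl.1),
      eval_innerEx_of y Dt G g hG t.2 hl.2.1]

theorem innerVal_smul (k : ℝ) (g : Mono → ℝ) (l : List (Mono × ℤ)) :
    innerVal (fun m => k * g m) l = k * innerVal g l := by
  induction l with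
  | nil => simp [innerVal]
  | cons t l ih => simp only [innerVal, ih]; ring

theorem outerVal_smul (k k' : ℝ) (f g : Mono → ℝ) (l : Terms) :
    outerVal (fun m => k * f m) (fun m => k' * g m) l = k * k' * outerVal f g l := by
  induction l with
  | nil => simp [outerVal]
  | cons t l ih => simp only [outerVal, ih, innerVal_smul]; ring

/-- first invariant of a point -/
def sig1 (x y z : ℝ) : ℝ := x ^ 2 + y ^ 2 + z ^ 2

/-- second invariant of a point -/
def pii (x y z : ℝ) : ℝ := x * y * z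

/-- third invariant of a point -/
def sig2 (x y z : ℝ) : ℝ := x ^ 2 * y ^ 2 + x ^ 2 * z ^ 2 + y ^ 2 * z ^ 2

/-- the polynomial at two points -/
def Pval (T : Terms) (x y z x' y' z' : ℝ) : ℝ :=
  outerVal (monoVal (sig1 x y z) (pii x y z) (sig2 x y z))
    (monoVal (sig1 x' y' z') (pii x' y' z') (sig2 x' y' z')) T

/-- expressions for the invariants -/
def sig1Ex (X Y Z : Ex) : Ex := add (mul X X) (add (mul Y Y) (mul Z Z))

/-- expressions for the invariants -/
def piiEx (X Y Z : Ex) : Ex := mul X (mul Y Z)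

/-- expressions for the invariants -/
def sig2Ex (X Y Z : Ex) : Ex :=
  add (mul (mul X X) (mul Y Y)) (add (mul (mul X X) (mul Z Z)) (mul (mul Y Y) (mul Z Z)))

theorem eval_sig1Ex (y : ℕ → ℝ) (X Y Z : Ex) :
    (sig1Ex X Y Z).eval y = sig1 (X.eval y) (Y.eval y) (Z.eval y) := by
  simp [sig1Ex, sig1, Ex.eval]; ring

theorem eval_piiEx (y : ℕ → ℝ) (X Y Z : Ex) :
    (piiEx X Y Z).eval y = pii (X.eval y) (Y.eval y) (Z.eval y) := by
  simp [piiEx, pii, Ex.eval]; ring

theorem eval_sig2Ex (y : ℕ → ℝ) (X Y Z : Ex) :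
    (sig2Ex X Y Z).eval y = sig2 (X.eval y) (Y.eval y) (Z.eval y) := by
  simp [sig2Ex, sig2, Ex.eval]; ring

/-- a tetrahedral cell: a common denominator and four integer points -/
structure Cell where
  d : ℤ
  v0 : ℤ × ℤ × ℤ
  v1 : ℤ × ℤ × ℤ
  v2 : ℤ × ℤ × ℤ
  v3 : ℤ × ℤ × ℤ

/-- membership in a cell -/
def InCell (C : Cell) (x y z : ℝ) : Prop :=
  ∃ b0 b1 b2 b3 : ℝ, 0 ≤ b0 ∧ 0 ≤ b1 ∧ 0 ≤ b2 ∧ 0 ≤ b3 ∧ b0 + b1 + b2 + b3 = 1 ∧
    (C.d : ℝ) * x = b0 * C.v0.1 + b1 * C.v1.1 + b2 * C.v2.1 + b3 * C.v3.1 ∧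
    (C.d : ℝ) * y = b0 * C.v0.2.1 + b1 * C.v1.2.1 + b2 * C.v2.2.1 + b3 * C.v3.2.1 ∧
    (C.d : ℝ) * z = b0 * C.v0.2.2 + b1 * C.v1.2.2 + b2 * C.v2.2.2 + b3 * C.v3.2.2

/-- nonnegativity of the polynomial on a pair of cells -/
def OnPair (T : Terms) (S S' : Cell) : Prop :=
  ∀ x y z x' y' z', InCell S x y z → InCell S' x' y' z' → 0 ≤ Pval T x y z x' y' z'

/-- the chart of a cell: the coordinates as expressions in the variables `a`, `a+1`, `a+2` -/
def formEx (p0 p1 p2 p3 : ℤ) (a : ℕ) : Ex :=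
  add (c p0) (add (mul (c p1) (v a)) (add (mul (c p2) (v (a + 1))) (mul (c p3) (v (a + 2)))))

/-- the first coordinate in the chart -/
def formX (C : Cell) (a : ℕ) : Ex := formEx C.v0.1 C.v1.1 C.v2.1 C.v3.1 a

/-- the second coordinate in the chart -/
def formY (C : Cell) (a : ℕ) : Ex := formEx C.v0.2.1 C.v1.2.1 C.v2.2.1 C.v3.2.1 a

/-- the third coordinate in the chart -/
def formZ (C : Cell) (a : ℕ) : Ex := formEx C.v0.2.2 C.v1.2.2 C.v2.2.2 C.v3.2.2 a

/-- the common denominator in the chart -/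
def formW (C : Cell) (a : ℕ) : Ex :=
  mul (c C.d) (add (c 1) (add (v a) (add (v (a + 1)) (v (a + 2)))))

/-- homogeneous expression of a monomial on a cell -/
def homEx (C : Cell) (a D : ℕ) (m : Mono) : Ex :=
  mul (pw (formW C a) (D - deg m))
    (monoEx (sig1Ex (formX C a) (formY C a) (formZ C a)) (piiEx (formX C a) (formY C a) (formZ C a))
      (sig2Ex (formX C a) (formY C a) (formZ C a)) m)

/-- the polynomial on a pair of cells as an expression in six nonnegative variables: the second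
cell uses the variables `0, 1, 2` and the first one the variables `3, 4, 5` -/
def pairEx (T : Terms) (S S' : Cell) (Ds Dt : ℕ) : Ex :=
  outerEx (homEx S 3 Ds) (homEx S' 0 Dt) T

/-- positive denominator -/
def dPos (C : Cell) : Bool :=
  match C.d with
  | Int.ofNat (_ + 1) => true
  | _ => false

theorem dPos_spec (C : Cell) (h : dPos C = true) : (0 : ℝ) < C.d := by
  unfold dPos at h
  cases hd : C.d with
  | ofNat n =>
    rw [hd] at h
    cases n with
    | zero => simp at h
    | succ n =>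
      have : (0 : ℤ) < Int.ofNat (n + 1) := by
        exact Int.ofNat_lt.2 (Nat.succ_pos n)
      exact_mod_cast this
  | negSucc n => rw [hd] at h; simp at h

/-- the full check of one pair of cells -/
def pairOK (T : Terms) (S S' : Cell) (Ds Dt : ℕ) (bs : ℕ → ℕ) (fuel : ℕ) : Bool :=
  and (dPos S) (and (dPos S') (and (degOK Ds Dt T) (certNN 6 bs fuel (pairEx T S S' Ds Dt))))

theorem monoVal_scale (k : ℝ) (x y z : ℝ) (D : ℕ) (m : Mono) (hm : deg m ≤ D) :
    k ^ (D - deg m) * monoVal (sig1 (k * x) (k * y) (k * z)) (pii (k * x) (k * y) (k * z))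
      (sig2 (k * x) (k * y) (k * z)) m = k ^ D * monoVal (sig1 x y z) (pii x y z) (sig2 x y z) m := by
  have h1 : sig1 (k * x) (k * y) (k * z) = k ^ 2 * sig1 x y z := by simp only [sig1]; ring
  have h2 : pii (k * x) (k * y) (k * z) = k ^ 3 * pii x y z := by simp only [pii]; ring
  have h3 : sig2 (k * x) (k * y) (k * z) = k ^ 4 * sig2 x y z := by simp only [sig2]; ring
  simp only [monoVal, h1, h2, h3, mul_pow, ← pow_mul]
  have hD : D = (D - deg m) + (2 * m.1 + 3 * m.2.1 + 4 * m.2.2) := by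
    have : deg m = 2 * m.1 + 3 * m.2.1 + 4 * m.2.2 := rfl
    omega
  conv_rhs => rw [hD, pow_add, pow_add, pow_add]
  ring

/-- the point in the chart when the first weight is positive -/
theorem chart_eval (C : Cell) (hd : (0 : ℝ) < C.d) (a : ℕ) (y : ℕ → ℝ) (x1 x2 x3 : ℝ)
    (b0 b1 b2 b3 : ℝ) (hb0 : 0 < b0) (hsum : b0 + b1 + b2 + b3 = 1)
    (h1 : (C.d : ℝ) * x1 = b0 * C.v0.1 + b1 * C.v1.1 + b2 * C.v2.1 + b3 * C.v3.1)
    (h2 : (C.d : ℝ) * x2 = b0 * C.v0.2.1 + b1 * C.v1.2.1 + b2 * C.v2.2.1 + b3 * C.v3.2.1)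
    (h3 : (C.d : ℝ) * x3 = b0 * C.v0.2.2 + b1 * C.v1.2.2 + b2 * C.v2.2.2 + b3 * C.v3.2.2)
    (hy1 : y a = b1 / b0) (hy2 : y (a + 1) = b2 / b0) (hy3 : y (a + 2) = b3 / b0) :
    (formW C a).eval y = C.d / b0 ∧ (formX C a).eval y = (C.d / b0) * x1 ∧
      (formY C a).eval y = (C.d / b0) * x2 ∧ (formZ C a).eval y = (C.d / b0) * x3 := by
  have hne : b0 ≠ 0 := hb0.ne'
  refine ⟨?_, ?_, ?_, ?_⟩
  · simp only [formW, Ex.eval, hy1, hy2, hy3]
    have e : (1 : ℝ) + (b1 / b0 + (b2 / b0 + b3 / b0)) = 1 / b0 := by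
      field_simp
      linarith
    push_cast
    rw [e]
    field_simp
  · simp only [formX, formEx, Ex.eval, hy1, hy2, hy3]
    have e : (C.d / b0) * x1 = ((C.d : ℝ) * x1) / b0 := by ring
    rw [e, h1]
    field_simp
    ring
  · simp only [formY, formEx, Ex.eval, hy1, hy2, hy3]
    have e : (C.d / b0) * x2 = ((C.d : ℝ) * x2) / b0 := by ring
    rw [e, h2]
    field_simp
    ring
  · simp only [formZ, formEx, Ex.eval, hy1, hy2, hy3]
    have e : (C.d / b0) * x3 = ((C.d : ℝ) * x3) / b0 := by ring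
    rw [e, h3]
    field_simp
    ring

/-- a pair of points with positive first weights -/
theorem pair_interior (T : Terms) (S S' : Cell) (Ds Dt : ℕ) (bs : ℕ → ℕ) (fuel : ℕ)
    (h : pairOK T S S' Ds Dt bs fuel = true) (x y z x' y' z' : ℝ)
    (b0 b1 b2 b3 b0' b1' b2' b3' : ℝ)
    (hb0 : 0 < b0) (hb1 : 0 ≤ b1) (hb2 : 0 ≤ b2) (hb3 : 0 ≤ b3)
    (hb0' : 0 < b0') (hb1' : 0 ≤ b1') (hb2' : 0 ≤ b2') (hb3' : 0 ≤ b3')
    (hs : b0 + b1 + b2 + b3 = 1) (hs' : b0' + b1' + b2' + b3' = 1)
    (h1 : (S.d : ℝ) * x = b0 * S.v0.1 + b1 * S.v1.1 + b2 * S.v2.1 + b3 * S.v3.1)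
    (h2 : (S.d : ℝ) * y = b0 * S.v0.2.1 + b1 * S.v1.2.1 + b2 * S.v2.2.1 + b3 * S.v3.2.1)
    (h3 : (S.d : ℝ) * z = b0 * S.v0.2.2 + b1 * S.v1.2.2 + b2 * S.v2.2.2 + b3 * S.v3.2.2)
    (h1' : (S'.d : ℝ) * x' = b0' * S'.v0.1 + b1' * S'.v1.1 + b2' * S'.v2.1 + b3' * S'.v3.1)
    (h2' : (S'.d : ℝ) * y' = b0' * S'.v0.2.1 + b1' * S'.v1.2.1 + b2' * S'.v2.2.1 + b3' * S'.v3.2.1)
    (h3' : (S'.d : ℝ) * z' = b0' * S'.v0.2.2 + b1' * S'.v1.2.2 + b2' * S'.v2.2.2 + b3' * S'.v3.2.2) :
    0 ≤ Pval T x y z x' y' z' := by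
  unfold pairOK at h
  simp only [Bool.and_eq_true] at h
  obtain ⟨hd, hd', hdeg, hc⟩ := h
  have hdS := dPos_spec S hd
  have hdS' := dPos_spec S' hd'
  let Y : ℕ → ℝ := fun i =>
    match i with
    | 0 => b1' / b0'
    | 1 => b2' / b0'
    | 2 => b3' / b0'
    | 3 => b1 / b0
    | 4 => b2 / b0
    | _ => b3 / b0
  have hY : ∀ i < 6, 0 ≤ Y i := by
    intro i hi
    interval_cases i <;> simp only [Y] <;> positivity
  have hG := certNN_sound 6 bs fuel _ hc Y hY
  obtain ⟨eW, eX, eY, eZ⟩ := chart_eval S hdS 3 Y x y z b0 b1 b2 b3 hb0 hs h1 h2 h3 rfl rfl rfl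
  obtain ⟨eW', eX', eY', eZ'⟩ :=
    chart_eval S' hdS' 0 Y x' y' z' b0' b1' b2' b3' hb0' hs' h1' h2' h3' rfl rfl rfl
  have hk : (0 : ℝ) < S.d / b0 := by positivity
  have hk' : (0 : ℝ) < S'.d / b0' := by positivity
  have hF : ∀ m, deg m ≤ Ds → (homEx S 3 Ds m).eval Y =
      (S.d / b0) ^ Ds * monoVal (sig1 x y z) (pii x y z) (sig2 x y z) m := by
    intro m hm
    simp only [homEx, Ex.eval, eval_pw, eval_monoEx, eval_sig1Ex, eval_piiEx, eval_sig2Ex,
      eW, eX, eY, eZ]
    exact monoVal_scale _ x y z Ds m hm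
  have hG' : ∀ m, deg m ≤ Dt → (homEx S' 0 Dt m).eval Y =
      (S'.d / b0') ^ Dt * monoVal (sig1 x' y' z') (pii x' y' z') (sig2 x' y' z') m := by
    intro m hm
    simp only [homEx, Ex.eval, eval_pw, eval_monoEx, eval_sig1Ex, eval_piiEx, eval_sig2Ex,
      eW', eX', eY', eZ']
    exact monoVal_scale _ x' y' z' Dt m hm
  have hE := eval_outerEx_of Y Ds Dt _ _ _ _ hF hG' T hdeg
  rw [outerVal_smul] at hE
  unfold pairEx at hG
  rw [hE] at hG
  have hpos : 0 < (S.d / b0 : ℝ) ^ Ds * (S'.d / b0' : ℝ) ^ Dt := by positivity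
  unfold Pval
  exact nonneg_of_mul_nonneg_right hG hpos

theorem continuous_innerVal {X : Type} [TopologicalSpace X] (g : X → Mono → ℝ)
    (hg : ∀ m, Continuous fun p => g p m) (l : List (Mono × ℤ)) :
    Continuous fun p => innerVal (g p) l := by
  induction l with
  | nil => simpa [innerVal] using continuous_const
  | cons t l ih =>
    simp only [innerVal]
    exact (continuous_const.mul (hg _)).add ih

theorem continuous_outerVal {X : Type} [TopologicalSpace X] (f g : X → Mono → ℝ)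
    (hf : ∀ m, Continuous fun p => f p m) (hg : ∀ m, Continuous fun p => g p m) (l : Terms) :
    Continuous fun p => outerVal (f p) (g p) l := by
  induction l with
  | nil => simpa [outerVal] using continuous_const
  | cons t l ih =>
    simp only [outerVal]
    exact ((hf _).mul (continuous_innerVal g hg _)).add ih

/-- the full statement of a pair of cells, including the faces with vanishing first weight -/
theorem pair_sound (T : Terms) (S S' : Cell) (Ds Dt : ℕ) (bs : ℕ → ℕ) (fuel : ℕ)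
    (h : pairOK T S S' Ds Dt bs fuel = true) : OnPair T S S' := by
  intro x y z x' y' z' ⟨b0, b1, b2, b3, hb0, hb1, hb2, hb3, hs, h1, h2, h3⟩
    ⟨b0', b1', b2', b3', hb0', hb1', hb2', hb3', hs', h1', h2', h3'⟩
  have hd : (0 : ℝ) < S.d := by
    unfold pairOK at h
    simp only [Bool.and_eq_true] at h
    exact dPos_spec S h.1
  have hd' : (0 : ℝ) < S'.d := by
    unfold pairOK at h
    simp only [Bool.and_eq_true] at h
    exact dPos_spec S' h.2.1
  -- the perturbed points
  let px : ℝ → ℝ × ℝ × ℝ × ℝ × ℝ × ℝ := fun e =>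
    ((1 - e) * x + e * (S.v0.1 / S.d), (1 - e) * y + e * (S.v0.2.1 / S.d),
      (1 - e) * z + e * (S.v0.2.2 / S.d), (1 - e) * x' + e * (S'.v0.1 / S'.d),
      (1 - e) * y' + e * (S'.v0.2.1 / S'.d), (1 - e) * z' + e * (S'.v0.2.2 / S'.d))
  let g : ℝ → ℝ := fun e =>
    Pval T (px e).1 (px e).2.1 (px e).2.2.1 (px e).2.2.2.1 (px e).2.2.2.2.1 (px e).2.2.2.2.2
  have hcont : Continuous g := by
    have hp1 : Continuous fun e => (px e).1 := by simp only [px]; fun_prop
    have hp2 : Continuous fun e => (px e).2.1 := by simp only [px]; fun_prop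
    have hp3 : Continuous fun e => (px e).2.2.1 := by simp only [px]; fun_prop
    have hp4 : Continuous fun e => (px e).2.2.2.1 := by simp only [px]; fun_prop
    have hp5 : Continuous fun e => (px e).2.2.2.2.1 := by simp only [px]; fun_prop
    have hp6 : Continuous fun e => (px e).2.2.2.2.2 := by simp only [px]; fun_prop
    refine continuous_outerVal _ _ ?_ ?_ T
    · intro m
      simp only [monoVal, sig1, pii, sig2]
      fun_prop
    · intro m
      simp only [monoVal, sig1, pii, sig2]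
      fun_prop
  have hpos : ∀ e : ℝ, 0 < e → e < 1 → 0 ≤ g e := by
    intro e he0 he1
    have h1e : 0 ≤ 1 - e := by linarith
    have hne : (S.d : ℝ) ≠ 0 := hd.ne'
    have hne' : (S'.d : ℝ) ≠ 0 := hd'.ne'
    refine pair_interior T S S' Ds Dt bs fuel h _ _ _ _ _ _
      ((1 - e) * b0 + e) ((1 - e) * b1) ((1 - e) * b2) ((1 - e) * b3)
      ((1 - e) * b0' + e) ((1 - e) * b1') ((1 - e) * b2') ((1 - e) * b3')
      (by positivity) (by positivity) (by positivity) (by positivity)
      (by positivity) (by positivity) (by positivity) (by positivity)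
      (by linear_combination (1 - e) * hs) (by linear_combination (1 - e) * hs')
      ?_ ?_ ?_ ?_ ?_ ?_
    · simp only [px]; field_simp; linear_combination (1 - e) * h1
    · simp only [px]; field_simp; linear_combination (1 - e) * h2
    · simp only [px]; field_simp; linear_combination (1 - e) * h3
    · simp only [px]; field_simp; linear_combination (1 - e) * h1'
    · simp only [px]; field_simp; linear_combination (1 - e) * h2'
    · simp only [px]; field_simp; linear_combination (1 - e) * h3'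
  have hg0 : g 0 = Pval T x y z x' y' z' := by
    simp [g, px]
  rw [← hg0]
  have hT : Tendsto g (𝓝[>] 0) (𝓝 (g 0)) := (hcont.tendsto 0).mono_left nhdsWithin_le_nhds
  refine ge_of_tendsto hT ?_
  filter_upwards [Ioo_mem_nhdsGT (show (0 : ℝ) < 1 by norm_num)] with e he
  exact hpos e he.1 he.2

/-! ### Bisection of cells -/

/-- twice a point -/
def dbl (u : ℤ × ℤ × ℤ) : ℤ × ℤ × ℤ := (2 * u.1, 2 * u.2.1, 2 * u.2.2)

/-- sum of two points -/
def sumv (u w : ℤ × ℤ × ℤ) : ℤ × ℤ × ℤ := (u.1 + w.1, u.2.1 + w.2.1, u.2.2 + w.2.2)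

/-- the first half of a cell: the edge number `e` is cut, the first end of the edge is kept -/
def bisA (e : ℕ) (C : Cell) : Cell :=
  match e with
  | 0 => ⟨2 * C.d, dbl C.v0, sumv C.v0 C.v1, dbl C.v2, dbl C.v3⟩
  | 1 => ⟨2 * C.d, dbl C.v0, dbl C.v1, sumv C.v0 C.v2, dbl C.v3⟩
  | 2 => ⟨2 * C.d, dbl C.v0, dbl C.v1, dbl C.v2, sumv C.v0 C.v3⟩
  | 3 => ⟨2 * C.d, dbl C.v0, dbl C.v1, sumv C.v1 C.v2, dbl C.v3⟩
  | 4 => ⟨2 * C.d, dbl C.v0, dbl C.v1, dbl C.v2, sumv C.v1 C.v3⟩
  | _ => ⟨2 * C.d, dbl C.v0, dbl C.v1, dbl C.v2, sumv C.v2 C.v3⟩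

/-- the second half of a cell: the edge number `e` is cut, the second end of the edge is kept -/
def bisB (e : ℕ) (C : Cell) : Cell :=
  match e with
  | 0 => ⟨2 * C.d, sumv C.v0 C.v1, dbl C.v1, dbl C.v2, dbl C.v3⟩
  | 1 => ⟨2 * C.d, sumv C.v0 C.v2, dbl C.v1, dbl C.v2, dbl C.v3⟩
  | 2 => ⟨2 * C.d, sumv C.v0 C.v3, dbl C.v1, dbl C.v2, dbl C.v3⟩
  | 3 => ⟨2 * C.d, dbl C.v0, sumv C.v1 C.v2, dbl C.v2, dbl C.v3⟩
  | 4 => ⟨2 * C.d, dbl C.v0, sumv C.v1 C.v3, dbl C.v2, dbl C.v3⟩
  | _ => ⟨2 * C.d, dbl C.v0, dbl C.v1, sumv C.v2 C.v3, dbl C.v3⟩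

theorem inCell_bis (e : ℕ) (C : Cell) {x y z : ℝ} (h : InCell C x y z) :
    InCell (bisA e C) x y z ∨ InCell (bisB e C) x y z := by
  obtain ⟨b0, b1, b2, b3, h0, h1, h2, h3, hs, hx, hy, hz⟩ := h
  by_cases he0 : e = 0
  · have he : bisA e C = ⟨2 * C.d, dbl C.v0, sumv C.v0 C.v1, dbl C.v2, dbl C.v3⟩ ∧
        bisB e C = ⟨2 * C.d, sumv C.v0 C.v1, dbl C.v1, dbl C.v2, dbl C.v3⟩ := by
      subst he0; exact ⟨rfl, rfl⟩
    rw [he.1, he.2]
    rcases le_total b1 b0 with hij | hij
    · left
      refine ⟨b0 - b1, 2 * b1, b2, b3, by linarith, by linarith, by linarith, by linarith, by linarith, ?_, ?_, ?_⟩ <;>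
        simp only [dbl, sumv] <;> push_cast
      · linear_combination 2 * hx
      · linear_combination 2 * hy
      · linear_combination 2 * hz
    · right
      refine ⟨2 * b0, b1 - b0, b2, b3, by linarith, by linarith, by linarith, by linarith, by linarith, ?_, ?_, ?_⟩ <;>
        simp only [dbl, sumv] <;> push_cast
      · linear_combination 2 * hx
      · linear_combination 2 * hy
      · linear_combination 2 * hz
  by_cases he1 : e = 1
  · have he : bisA e C = ⟨2 * C.d, dbl C.v0, dbl C.v1, sumv C.v0 C.v2, dbl C.v3⟩ ∧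
        bisB e C = ⟨2 * C.d, sumv C.v0 C.v2, dbl C.v1, dbl C.v2, dbl C.v3⟩ := by
      subst he1; exact ⟨rfl, rfl⟩
    rw [he.1, he.2]
    rcases le_total b2 b0 with hij | hij
    · left
      refine ⟨b0 - b2, b1, 2 * b2, b3, by linarith, by linarith, by linarith, by linarith, by linarith, ?_, ?_, ?_⟩ <;>
        simp only [dbl, sumv] <;> push_cast
      · linear_combination 2 * hx
      · linear_combination 2 * hy
      · linear_combination 2 * hz
    · right
      refine ⟨2 * b0, b1, b2 - b0, b3, by linarith, by linarith, by linarith, by linarith, by linarith, ?_, ?_, ?_⟩ <;>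
        simp only [dbl, sumv] <;> push_cast
      · linear_combination 2 * hx
      · linear_combination 2 * hy
      · linear_combination 2 * hz
  by_cases he2 : e = 2
  · have he : bisA e C = ⟨2 * C.d, dbl C.v0, dbl C.v1, dbl C.v2, sumv C.v0 C.v3⟩ ∧
        bisB e C = ⟨2 * C.d, sumv C.v0 C.v3, dbl C.v1, dbl C.v2, dbl C.v3⟩ := by
      subst he2; exact ⟨rfl, rfl⟩
    rw [he.1, he.2]
    rcases le_total b3 b0 with hij | hij
    · left
      refine ⟨b0 - b3, b1, b2, 2 * b3, by linarith, by linarith, by linarith, by linarith, by linarith, ?_, ?_, ?_⟩ <;>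
        simp only [dbl, sumv] <;> push_cast
      · linear_combination 2 * hx
      · linear_combination 2 * hy
      · linear_combination 2 * hz
    · right
      refine ⟨2 * b0, b1, b2, b3 - b0, by linarith, by linarith, by linarith, by linarith, by linarith, ?_, ?_, ?_⟩ <;>
        simp only [dbl, sumv] <;> push_cast
      · linear_combination 2 * hx
      · linear_combination 2 * hy
      · linear_combination 2 * hz
  by_cases he3 : e = 3
  · have he : bisA e C = ⟨2 * C.d, dbl C.v0, dbl C.v1, sumv C.v1 C.v2, dbl C.v3⟩ ∧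
        bisB e C = ⟨2 * C.d, dbl C.v0, sumv C.v1 C.v2, dbl C.v2, dbl C.v3⟩ := by
      subst he3; exact ⟨rfl, rfl⟩
    rw [he.1, he.2]
    rcases le_total b2 b1 with hij | hij
    · left
      refine ⟨b0, b1 - b2, 2 * b2, b3, by linarith, by linarith, by linarith, by linarith, by linarith, ?_, ?_, ?_⟩ <;>
        simp only [dbl, sumv] <;> push_cast
      · linear_combination 2 * hx
      · linear_combination 2 * hy
      · linear_combination 2 * hz
    · right
      refine ⟨b0, 2 * b1, b2 - b1, b3, by linarith, by linarith, by linarith, by linarith, by linarith, ?_, ?_, ?_⟩ <;>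
        simp only [dbl, sumv] <;> push_cast
      · linear_combination 2 * hx
      · linear_combination 2 * hy
      · linear_combination 2 * hz
  by_cases he4 : e = 4
  · have he : bisA e C = ⟨2 * C.d, dbl C.v0, dbl C.v1, dbl C.v2, sumv C.v1 C.v3⟩ ∧
        bisB e C = ⟨2 * C.d, dbl C.v0, sumv C.v1 C.v3, dbl C.v2, dbl C.v3⟩ := by
      subst he4; exact ⟨rfl, rfl⟩
    rw [he.1, he.2]
    rcases le_total b3 b1 with hij | hij
    · left
      refine ⟨b0, b1 - b3, b2, 2 * b3, by linarith, by linarith, by linarith, by linarith, by linarith, ?_, ?_, ?_⟩ <;>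
        simp only [dbl, sumv] <;> push_cast
      · linear_combination 2 * hx
      · linear_combination 2 * hy
      · linear_combination 2 * hz
    · right
      refine ⟨b0, 2 * b1, b2, b3 - b1, by linarith, by linarith, by linarith, by linarith, by linarith, ?_, ?_, ?_⟩ <;>
        simp only [dbl, sumv] <;> push_cast
      · linear_combination 2 * hx
      · linear_combination 2 * hy
      · linear_combination 2 * hz
  · have he : bisA e C = ⟨2 * C.d, dbl C.v0, dbl C.v1, dbl C.v2, sumv C.v2 C.v3⟩ ∧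
        bisB e C = ⟨2 * C.d, dbl C.v0, dbl C.v1, sumv C.v2 C.v3, dbl C.v3⟩ := by
      unfold bisA bisB; split <;> simp_all
    rw [he.1, he.2]
    rcases le_total b3 b2 with hij | hij
    · left
      refine ⟨b0, b1, b2 - b3, 2 * b3, by linarith, by linarith, by linarith, by linarith, by linarith, ?_, ?_, ?_⟩ <;>
        simp only [dbl, sumv] <;> push_cast
      · linear_combination 2 * hx
      · linear_combination 2 * hy
      · linear_combination 2 * hz
    · right
      refine ⟨b0, b1, 2 * b2, b3 - b2, by linarith, by linarith, by linarith, by linarith, by linarith, ?_, ?_, ?_⟩ <;>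
        simp only [dbl, sumv] <;> push_cast
      · linear_combination 2 * hx
      · linear_combination 2 * hy
      · linear_combination 2 * hz

/-- a tree of bisections with the exponents of the bases at the leaves -/
inductive CT : Type
  | leaf : List ℕ → CT
  | s : ℕ → CT → CT → CT
  | t : ℕ → CT → CT → CT

/-- member of a list of naturals -/
def nth : List ℕ → ℕ → ℕ
  | [], _ => 1
  | a :: _, 0 => a
  | _ :: l, n + 1 => nth l n

/-- the check of a tree of bisections -/
def treeOK (T : Terms) (Ds Dt fuel : ℕ) : CT → Cell → Cell → Bool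
  | CT.leaf bs, S, S' => pairOK T S S' Ds Dt (nth bs) fuel
  | CT.s e l r, S, S' => and (treeOK T Ds Dt fuel l (bisA e S) S') (treeOK T Ds Dt fuel r (bisB e S) S')
  | CT.t e l r, S, S' => and (treeOK T Ds Dt fuel l S (bisA e S')) (treeOK T Ds Dt fuel r S (bisB e S'))

theorem treeOK_sound (T : Terms) (Ds Dt fuel : ℕ) (tr : CT) (S S' : Cell)
    (h : treeOK T Ds Dt fuel tr S S' = true) : OnPair T S S' := by
  induction tr generalizing S S' with
  | leaf bs => exact pair_sound T S S' Ds Dt _ fuel h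
  | s e l r ihl ihr =>
    simp only [treeOK, Bool.and_eq_true] at h
    intro x y z x' y' z' hS hS'
    rcases inCell_bis e S hS with hA | hB
    · exact ihl _ _ h.1 x y z x' y' z' hA hS'
    · exact ihr _ _ h.2 x y z x' y' z' hB hS'
  | t e l r ihl ihr =>
    simp only [treeOK, Bool.and_eq_true] at h
    intro x y z x' y' z' hS hS'
    rcases inCell_bis e S' hS' with hA | hB
    · exact ihl _ _ h.1 x y z x' y' z' hS hA
    · exact ihr _ _ h.2 x y z x' y' z' hS hB

end Vale.Agent.Lib.P154Q4.Cells
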