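import Vale.Agent.Lib.P154Q4.Cells

/-!
Assembling nonnegativity on a pair of cells from the leaves of a bisection tree, where each leaf is
checked in a declaration of its own.
-/

namespace Vale.Agent.Lib.P154Q4.Cells

theorem onPair_s {T : Terms} (e : ℕ) {S S' : Cell} (h1 : OnPair T (bisA e S) S')
    (h2 : OnPair T (bisB e S) S') : OnPair T S S' := by
  intro x y z x' y' z' hS hS'
  rcases inCell_bis e S hS with hA | hB
  · exact h1 x y z x' y' z' hA hS'
  · exact h2 x y z x' y' z' hB hS'

theorem onPair_t {T : Terms} (e : ℕ) {S S' : Cell} (h1 : OnPair T S (bisA e S'))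
    (h2 : OnPair T S (bisB e S')) : OnPair T S S' := by
  intro x y z x' y' z' hS hS'
  rcases inCell_bis e S' hS' with hA | hB
  · exact h1 x y z x' y' z' hS hA
  · exact h2 x y z x' y' z' hS hB

end Vale.Agent.Lib.P154Q4.Cells
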