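import Mathlib

/-!
Symmetric expectation functionals on bounded functions of a quadruple: the channel, the Bayesian
product and mixtures, for the four-state Potts channel.
-/

namespace Vale.Agent.Lib.P154Q4

/-- functions of a quadruple -/
abbrev Fn4 := ℝ → ℝ → ℝ → ℝ → ℝ

/-- functionals on functions of a quadruple -/
abbrev Ex4 := Fn4 → ℝ

/-- the probability simplex -/
structure Simp (a b c d : ℝ) : Prop where
  ha : 0 ≤ a
  hb : 0 ≤ b
  hc : 0 ≤ c
  hd : 0 ≤ d
  hs : a + b + c + d = 1

namespace Simp

theorem swap {a b c d : ℝ} (h : Simp a b c d) : Simp b a c d :=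
  ⟨h.hb, h.ha, h.hc, h.hd, by linarith [h.hs]⟩

theorem cyc {a b c d : ℝ} (h : Simp a b c d) : Simp b c d a :=
  ⟨h.hb, h.hc, h.hd, h.ha, by linarith [h.hs]⟩

theorem swap23 {a b c d : ℝ} (h : Simp a b c d) : Simp a c b d :=
  ⟨h.ha, h.hc, h.hb, h.hd, by linarith [h.hs]⟩

theorem swap34 {a b c d : ℝ} (h : Simp a b c d) : Simp a b d c :=
  ⟨h.ha, h.hb, h.hd, h.hc, by linarith [h.hs]⟩

theorem le_one {a b c d : ℝ} (h : Simp a b c d) : a ≤ 1 ∧ b ≤ 1 ∧ c ≤ 1 ∧ d ≤ 1 := by
  have h1 := h.ha
  have h2 := h.hb
  have h3 := h.hc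
  have h4 := h.hd
  have h5 := h.hs
  refine ⟨by linarith, by linarith, by linarith, by linarith⟩

end Simp

theorem simp_centre : Simp (1 / 4) (1 / 4) (1 / 4) (1 / 4) :=
  ⟨by norm_num, by norm_num, by norm_num, by norm_num, by norm_num⟩

/-- bounded on the simplex -/
def Bd (f : Fn4) : Prop := ∃ C : ℝ, ∀ a b c d, Simp a b c d → |f a b c d| ≤ C

namespace Bd

theorem const (t : ℝ) : Bd (fun _ _ _ _ => t) := ⟨|t|, fun _ _ _ _ _ => le_refl _⟩

theorem fst : Bd (fun a _ _ _ => a) :=
  ⟨1, fun a b c d h => by rw [abs_of_nonneg h.ha]; exact h.le_one.1⟩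

theorem snd : Bd (fun _ b _ _ => b) :=
  ⟨1, fun a b c d h => by rw [abs_of_nonneg h.hb]; exact h.le_one.2.1⟩

theorem thd : Bd (fun _ _ c _ => c) :=
  ⟨1, fun a b c d h => by rw [abs_of_nonneg h.hc]; exact h.le_one.2.2.1⟩

theorem fth : Bd (fun _ _ _ d => d) :=
  ⟨1, fun a b c d h => by rw [abs_of_nonneg h.hd]; exact h.le_one.2.2.2⟩

theorem add {f g : Fn4} (hf : Bd f) (hg : Bd g) : Bd (fun a b c d => f a b c d + g a b c d) := by
  obtain ⟨C, hC⟩ := hf
  obtain ⟨D, hD⟩ := hg
  exact ⟨C + D, fun a b c d h => (abs_add_le _ _).trans (add_le_add (hC a b c d h) (hD a b c d h))⟩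

theorem mul {f g : Fn4} (hf : Bd f) (hg : Bd g) : Bd (fun a b c d => f a b c d * g a b c d) := by
  obtain ⟨C, hC⟩ := hf
  obtain ⟨D, hD⟩ := hg
  refine ⟨C * D, fun a b c d h => ?_⟩
  rw [abs_mul]
  exact mul_le_mul (hC a b c d h) (hD a b c d h) (abs_nonneg _) ((abs_nonneg _).trans (hC a b c d h))

theorem smul (t : ℝ) {f : Fn4} (hf : Bd f) : Bd (fun a b c d => t * f a b c d) :=
  (const t).mul hf

theorem neg {f : Fn4} (hf : Bd f) : Bd (fun a b c d => - f a b c d) := by
  have := smul (-1) hf
  simpa using this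

theorem sub {f g : Fn4} (hf : Bd f) (hg : Bd g) : Bd (fun a b c d => f a b c d - g a b c d) := by
  have := hf.add hg.neg
  simpa [sub_eq_add_neg] using this

theorem pow {f : Fn4} (hf : Bd f) (n : ℕ) : Bd (fun a b c d => (f a b c d) ^ n) := by
  induction n with
  | zero => simpa using const 1
  | succ n ih =>
    have := ih.mul hf
    simpa [pow_succ] using this

theorem swap {f : Fn4} (hf : Bd f) : Bd (fun a b c d => f b a c d) := by
  obtain ⟨C, hC⟩ := hf
  exact ⟨C, fun a b c d h => hC _ _ _ _ h.swap⟩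

theorem cyc {f : Fn4} (hf : Bd f) : Bd (fun a b c d => f b c d a) := by
  obtain ⟨C, hC⟩ := hf
  exact ⟨C, fun a b c d h => hC _ _ _ _ h.cyc⟩

theorem swap23 {f : Fn4} (hf : Bd f) : Bd (fun a b c d => f a c b d) := by
  obtain ⟨C, hC⟩ := hf
  exact ⟨C, fun a b c d h => hC _ _ _ _ h.swap23⟩

theorem swap34 {f : Fn4} (hf : Bd f) : Bd (fun a b c d => f a b d c) := by
  obtain ⟨C, hC⟩ := hf
  exact ⟨C, fun a b c d h => hC _ _ _ _ h.swap34⟩

theorem nonneg_const {f : Fn4} {C : ℝ} (hC : ∀ a b c d, Simp a b c d → |f a b c d| ≤ C) : 0 ≤ C :=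
  (abs_nonneg _).trans (hC _ _ _ _ simp_centre)

end Bd

/-- A symmetric expectation functional on bounded functions, supported on `K`. -/
structure BExp (E : Ex4) (K : ℝ → ℝ → ℝ → ℝ → Prop) : Prop where
  sup : ∀ a b c d, K a b c d → Simp a b c d
  add : ∀ f g : Fn4, Bd f → Bd g → E (fun a b c d => f a b c d + g a b c d) = E f + E g
  smul : ∀ (t : ℝ) (f : Fn4), E (fun a b c d => t * f a b c d) = t * E f
  nonneg : ∀ f : Fn4, (∀ a b c d, K a b c d → 0 ≤ f a b c d) → 0 ≤ E f
  congr : ∀ f g : Fn4, (∀ a b c d, K a b c d → f a b c d = g a b c d) → E f = E g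
  one : E (fun _ _ _ _ => 1) = 1
  swap : ∀ f : Fn4, E (fun a b c d => f b a c d) = E f
  cyc : ∀ f : Fn4, E (fun a b c d => f b c d a) = E f

/-- the average over the twenty four permutations of the arguments -/
noncomputable def avg24 (F : Fn4) : Fn4 := fun p q r s =>
  (1 / 24) * (F p q r s + F p q s r + F p r q s + F p r s q + F p s q r + F p s r q
    + (F q p r s + F q p s r + F q r p s + F q r s p + F q s p r + F q s r p)
    + (F r p q s + F r p s q + F r q p s + F r q s p + F r s p q + F r s q p)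
    + (F s p q r + F s p r q + F s q p r + F s q r p + F s r p q + F s r q p))

/-- the average is bounded -/
theorem Bd.avg24 {F : Fn4} (hF : Bd F) : Bd (avg24 F) := by
  have b_qprs : Bd (fun p q r s => F q p r s) := hF.swap
  have b_prqs : Bd (fun p q r s => F p r q s) := hF.swap23
  have b_pqsr : Bd (fun p q r s => F p q s r) := hF.swap34
  have b_rpqs : Bd (fun p q r s => F r p q s) := b_qprs.swap23
  have b_qpsr : Bd (fun p q r s => F q p s r) := b_qprs.swap34
  have b_qrps : Bd (fun p q r s => F q r p s) := b_prqs.swap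
  have b_psqr : Bd (fun p q r s => F p s q r) := b_prqs.swap34
  have b_prsq : Bd (fun p q r s => F p r s q) := b_pqsr.swap23
  have b_rqps : Bd (fun p q r s => F r q p s) := b_rpqs.swap
  have b_spqr : Bd (fun p q r s => F s p q r) := b_rpqs.swap34
  have b_rpsq : Bd (fun p q r s => F r p s q) := b_qpsr.swap23
  have b_qspr : Bd (fun p q r s => F q s p r) := b_qrps.swap34
  have b_psrq : Bd (fun p q r s => F p s r q) := b_psqr.swap23
  have b_qrsp : Bd (fun p q r s => F q r s p) := b_prsq.swap
  have b_sqpr : Bd (fun p q r s => F s q p r) := b_rqps.swap34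
  have b_sprq : Bd (fun p q r s => F s p r q) := b_spqr.swap23
  have b_rqsp : Bd (fun p q r s => F r q s p) := b_rpsq.swap
  have b_rspq : Bd (fun p q r s => F r s p q) := b_qspr.swap23
  have b_qsrp : Bd (fun p q r s => F q s r p) := b_psrq.swap
  have b_srpq : Bd (fun p q r s => F s r p q) := b_sqpr.swap23
  have b_sqrp : Bd (fun p q r s => F s q r p) := b_sprq.swap
  have b_rsqp : Bd (fun p q r s => F r s q p) := b_rspq.swap
  have b_srqp : Bd (fun p q r s => F s r q p) := b_srpq.swap
  have b_pqrs : Bd (fun p q r s => F p q r s) := hF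
  have s00 : Bd (fun p q r s => F p q r s) := b_pqrs
  have s01 : Bd (fun p q r s => F p q r s + F p q s r) := s00.add b_pqsr
  have s02 : Bd (fun p q r s => F p q r s + F p q s r + F p r q s) := s01.add b_prqs
  have s03 : Bd (fun p q r s => F p q r s + F p q s r + F p r q s + F p r s q) := s02.add b_prsq
  have s04 : Bd (fun p q r s => F p q r s + F p q s r + F p r q s + F p r s q + F p s q r) := s03.add b_psqr
  have s05 : Bd (fun p q r s => F p q r s + F p q s r + F p r q s + F p r s q + F p s q r + F p s r q) := s04.add b_psrq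
  have s10 : Bd (fun p q r s => F q p r s) := b_qprs
  have s11 : Bd (fun p q r s => F q p r s + F q p s r) := s10.add b_qpsr
  have s12 : Bd (fun p q r s => F q p r s + F q p s r + F q r p s) := s11.add b_qrps
  have s13 : Bd (fun p q r s => F q p r s + F q p s r + F q r p s + F q r s p) := s12.add b_qrsp
  have s14 : Bd (fun p q r s => F q p r s + F q p s r + F q r p s + F q r s p + F q s p r) := s13.add b_qspr
  have s15 : Bd (fun p q r s => F q p r s + F q p s r + F q r p s + F q r s p + F q s p r + F q s r p) := s14.add b_qsrp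
  have s20 : Bd (fun p q r s => F r p q s) := b_rpqs
  have s21 : Bd (fun p q r s => F r p q s + F r p s q) := s20.add b_rpsq
  have s22 : Bd (fun p q r s => F r p q s + F r p s q + F r q p s) := s21.add b_rqps
  have s23 : Bd (fun p q r s => F r p q s + F r p s q + F r q p s + F r q s p) := s22.add b_rqsp
  have s24 : Bd (fun p q r s => F r p q s + F r p s q + F r q p s + F r q s p + F r s p q) := s23.add b_rspq
  have s25 : Bd (fun p q r s => F r p q s + F r p s q + F r q p s + F r q s p + F r s p q + F r s q p) := s24.add b_rsqp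
  have s30 : Bd (fun p q r s => F s p q r) := b_spqr
  have s31 : Bd (fun p q r s => F s p q r + F s p r q) := s30.add b_sprq
  have s32 : Bd (fun p q r s => F s p q r + F s p r q + F s q p r) := s31.add b_sqpr
  have s33 : Bd (fun p q r s => F s p q r + F s p r q + F s q p r + F s q r p) := s32.add b_sqrp
  have s34 : Bd (fun p q r s => F s p q r + F s p r q + F s q p r + F s q r p + F s r p q) := s33.add b_srpq
  have s35 : Bd (fun p q r s => F s p q r + F s p r q + F s q p r + F s q r p + F s r p q + F s r q p) := s34.add b_srqp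
  have o0 : Bd (fun p q r s => F p q r s + F p q s r + F p r q s + F p r s q + F p s q r + F p s r q) := s05
  have o1 : Bd (fun p q r s => F p q r s + F p q s r + F p r q s + F p r s q + F p s q r + F p s r q + (F q p r s + F q p s r + F q r p s + F q r s p + F q s p r + F q s r p)) := o0.add s15
  have o2 : Bd (fun p q r s => F p q r s + F p q s r + F p r q s + F p r s q + F p s q r + F p s r q + (F q p r s + F q p s r + F q r p s + F q r s p + F q s p r + F q s r p) + (F r p q s + F r p s q + F r q p s + F r q s p + F r s p q + F r s q p)) := o1.add s25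
  have o3 : Bd (fun p q r s => F p q r s + F p q s r + F p r q s + F p r s q + F p s q r + F p s r q + (F q p r s + F q p s r + F q r p s + F q r s p + F q s p r + F q s r p) + (F r p q s + F r p s q + F r q p s + F r q s p + F r s p q + F r s q p) + (F s p q r + F s p r q + F s q p r + F s q r p + F s r p q + F s r q p)) := o2.add s35
  exact Bd.smul _ o3

namespace BExp

variable {E : Ex4} {K : ℝ → ℝ → ℝ → ℝ → Prop}

theorem neg (h : BExp E K) (f : Fn4) : E (fun a b c d => - f a b c d) = - E f := by
  have := h.smul (-1) f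
  simpa using this

theorem sub (h : BExp E K) {f g : Fn4} (hf : Bd f) (hg : Bd g) :
    E (fun a b c d => f a b c d - g a b c d) = E f - E g := by
  have h1 := h.add f (fun a b c d => - g a b c d) hf hg.neg
  rw [h.neg] at h1
  simpa [sub_eq_add_neg] using h1

theorem mono (h : BExp E K) {f g : Fn4} (hf : Bd f) (hg : Bd g)
    (hfg : ∀ a b c d, K a b c d → f a b c d ≤ g a b c d) : E f ≤ E g := by
  have h1 := h.nonneg (fun a b c d => g a b c d - f a b c d)
    (fun a b c d hK => sub_nonneg.2 (hfg a b c d hK))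
  rw [h.sub hg hf] at h1
  linarith

theorem const (h : BExp E K) (t : ℝ) : E (fun _ _ _ _ => t) = t := by
  have := h.smul t (fun _ _ _ _ => 1)
  simpa [h.one] using this

theorem abs_le (h : BExp E K) {f : Fn4} {C : ℝ} (hC : ∀ a b c d, Simp a b c d → |f a b c d| ≤ C) :
    |E f| ≤ C := by
  have hf : Bd f := ⟨C, hC⟩
  have h1 := h.mono (f := f) (g := fun _ _ _ _ => C) hf (Bd.const C)
    (fun a b c d hK => (le_abs_self _).trans (hC a b c d (h.sup a b c d hK)))
  have h2 := h.mono (f := fun _ _ _ _ => -C) (g := f) (Bd.const (-C)) hf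
    (fun a b c d hK => by
      have := _root_.abs_le.1 (hC a b c d (h.sup a b c d hK))
      exact this.1)
  rw [h.const] at h1 h2
  exact _root_.abs_le.2 ⟨h2, h1⟩

theorem rot (h : BExp E K) (f : Fn4) : E (fun a b c d => f d a b c) = E f :=
  (h.cyc (fun a b c d => f c d a b)).trans ((h.cyc (fun a b c d => f b c d a)).trans (h.cyc f))

theorem swap23 (h : BExp E K) (f : Fn4) : E (fun a b c d => f a c b d) = E f :=
  (h.cyc (fun a b c d => f d b a c)).trans ((h.swap (fun a b c d => f d a b c)).trans (rot h f))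

theorem swap34 (h : BExp E K) (f : Fn4) : E (fun a b c d => f a b d c) = E f :=
  (h.cyc (fun a b c d => f d a c b)).trans ((swap23 h (fun a b c d => f d a b c)).trans (rot h f))

/-- average over the permutations -/
theorem sym24 (h : BExp E K) {F : Fn4} (hF : Bd F) : E (avg24 F) = E F := by
  have h_qprs : E (fun p q r s => F q p r s) = E F := (h.swap (fun p q r s => F p q r s)).trans rfl
  have h_prqs : E (fun p q r s => F p r q s) = E F := (h.swap23 (fun p q r s => F p q r s)).trans rfl
  have h_pqsr : E (fun p q r s => F p q s r) = E F := (h.swap34 (fun p q r s => F p q r s)).trans rfl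
  have h_rpqs : E (fun p q r s => F r p q s) = E F := (h.swap23 (fun p q r s => F q p r s)).trans h_qprs
  have h_qpsr : E (fun p q r s => F q p s r) = E F := (h.swap34 (fun p q r s => F q p r s)).trans h_qprs
  have h_qrps : E (fun p q r s => F q r p s) = E F := (h.swap (fun p q r s => F p r q s)).trans h_prqs
  have h_psqr : E (fun p q r s => F p s q r) = E F := (h.swap34 (fun p q r s => F p r q s)).trans h_prqs
  have h_prsq : E (fun p q r s => F p r s q) = E F := (h.swap23 (fun p q r s => F p q s r)).trans h_pqsr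
  have h_rqps : E (fun p q r s => F r q p s) = E F := (h.swap (fun p q r s => F r p q s)).trans h_rpqs
  have h_spqr : E (fun p q r s => F s p q r) = E F := (h.swap34 (fun p q r s => F r p q s)).trans h_rpqs
  have h_rpsq : E (fun p q r s => F r p s q) = E F := (h.swap23 (fun p q r s => F q p s r)).trans h_qpsr
  have h_qspr : E (fun p q r s => F q s p r) = E F := (h.swap34 (fun p q r s => F q r p s)).trans h_qrps
  have h_psrq : E (fun p q r s => F p s r q) = E F := (h.swap23 (fun p q r s => F p s q r)).trans h_psqr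
  have h_qrsp : E (fun p q r s => F q r s p) = E F := (h.swap (fun p q r s => F p r s q)).trans h_prsq
  have h_sqpr : E (fun p q r s => F s q p r) = E F := (h.swap34 (fun p q r s => F r q p s)).trans h_rqps
  have h_sprq : E (fun p q r s => F s p r q) = E F := (h.swap23 (fun p q r s => F s p q r)).trans h_spqr
  have h_rqsp : E (fun p q r s => F r q s p) = E F := (h.swap (fun p q r s => F r p s q)).trans h_rpsq
  have h_rspq : E (fun p q r s => F r s p q) = E F := (h.swap23 (fun p q r s => F q s p r)).trans h_qspr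
  have h_qsrp : E (fun p q r s => F q s r p) = E F := (h.swap (fun p q r s => F p s r q)).trans h_psrq
  have h_srpq : E (fun p q r s => F s r p q) = E F := (h.swap23 (fun p q r s => F s q p r)).trans h_sqpr
  have h_sqrp : E (fun p q r s => F s q r p) = E F := (h.swap (fun p q r s => F s p r q)).trans h_sprq
  have h_rsqp : E (fun p q r s => F r s q p) = E F := (h.swap (fun p q r s => F r s p q)).trans h_rspq
  have h_srqp : E (fun p q r s => F s r q p) = E F := (h.swap (fun p q r s => F s r p q)).trans h_srpq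
  have bd : ∀ G : Fn4, Bd G → Bd (fun p q r s => G q p r s) ∧ Bd (fun p q r s => G p r q s) ∧ Bd (fun p q r s => G p q s r) := fun G hG => ⟨hG.swap, hG.swap23, hG.swap34⟩
  have b_qprs : Bd (fun p q r s => F q p r s) := hF.swap
  have b_prqs : Bd (fun p q r s => F p r q s) := hF.swap23
  have b_pqsr : Bd (fun p q r s => F p q s r) := hF.swap34
  have b_rpqs : Bd (fun p q r s => F r p q s) := b_qprs.swap23
  have b_qpsr : Bd (fun p q r s => F q p s r) := b_qprs.swap34
  have b_qrps : Bd (fun p q r s => F q r p s) := b_prqs.swap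
  have b_psqr : Bd (fun p q r s => F p s q r) := b_prqs.swap34
  have b_prsq : Bd (fun p q r s => F p r s q) := b_pqsr.swap23
  have b_rqps : Bd (fun p q r s => F r q p s) := b_rpqs.swap
  have b_spqr : Bd (fun p q r s => F s p q r) := b_rpqs.swap34
  have b_rpsq : Bd (fun p q r s => F r p s q) := b_qpsr.swap23
  have b_qspr : Bd (fun p q r s => F q s p r) := b_qrps.swap34
  have b_psrq : Bd (fun p q r s => F p s r q) := b_psqr.swap23
  have b_qrsp : Bd (fun p q r s => F q r s p) := b_prsq.swap
  have b_sqpr : Bd (fun p q r s => F s q p r) := b_rqps.swap34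
  have b_sprq : Bd (fun p q r s => F s p r q) := b_spqr.swap23
  have b_rqsp : Bd (fun p q r s => F r q s p) := b_rpsq.swap
  have b_rspq : Bd (fun p q r s => F r s p q) := b_qspr.swap23
  have b_qsrp : Bd (fun p q r s => F q s r p) := b_psrq.swap
  have b_srpq : Bd (fun p q r s => F s r p q) := b_sqpr.swap23
  have b_sqrp : Bd (fun p q r s => F s q r p) := b_sprq.swap
  have b_rsqp : Bd (fun p q r s => F r s q p) := b_rspq.swap
  have b_srqp : Bd (fun p q r s => F s r q p) := b_srpq.swap
  have b_pqrs : Bd (fun p q r s => F p q r s) := hF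
  unfold avg24
  rw [h.smul (1 / 24) (fun p q r s => F p q r s + F p q s r + F p r q s + F p r s q + F p s q r + F p s r q + (F q p r s + F q p s r + F q r p s + F q r s p + F q s p r + F q s r p) + (F r p q s + F r p s q + F r q p s + F r q s p + F r s p q + F r s q p) + (F s p q r + F s p r q + F s q p r + F s q r p + F s r p q + F s r q p))]
  have s00 : Bd (fun p q r s => F p q r s) := b_pqrs
  have s01 : Bd (fun p q r s => F p q r s + F p q s r) := s00.add b_pqsr
  have s02 : Bd (fun p q r s => F p q r s + F p q s r + F p r q s) := s01.add b_prqs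
  have s03 : Bd (fun p q r s => F p q r s + F p q s r + F p r q s + F p r s q) := s02.add b_prsq
  have s04 : Bd (fun p q r s => F p q r s + F p q s r + F p r q s + F p r s q + F p s q r) := s03.add b_psqr
  have s05 : Bd (fun p q r s => F p q r s + F p q s r + F p r q s + F p r s q + F p s q r + F p s r q) := s04.add b_psrq
  have s10 : Bd (fun p q r s => F q p r s) := b_qprs
  have s11 : Bd (fun p q r s => F q p r s + F q p s r) := s10.add b_qpsr
  have s12 : Bd (fun p q r s => F q p r s + F q p s r + F q r p s) := s11.add b_qrps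
  have s13 : Bd (fun p q r s => F q p r s + F q p s r + F q r p s + F q r s p) := s12.add b_qrsp
  have s14 : Bd (fun p q r s => F q p r s + F q p s r + F q r p s + F q r s p + F q s p r) := s13.add b_qspr
  have s15 : Bd (fun p q r s => F q p r s + F q p s r + F q r p s + F q r s p + F q s p r + F q s r p) := s14.add b_qsrp
  have s20 : Bd (fun p q r s => F r p q s) := b_rpqs
  have s21 : Bd (fun p q r s => F r p q s + F r p s q) := s20.add b_rpsq
  have s22 : Bd (fun p q r s => F r p q s + F r p s q + F r q p s) := s21.add b_rqps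
  have s23 : Bd (fun p q r s => F r p q s + F r p s q + F r q p s + F r q s p) := s22.add b_rqsp
  have s24 : Bd (fun p q r s => F r p q s + F r p s q + F r q p s + F r q s p + F r s p q) := s23.add b_rspq
  have s25 : Bd (fun p q r s => F r p q s + F r p s q + F r q p s + F r q s p + F r s p q + F r s q p) := s24.add b_rsqp
  have s30 : Bd (fun p q r s => F s p q r) := b_spqr
  have s31 : Bd (fun p q r s => F s p q r + F s p r q) := s30.add b_sprq
  have s32 : Bd (fun p q r s => F s p q r + F s p r q + F s q p r) := s31.add b_sqpr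
  have s33 : Bd (fun p q r s => F s p q r + F s p r q + F s q p r + F s q r p) := s32.add b_sqrp
  have s34 : Bd (fun p q r s => F s p q r + F s p r q + F s q p r + F s q r p + F s r p q) := s33.add b_srpq
  have s35 : Bd (fun p q r s => F s p q r + F s p r q + F s q p r + F s q r p + F s r p q + F s r q p) := s34.add b_srqp
  have o0 : Bd (fun p q r s => F p q r s + F p q s r + F p r q s + F p r s q + F p s q r + F p s r q) := s05
  have o1 : Bd (fun p q r s => F p q r s + F p q s r + F p r q s + F p r s q + F p s q r + F p s r q + (F q p r s + F q p s r + F q r p s + F q r s p + F q s p r + F q s r p)) := o0.add s15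
  have o2 : Bd (fun p q r s => F p q r s + F p q s r + F p r q s + F p r s q + F p s q r + F p s r q + (F q p r s + F q p s r + F q r p s + F q r s p + F q s p r + F q s r p) + (F r p q s + F r p s q + F r q p s + F r q s p + F r s p q + F r s q p)) := o1.add s25
  have o3 : Bd (fun p q r s => F p q r s + F p q s r + F p r q s + F p r s q + F p s q r + F p s r q + (F q p r s + F q p s r + F q r p s + F q r s p + F q s p r + F q s r p) + (F r p q s + F r p s q + F r q p s + F r q s p + F r s p q + F r s q p) + (F s p q r + F s p r q + F s q p r + F s q r p + F s r p q + F s r q p)) := o2.add s35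
  have e1 : ∀ (A B : Fn4), Bd A → Bd B → E (fun p q r s => A p q r s + B p q r s) = E A + E B := fun A B hA hB => h.add A B hA hB
  rw [h.add (fun p q r s => F p q r s + F p q s r + F p r q s + F p r s q + F p s q r + F p s r q + (F q p r s + F q p s r + F q r p s + F q r s p + F q s p r + F q s r p) + (F r p q s + F r p s q + F r q p s + F r q s p + F r s p q + F r s q p)) (fun p q r s => F s p q r + F s p r q + F s q p r + F s q r p + F s r p q + F s r q p) o2 s35]
  rw [h.add (fun p q r s => F p q r s + F p q s r + F p r q s + F p r s q + F p s q r + F p s r q + (F q p r s + F q p s r + F q r p s + F q r s p + F q s p r + F q s r p)) (fun p q r s => F r p q s + F r p s q + F r q p s + F r q s p + F r s p q + F r s q p) o1 s25]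
  rw [h.add (fun p q r s => F p q r s + F p q s r + F p r q s + F p r s q + F p s q r + F p s r q) (fun p q r s => F q p r s + F q p s r + F q r p s + F q r s p + F q s p r + F q s r p) o0 s15]
  rw [h.add (fun p q r s => F p q r s + F p q s r + F p r q s + F p r s q + F p s q r) (fun p q r s => F p s r q) s04 b_psrq]
  rw [h.add (fun p q r s => F p q r s + F p q s r + F p r q s + F p r s q) (fun p q r s => F p s q r) s03 b_psqr]
  rw [h.add (fun p q r s => F p q r s + F p q s r + F p r q s) (fun p q r s => F p r s q) s02 b_prsq]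
  rw [h.add (fun p q r s => F p q r s + F p q s r) (fun p q r s => F p r q s) s01 b_prqs]
  rw [h.add (fun p q r s => F p q r s) (fun p q r s => F p q s r) s00 b_pqsr]
  rw [h.add (fun p q r s => F q p r s + F q p s r + F q r p s + F q r s p + F q s p r) (fun p q r s => F q s r p) s14 b_qsrp]
  rw [h.add (fun p q r s => F q p r s + F q p s r + F q r p s + F q r s p) (fun p q r s => F q s p r) s13 b_qspr]
  rw [h.add (fun p q r s => F q p r s + F q p s r + F q r p s) (fun p q r s => F q r s p) s12 b_qrsp]
  rw [h.add (fun p q r s => F q p r s + F q p s r) (fun p q r s => F q r p s) s11 b_qrps]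
  rw [h.add (fun p q r s => F q p r s) (fun p q r s => F q p s r) s10 b_qpsr]
  rw [h.add (fun p q r s => F r p q s + F r p s q + F r q p s + F r q s p + F r s p q) (fun p q r s => F r s q p) s24 b_rsqp]
  rw [h.add (fun p q r s => F r p q s + F r p s q + F r q p s + F r q s p) (fun p q r s => F r s p q) s23 b_rspq]
  rw [h.add (fun p q r s => F r p q s + F r p s q + F r q p s) (fun p q r s => F r q s p) s22 b_rqsp]
  rw [h.add (fun p q r s => F r p q s + F r p s q) (fun p q r s => F r q p s) s21 b_rqps]
  rw [h.add (fun p q r s => F r p q s) (fun p q r s => F r p s q) s20 b_rpsq]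
  rw [h.add (fun p q r s => F s p q r + F s p r q + F s q p r + F s q r p + F s r p q) (fun p q r s => F s r q p) s34 b_srqp]
  rw [h.add (fun p q r s => F s p q r + F s p r q + F s q p r + F s q r p) (fun p q r s => F s r p q) s33 b_srpq]
  rw [h.add (fun p q r s => F s p q r + F s p r q + F s q p r) (fun p q r s => F s q r p) s32 b_sqrp]
  rw [h.add (fun p q r s => F s p q r + F s p r q) (fun p q r s => F s q p r) s31 b_sqpr]
  rw [h.add (fun p q r s => F s p q r) (fun p q r s => F s p r q) s30 b_sprq]
  simp only [h_pqsr, h_prqs, h_prsq, h_psqr, h_psrq, h_qprs, h_qpsr, h_qrps, h_qrsp, h_qspr, h_qsrp, h_rpqs, h_rpsq, h_rqps, h_rqsp, h_rspq, h_rsqp, h_spqr, h_sprq, h_sqpr, h_sqrp, h_srpq, h_srqp]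
  ring

/-- coordinates have mean `1/4` -/
theorem means (h : BExp E K) :
    E (fun a _ _ _ => a) = 1 / 4 ∧ E (fun _ b _ _ => b) = 1 / 4 ∧ E (fun _ _ c _ => c) = 1 / 4 ∧
      E (fun _ _ _ d => d) = 1 / 4 := by
  have h2 : E (fun _ b _ _ => b) = E (fun a _ _ _ => a) := h.cyc (fun a _ _ _ => a)
  have h3 : E (fun _ _ c _ => c) = E (fun _ b _ _ => b) := h.cyc (fun _ b _ _ => b)
  have h4 : E (fun _ _ _ d => d) = E (fun _ _ c _ => c) := h.cyc (fun _ _ c _ => c)
  have hsum : E (fun a b c d => a + b + c + d) = 1 := by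
    rw [h.congr (fun a b c d => a + b + c + d) (fun _ _ _ _ => 1)
      (fun a b c d hk => (h.sup a b c d hk).hs)]
    exact h.one
  rw [h.add (fun a b c _ => a + b + c) (fun _ _ _ d => d) ((Bd.fst.add Bd.snd).add Bd.thd) Bd.fth,
    h.add (fun a b _ _ => a + b) (fun _ _ c _ => c) (Bd.fst.add Bd.snd) Bd.thd,
    h.add (fun a _ _ _ => a) (fun _ b _ _ => b) Bd.fst Bd.snd] at hsum
  refine ⟨?_, ?_, ?_, ?_⟩ <;> linarith

theorem lin3 (h : BExp E K) (k0 k1 k2 : ℝ) {f g : Fn4} (hf : Bd f) (hg : Bd g) :
    E (fun a b c d => k0 + k1 * f a b c d + k2 * g a b c d) = k0 + k1 * E f + k2 * E g := by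
  rw [h.add (fun a b c d => k0 + k1 * f a b c d) (fun a b c d => k2 * g a b c d)
      ((Bd.const k0).add (Bd.smul k1 hf)) (Bd.smul k2 hg),
    h.add (fun _ _ _ _ => k0) (fun a b c d => k1 * f a b c d) (Bd.const k0) (Bd.smul k1 hf),
    h.const, h.smul, h.smul]

theorem lin4 (h : BExp E K) (k0 k1 k2 k3 : ℝ) {f g j : Fn4} (hf : Bd f) (hg : Bd g) (hj : Bd j) :
    E (fun a b c d => k0 + k1 * f a b c d + k2 * g a b c d + k3 * j a b c d)
      = k0 + k1 * E f + k2 * E g + k3 * E j := by
  rw [h.add (fun a b c d => k0 + k1 * f a b c d + k2 * g a b c d) (fun a b c d => k3 * j a b c d)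
      (((Bd.const k0).add (Bd.smul k1 hf)).add (Bd.smul k2 hg)) (Bd.smul k3 hj),
    h.lin3 _ _ _ hf hg, h.smul]

theorem lin5 (h : BExp E K) (k0 k1 k2 k3 k4 : ℝ) {f g j l : Fn4} (hf : Bd f) (hg : Bd g) (hj : Bd j)
    (hl : Bd l) :
    E (fun a b c d => k0 + k1 * f a b c d + k2 * g a b c d + k3 * j a b c d + k4 * l a b c d)
      = k0 + k1 * E f + k2 * E g + k3 * E j + k4 * E l := by
  rw [h.add (fun a b c d => k0 + k1 * f a b c d + k2 * g a b c d + k3 * j a b c d)
      (fun a b c d => k4 * l a b c d)
      ((((Bd.const k0).add (Bd.smul k1 hf)).add (Bd.smul k2 hg)).add (Bd.smul k3 hj)) (Bd.smul k4 hl),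
    h.lin4 _ _ _ _ hf hg hj, h.smul]

end BExp

/-! ### the Bayesian product -/

/-- the point map of the channel of eigenvalue `lam` -/
noncomputable def chanPt (lam x : ℝ) : ℝ := lam * x + (1 - lam) / 4

/-- the push-forward through the channel of eigenvalue `lam` -/
noncomputable def chan (lam : ℝ) (E : Ex4) : Ex4 :=
  fun f => E (fun a b c d => f (chanPt lam a) (chanPt lam b) (chanPt lam c) (chanPt lam d))

/-- the integrand of the Bayesian product -/
noncomputable def wt (f : Fn4) (a b c d p q r s : ℝ) : ℝ :=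
  4 * (a * p + b * q + c * r + d * s) *
    f (a * p / (a * p + b * q + c * r + d * s)) (b * q / (a * p + b * q + c * r + d * s))
      (c * r / (a * p + b * q + c * r + d * s)) (d * s / (a * p + b * q + c * r + d * s))

/-- the Bayesian product of two symmetric functionals -/
noncomputable def bprod (E E' : Ex4) : Ex4 :=
  fun f => E (fun a b c d => E' (fun p q r s => wt f a b c d p q r s))

/-- the Dirac functional at the centre -/
noncomputable def centre : Ex4 := fun f => f (1 / 4) (1 / 4) (1 / 4) (1 / 4)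

/-- the functional of the uniform vertex distribution -/
noncomputable def vertexEx : Ex4 := fun f => 1 / 4 * (f 1 0 0 0 + f 0 1 0 0 + f 0 0 1 0 + f 0 0 0 1)

theorem wt_add (f g : Fn4) (a b c d p q r s : ℝ) :
    wt (fun x y z w => f x y z w + g x y z w) a b c d p q r s
      = wt f a b c d p q r s + wt g a b c d p q r s := by
  unfold wt; ring

theorem wt_smul (t : ℝ) (f : Fn4) (a b c d p q r s : ℝ) :
    wt (fun x y z w => t * f x y z w) a b c d p q r s = t * wt f a b c d p q r s := by
  unfold wt; ring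

theorem wt_one (a b c d p q r s : ℝ) :
    wt (fun _ _ _ _ => 1) a b c d p q r s = 4 * a * p + 4 * b * q + 4 * c * r + 4 * d * s := by
  unfold wt; ring

theorem wt_swap (f : Fn4) (a b c d p q r s : ℝ) :
    wt (fun x y z w => f y x z w) a b c d p q r s = wt f b a c d q p r s := by
  unfold wt
  have : b * q + a * p + c * r + d * s = a * p + b * q + c * r + d * s := by ring
  rw [this]

theorem wt_cyc (f : Fn4) (a b c d p q r s : ℝ) :
    wt (fun x y z w => f y z w x) a b c d p q r s = wt f b c d a q r s p := by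
  unfold wt
  have : b * q + c * r + d * s + a * p = a * p + b * q + c * r + d * s := by ring
  rw [this]

theorem dot_le_one {a b c d p q r s : ℝ} (h : Simp a b c d) (h' : Simp p q r s) :
    a * p + b * q + c * r + d * s ≤ 1 := by
  obtain ⟨p1, q1, r1, s1⟩ := h'.le_one
  have h1 := mul_le_mul_of_nonneg_left p1 h.ha
  have h2 := mul_le_mul_of_nonneg_left q1 h.hb
  have h3 := mul_le_mul_of_nonneg_left r1 h.hc
  have h4 := mul_le_mul_of_nonneg_left s1 h.hd
  have := h.hs
  linarith

theorem dot_nonneg {a b c d p q r s : ℝ} (h : Simp a b c d) (h' : Simp p q r s) :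
    0 ≤ a * p + b * q + c * r + d * s := by
  have := h.ha
  have := h.hb
  have := h.hc
  have := h.hd
  have := h'.ha
  have := h'.hb
  have := h'.hc
  have := h'.hd
  positivity

theorem prod_simp {a b c d p q r s : ℝ} (h : Simp a b c d) (h' : Simp p q r s)
    (hD : 0 < a * p + b * q + c * r + d * s) :
    Simp (a * p / (a * p + b * q + c * r + d * s)) (b * q / (a * p + b * q + c * r + d * s))
      (c * r / (a * p + b * q + c * r + d * s)) (d * s / (a * p + b * q + c * r + d * s)) := by
  refine ⟨div_nonneg (mul_nonneg h.ha h'.ha) hD.le, div_nonneg (mul_nonneg h.hb h'.hb) hD.le,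
    div_nonneg (mul_nonneg h.hc h'.hc) hD.le, div_nonneg (mul_nonneg h.hd h'.hd) hD.le, ?_⟩
  field_simp

theorem wt_of_dot_zero (f : Fn4) {a b c d p q r s : ℝ} (hD : a * p + b * q + c * r + d * s = 0) :
    wt f a b c d p q r s = 0 := by
  unfold wt
  rw [hD]
  ring

theorem wt_bound {f : Fn4} {C : ℝ} (hC : ∀ a b c d, Simp a b c d → |f a b c d| ≤ C)
    {a b c d p q r s : ℝ} (h : Simp a b c d) (h' : Simp p q r s) :
    |wt f a b c d p q r s| ≤ 4 * C := by
  have hC0 := Bd.nonneg_const hC
  rcases (dot_nonneg h h').eq_or_lt with hD | hD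
  · rw [wt_of_dot_zero f hD.symm, abs_zero]
    positivity
  · unfold wt
    rw [abs_mul, abs_of_nonneg (by positivity : (0 : ℝ) ≤ 4 * (a * p + b * q + c * r + d * s))]
    have h1 := hC _ _ _ _ (prod_simp h h' hD)
    have h2 := dot_le_one h h'
    calc 4 * (a * p + b * q + c * r + d * s) * |f _ _ _ _| ≤ 4 * 1 * C := by
          apply mul_le_mul _ h1 (abs_nonneg _) (by norm_num)
          linarith
      _ = 4 * C := by ring

theorem bd_wt {f : Fn4} (hf : Bd f) {a b c d : ℝ} (h : Simp a b c d) :
    Bd (fun p q r s => wt f a b c d p q r s) := by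
  obtain ⟨C, hC⟩ := hf
  exact ⟨4 * C, fun p q r s h' => wt_bound hC h h'⟩

theorem bd_inner {f : Fn4} (hf : Bd f) {E' : Ex4} {K' : ℝ → ℝ → ℝ → ℝ → Prop} (hE' : BExp E' K') :
    Bd (fun a b c d => E' (fun p q r s => wt f a b c d p q r s)) := by
  obtain ⟨C, hC⟩ := hf
  exact ⟨4 * C, fun a b c d h => hE'.abs_le (fun p q r s h' => wt_bound hC h h')⟩

/-- the Bayesian product is a symmetric functional, with `K3` containing the products -/
theorem bprod_bexp {E E' : Ex4} {K1 K2 K3 : ℝ → ℝ → ℝ → ℝ → Prop} (hE : BExp E K1) (hE' : BExp E' K2)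
    (h3 : ∀ a b c d, K3 a b c d → Simp a b c d)
    (hK : ∀ a b c d p q r s, K1 a b c d → K2 p q r s → 0 < a * p + b * q + c * r + d * s →
      K3 (a * p / (a * p + b * q + c * r + d * s)) (b * q / (a * p + b * q + c * r + d * s))
        (c * r / (a * p + b * q + c * r + d * s)) (d * s / (a * p + b * q + c * r + d * s))) :
    BExp (bprod E E') K3 where
  sup := h3
  add f g hf hg := by
    unfold bprod
    rw [← hE.add _ _ (bd_inner hf hE') (bd_inner hg hE')]
    refine hE.congr _ _ (fun a b c d hK1 => ?_)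
    have hs := hE.sup a b c d hK1
    rw [← hE'.add _ _ (bd_wt hf hs) (bd_wt hg hs)]
    congr 1
    funext p q r s
    exact wt_add f g a b c d p q r s
  smul t f := by
    unfold bprod
    rw [← hE.smul]
    congr 1
    funext a b c d
    rw [← hE'.smul]
    congr 1
    funext p q r s
    exact wt_smul t f a b c d p q r s
  nonneg f hf := by
    refine hE.nonneg _ (fun a b c d hK1 => hE'.nonneg _ (fun p q r s hK2 => ?_))
    have hs := hE.sup a b c d hK1
    have hs' := hE'.sup p q r s hK2
    rcases (dot_nonneg hs hs').eq_or_lt with hD | hD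
    · rw [wt_of_dot_zero f hD.symm]
    · unfold wt
      exact mul_nonneg (by positivity) (hf _ _ _ _ (hK a b c d p q r s hK1 hK2 hD))
  congr f g hfg := by
    unfold bprod
    refine hE.congr _ _ (fun a b c d hK1 => hE'.congr _ _ (fun p q r s hK2 => ?_))
    have hs := hE.sup a b c d hK1
    have hs' := hE'.sup p q r s hK2
    rcases (dot_nonneg hs hs').eq_or_lt with hD | hD
    · rw [wt_of_dot_zero f hD.symm, wt_of_dot_zero g hD.symm]
    · unfold wt
      rw [hfg _ _ _ _ (hK a b c d p q r s hK1 hK2 hD)]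
  one := by
    unfold bprod
    refine Eq.trans (hE.congr _ (fun _ _ _ _ => 1) (fun a b c d hK1 => ?_)) hE.one
    obtain ⟨m1, m2, m3, m4⟩ := hE'.means
    have hs := hE.sup a b c d hK1
    have e1 : (fun p q r s => wt (fun _ _ _ _ => 1) a b c d p q r s)
        = fun p q r s => ((4 * a) * p + (4 * b) * q) + (4 * c) * r + (4 * d) * s := by
      funext p q r s
      rw [wt_one]
    have b1 : Bd (fun p _ _ _ : ℝ => (4 * a) * p) := Bd.smul _ Bd.fst
    have b2 : Bd (fun _ q _ _ : ℝ => (4 * b) * q) := Bd.smul _ Bd.snd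
    have b3 : Bd (fun _ _ r _ : ℝ => (4 * c) * r) := Bd.smul _ Bd.thd
    have b4 : Bd (fun _ _ _ s : ℝ => (4 * d) * s) := Bd.smul _ Bd.fth
    rw [e1, hE'.add (fun p q r _ => (4 * a) * p + (4 * b) * q + (4 * c) * r)
        (fun _ _ _ s => (4 * d) * s) ((b1.add b2).add b3) b4,
      hE'.add (fun p q _ _ => (4 * a) * p + (4 * b) * q) (fun _ _ r _ => (4 * c) * r) (b1.add b2) b3,
      hE'.add (fun p _ _ _ => (4 * a) * p) (fun _ q _ _ => (4 * b) * q) b1 b2,
      hE'.smul (4 * a) (fun p _ _ _ => p), hE'.smul (4 * b) (fun _ q _ _ => q),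
      hE'.smul (4 * c) (fun _ _ r _ => r), hE'.smul (4 * d) (fun _ _ _ s => s), m1, m2, m3, m4]
    have := hs.hs
    linarith
  swap f := by
    unfold bprod
    have := hE.swap (fun a b c d => E' (fun p q r s => wt f a b c d p q r s))
    rw [← this]
    congr 1
    funext a b c d
    rw [← hE'.swap (fun p q r s => wt f b a c d p q r s)]
    congr 1
    funext p q r s
    exact wt_swap f a b c d p q r s
  cyc f := by
    unfold bprod
    have := hE.cyc (fun a b c d => E' (fun p q r s => wt f a b c d p q r s))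
    rw [← this]
    congr 1
    funext a b c d
    rw [← hE'.cyc (fun p q r s => wt f b c d a p q r s)]
    congr 1
    funext p q r s
    exact wt_cyc f a b c d p q r s

/-! ### the channel -/

theorem chanPt_nonneg {lam x : ℝ} (h0 : 0 ≤ lam) (h1 : lam ≤ 1) (hx : 0 ≤ x) : 0 ≤ chanPt lam x := by
  unfold chanPt
  have : 0 ≤ (1 - lam) / 4 := by linarith
  positivity

theorem chan_simp {lam a b c d : ℝ} (h0 : 0 ≤ lam) (h1 : lam ≤ 1) (h : Simp a b c d) :
    Simp (chanPt lam a) (chanPt lam b) (chanPt lam c) (chanPt lam d) := by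
  refine ⟨chanPt_nonneg h0 h1 h.ha, chanPt_nonneg h0 h1 h.hb, chanPt_nonneg h0 h1 h.hc,
    chanPt_nonneg h0 h1 h.hd, ?_⟩
  unfold chanPt
  have := h.hs
  linear_combination lam * this

theorem bd_chan {lam : ℝ} (h0 : 0 ≤ lam) (h1 : lam ≤ 1) {f : Fn4} (hf : Bd f) :
    Bd (fun a b c d => f (chanPt lam a) (chanPt lam b) (chanPt lam c) (chanPt lam d)) := by
  obtain ⟨C, hC⟩ := hf
  exact ⟨C, fun a b c d h => hC _ _ _ _ (chan_simp h0 h1 h)⟩

/-- the functional of the channel output -/
theorem chan_bexp {E : Ex4} {K1 K2 : ℝ → ℝ → ℝ → ℝ → Prop} (hE : BExp E K1) {lam : ℝ} (h0 : 0 ≤ lam)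
    (h1 : lam ≤ 1) (h2 : ∀ a b c d, K2 a b c d → Simp a b c d)
    (hK : ∀ a b c d, K1 a b c d → K2 (chanPt lam a) (chanPt lam b) (chanPt lam c) (chanPt lam d)) :
    BExp (chan lam E) K2 where
  sup := h2
  add _ _ hf hg := hE.add _ _ (bd_chan h0 h1 hf) (bd_chan h0 h1 hg)
  smul _ _ := hE.smul _ _
  nonneg _ hf := hE.nonneg _ (fun a b c d hK1 => hf _ _ _ _ (hK a b c d hK1))
  congr _ _ hfg := hE.congr _ _ (fun a b c d hK1 => hfg _ _ _ _ (hK a b c d hK1))
  one := hE.one
  swap f := hE.swap (fun a b c d => f (chanPt lam a) (chanPt lam b) (chanPt lam c) (chanPt lam d))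
  cyc f := hE.cyc (fun a b c d => f (chanPt lam a) (chanPt lam b) (chanPt lam c) (chanPt lam d))

/-! ### mixtures -/

/-- the mixture of functionals with weights `p` -/
noncomputable def mix (p : ℕ → ℝ) (F : ℕ → Ex4) : Ex4 := fun f => ∑' k, p k * F k f

theorem mix_summable {p : ℕ → ℝ} (hp0 : ∀ k, 0 ≤ p k) (hp1 : Summable p) {F : ℕ → Ex4}
    {K : ℝ → ℝ → ℝ → ℝ → Prop} (hF : ∀ k, BExp (F k) K) {f : Fn4} (hf : Bd f) :
    Summable (fun k => p k * F k f) := by
  obtain ⟨C, hC⟩ := hf
  refine Summable.of_norm_bounded (g := fun k => p k * C) (hp1.mul_right C) (fun k => ?_)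
  rw [Real.norm_eq_abs, abs_mul, abs_of_nonneg (hp0 k)]
  exact mul_le_mul_of_nonneg_left ((hF k).abs_le hC) (hp0 k)

theorem mix_bexp {p : ℕ → ℝ} (hp0 : ∀ k, 0 ≤ p k) (hp1 : HasSum p 1) {F : ℕ → Ex4}
    {K : ℝ → ℝ → ℝ → ℝ → Prop} (hF : ∀ k, BExp (F k) K) (hK : ∀ a b c d, K a b c d → Simp a b c d) :
    BExp (mix p F) K where
  sup := hK
  add f g hf hg := by
    unfold mix
    rw [← (mix_summable hp0 hp1.summable hF hf).tsum_add (mix_summable hp0 hp1.summable hF hg)]
    refine tsum_congr (fun k => ?_)
    rw [(hF k).add f g hf hg]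
    ring
  smul t f := by
    unfold mix
    rw [← tsum_mul_left]
    refine tsum_congr (fun k => ?_)
    rw [(hF k).smul]
    ring
  nonneg f hf := tsum_nonneg (fun k => mul_nonneg (hp0 k) ((hF k).nonneg f hf))
  congr f g hfg := tsum_congr (fun k => by rw [(hF k).congr f g hfg])
  one := by
    unfold mix
    have : (fun k => p k * F k (fun _ _ _ _ => 1)) = p := by
      funext k
      rw [(hF k).one, mul_one]
    rw [this]
    exact hp1.tsum_eq
  swap f := tsum_congr (fun k => by rw [(hF k).swap])
  cyc f := tsum_congr (fun k => by rw [(hF k).cyc])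

end Vale.Agent.Lib.P154Q4
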