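import Vale.Agent.Lib.P154Q4.Rec
import Vale.Agent.Lib.P154Q4.Cells

/-!
Fourier coordinates on the simplex of quadruples, the invariants of the permutations, and the
fundamental cells of the permutation action on the simplex and on the messages.
-/

namespace Vale.Agent.Lib.P154Q4

open Cells

/-- first Fourier coordinate -/
def fx1 (a b c d : ℝ) : ℝ := a + b - c - d

/-- second Fourier coordinate -/
def fx2 (a b c d : ℝ) : ℝ := a - b + c - d

/-- third Fourier coordinate -/
def fx3 (a b c d : ℝ) : ℝ := a - b - c + d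

/-- first invariant of a quadruple -/
def s1 (a b c d : ℝ) : ℝ := sig1 (fx1 a b c d) (fx2 a b c d) (fx3 a b c d)

/-- second invariant of a quadruple -/
def s2 (a b c d : ℝ) : ℝ := pii (fx1 a b c d) (fx2 a b c d) (fx3 a b c d)

/-- third invariant of a quadruple -/
def s3 (a b c d : ℝ) : ℝ := sig2 (fx1 a b c d) (fx2 a b c d) (fx3 a b c d)

theorem s1_swap (a b c d : ℝ) : s1 b a c d = s1 a b c d := by
  simp only [s1, sig1, fx1, fx2, fx3]; ring

theorem s2_swap (a b c d : ℝ) : s2 b a c d = s2 a b c d := by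
  simp only [s2, pii, fx1, fx2, fx3]; ring

theorem s3_swap (a b c d : ℝ) : s3 b a c d = s3 a b c d := by
  simp only [s3, sig2, fx1, fx2, fx3]; ring

theorem s1_swap23 (a b c d : ℝ) : s1 a c b d = s1 a b c d := by
  simp only [s1, sig1, fx1, fx2, fx3]; ring

theorem s2_swap23 (a b c d : ℝ) : s2 a c b d = s2 a b c d := by
  simp only [s2, pii, fx1, fx2, fx3]; ring

theorem s3_swap23 (a b c d : ℝ) : s3 a c b d = s3 a b c d := by
  simp only [s3, sig2, fx1, fx2, fx3]; ring

theorem s1_swap34 (a b c d : ℝ) : s1 a b d c = s1 a b c d := by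
  simp only [s1, sig1, fx1, fx2, fx3]; ring

theorem s2_swap34 (a b c d : ℝ) : s2 a b d c = s2 a b c d := by
  simp only [s2, pii, fx1, fx2, fx3]; ring

theorem s3_swap34 (a b c d : ℝ) : s3 a b d c = s3 a b c d := by
  simp only [s3, sig2, fx1, fx2, fx3]; ring

/-- a property stable under adjacent transpositions holds when it holds on sorted quadruples -/
theorem sort4 (P : ℝ → ℝ → ℝ → ℝ → Prop) (h12 : ∀ a b c d, P a b c d → P b a c d)
    (h23 : ∀ a b c d, P a b c d → P a c b d) (h34 : ∀ a b c d, P a b c d → P a b d c)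
    (hs : ∀ a b c d, b ≤ a → c ≤ b → d ≤ c → P a b c d) : ∀ a b c d, P a b c d := by
  have Q1 : ∀ a b c d, c ≤ b → d ≤ c → P a b c d := by
    intro a b c d hcb hdc
    rcases le_total b a with h | h
    · exact hs a b c d h hcb hdc
    · rcases le_total c a with h' | h'
      · exact h12 _ _ _ _ (hs b a c d h h' hdc)
      · rcases le_total d a with h'' | h''
        · exact h12 _ _ _ _ (h23 _ _ _ _ (hs b c a d hcb h' h''))
        · exact h12 _ _ _ _ (h23 _ _ _ _ (h34 _ _ _ _ (hs b c d a hcb hdc h'')))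
  have Q2 : ∀ a b c d, d ≤ c → P a b c d := by
    intro a b c d hdc
    rcases le_total c b with h | h
    · exact Q1 a b c d h hdc
    · rcases le_total d b with h' | h'
      · exact h23 _ _ _ _ (Q1 a c b d h h')
      · exact h23 _ _ _ _ (h34 _ _ _ _ (Q1 a c d b hdc h'))
  intro a b c d
  rcases le_total d c with h | h
  · exact Q2 a b c d h
  · exact h34 _ _ _ _ (Q2 a b d c h)

/-- the fundamental cell of the simplex -/
def rootS : Cell := ⟨3, (0, 0, 0), (3, 3, 3), (3, 0, 0), (1, 1, -1)⟩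

/-- the fundamental cell of the messages -/
def rootM : Cell := ⟨21, (0, 0, 0), (15, 15, 15), (15, 0, 0), (5, 5, -5)⟩

/-- the messages: the quadruples of the simplex with all entries at least `1 / 14` -/
structure Msg (p q r s : ℝ) : Prop where
  simp : Simp p q r s
  hp : 1 / 14 ≤ p
  hq : 1 / 14 ≤ q
  hr : 1 / 14 ≤ r
  hs : 1 / 14 ≤ s

/-- a cell contains a point with the invariants of the quadruple -/
def Cov (C : Cell) (a b c d : ℝ) : Prop :=
  ∃ x y z, InCell C x y z ∧ sig1 x y z = s1 a b c d ∧ pii x y z = s2 a b c d ∧ sig2 x y z = s3 a b c d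

theorem Cov.swap {C : Cell} {a b c d : ℝ} (h : Cov C a b c d) : Cov C b a c d := by
  obtain ⟨x, y, z, h0, h1, h2, h3⟩ := h
  exact ⟨x, y, z, h0, by rw [h1, s1_swap], by rw [h2, s2_swap], by rw [h3, s3_swap]⟩

theorem Cov.swap23 {C : Cell} {a b c d : ℝ} (h : Cov C a b c d) : Cov C a c b d := by
  obtain ⟨x, y, z, h0, h1, h2, h3⟩ := h
  exact ⟨x, y, z, h0, by rw [h1, s1_swap23], by rw [h2, s2_swap23], by rw [h3, s3_swap23]⟩

theorem Cov.swap34 {C : Cell} {a b c d : ℝ} (h : Cov C a b c d) : Cov C a b d c := by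
  obtain ⟨x, y, z, h0, h1, h2, h3⟩ := h
  exact ⟨x, y, z, h0, by rw [h1, s1_swap34], by rw [h2, s2_swap34], by rw [h3, s3_swap34]⟩

theorem cover_simp : ∀ a b c d : ℝ, Simp a b c d → Cov rootS a b c d := by
  refine sort4 (fun a b c d => Simp a b c d → Cov rootS a b c d) ?_ ?_ ?_ ?_
  · intro a b c d h hs
    exact (h hs.swap).swap
  · intro a b c d h hs
    exact (h hs.swap23).swap23
  · intro a b c d h hs
    exact (h hs.swap34).swap34
  · intro a b c d hab hbc hcd hs
    refine ⟨fx1 a b c d, fx2 a b c d, fx3 a b c d, ?_, rfl, rfl, rfl⟩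
    refine ⟨4 * d, a - b, 2 * (b - c), 3 * (c - d), by linarith [hs.hd], by linarith,
      by linarith, by linarith, by linarith [hs.hs], ?_, ?_, ?_⟩ <;>
      simp only [rootS, fx1, fx2, fx3] <;> push_cast <;> ring

theorem Msg.swap {a b c d : ℝ} (h : Msg a b c d) : Msg b a c d :=
  ⟨h.simp.swap, h.hq, h.hp, h.hr, h.hs⟩

theorem Msg.swap23 {a b c d : ℝ} (h : Msg a b c d) : Msg a c b d :=
  ⟨h.simp.swap23, h.hp, h.hr, h.hq, h.hs⟩

theorem Msg.swap34 {a b c d : ℝ} (h : Msg a b c d) : Msg a b d c :=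
  ⟨h.simp.swap34, h.hp, h.hq, h.hs, h.hr⟩

theorem cover_msg : ∀ a b c d : ℝ, Msg a b c d → Cov rootM a b c d := by
  refine sort4 (fun a b c d => Msg a b c d → Cov rootM a b c d) ?_ ?_ ?_ ?_
  · intro a b c d h hs
    exact (h hs.swap).swap
  · intro a b c d h hs
    exact (h hs.swap23).swap23
  · intro a b c d h hs
    exact (h hs.swap34).swap34
  · intro a b c d hab hbc hcd hs
    refine ⟨fx1 a b c d, fx2 a b c d, fx3 a b c d, ?_, rfl, rfl, rfl⟩
    have hsum := hs.simp.hs
    have hd := hs.hs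
    refine ⟨(28 * d - 2) / 5, (7 * (a - b)) / 5, (14 * (b - c)) / 5, (21 * (c - d)) / 5,
      by linarith, by linarith, by linarith, by linarith, ?_, ?_, ?_, ?_⟩
    · have : a = 1 - b - c - d := by linarith
      subst this
      ring
    all_goals
      simp only [rootM, fx1, fx2, fx3]
      push_cast
      ring

/-- a polynomial in the invariants on a pair of quadruples -/
def Qval (T : Terms) (a b c d p q r s : ℝ) : ℝ :=
  Pval T (fx1 a b c d) (fx2 a b c d) (fx3 a b c d) (fx1 p q r s) (fx2 p q r s) (fx3 p q r s)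

/-- nonnegativity of a polynomial in the invariants on simplex times messages, from the pair of
fundamental cells -/
theorem Qval_nonneg {T : Terms} (h : OnPair T rootS rootM) {a b c d p q r s : ℝ}
    (hx : Simp a b c d) (hy : Msg p q r s) : 0 ≤ Qval T a b c d p q r s := by
  obtain ⟨x, y, z, h0, h1, h2, h3⟩ := cover_simp a b c d hx
  obtain ⟨x', y', z', h0', h1', h2', h3'⟩ := cover_msg p q r s hy
  have := h x y z x' y' z' h0 h0'
  unfold Pval at this
  rw [h1, h2, h3, h1', h2', h3'] at this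
  exact this

end Vale.Agent.Lib.P154Q4
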