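import Vale.Agent.Lib.P154Q4.Tree

/-!
The link between the recursion for the four-state Potts channel and Galton-Watson trees: the
posterior at depth `n` as a functional, with infinite sums over the tree.
-/

namespace Vale.Agent.Lib.P154Q4

open scoped BigOperators
open Filter Topology
open Vale.Agent.Lib.P154 (potts spinDelta GWConfig gwLik gwProb gwPosterior gwTerm gwError poissonLaw)

/-- the law of a mixture -/
theorem Rep.mix {p : ℕ → ℝ} (hp0 : ∀ k, 0 ≤ p k) (hp1 : HasSum p 1) {F : ℕ → Ex4}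
    {K : ℝ → ℝ → ℝ → ℝ → Prop} (hF : ∀ k, BExp (F k) K) {C : ℕ → Type}
    {w y0 y1 y2 y3 : ∀ k, C k → ℝ}
    (h : ∀ k, Rep (F k) (w k) (y0 k) (y1 k) (y2 k) (y3 k)) :
    Rep (P154Q4.mix p F) (fun t : Σ k, C k => p t.1 * w t.1 t.2) (fun t => y0 t.1 t.2)
      (fun t => y1 t.1 t.2) (fun t => y2 t.1 t.2) (fun t => y3 t.1 t.2) := by
  have hnn : ∀ t : Σ k, C k, 0 ≤ p t.1 * w t.1 t.2 :=
    fun t => mul_nonneg (hp0 _) ((h _).w_nonneg _)
  have hsum : Summable (fun t : Σ k, C k => p t.1 * w t.1 t.2) := by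
    rw [summable_sigma_of_nonneg hnn]
    refine ⟨fun k => ?_, ?_⟩
    · have h2 : Summable (fun y => p k * w k y) := (h k).w_summable.mul_left (p k)
      exact h2
    have e : ∀ k, ∑' s, p k * w k s = p k := by
      intro k
      rw [tsum_mul_left]
      have e1 := (h k).eq (fun _ _ _ _ => 1) (Bd.const 1)
      rw [(hF k).one] at e1
      simp only [mul_one] at e1
      rw [← e1, mul_one]
    simp only [e]
    exact hp1.summable
  refine ⟨hnn, hsum, fun t ht => (h _).pts _ (right_ne_zero_of_mul ht), fun f hf => ?_⟩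
  obtain ⟨B, hB⟩ := id hf
  have hsum2 : Summable (fun t : Σ k, C k =>
      p t.1 * w t.1 t.2 * f (y0 t.1 t.2) (y1 t.1 t.2) (y2 t.1 t.2) (y3 t.1 t.2)) := by
    refine Summable.of_norm_bounded (g := fun t : Σ k, C k => p t.1 * w t.1 t.2 * B)
      (hsum.mul_right _) (fun t => ?_)
    rw [Real.norm_eq_abs, mul_assoc, abs_mul, abs_of_nonneg (hp0 _), mul_assoc]
    exact mul_le_mul_of_nonneg_left ((h _).term_bound hB _) (hp0 _)
  rw [hsum2.tsum_sigma' (fun k => hsum2.sigma_factor k)]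
  refine tsum_congr (fun k => ?_)
  rw [(h k).eq f hf, ← tsum_mul_left]
  refine tsum_congr (fun s => ?_)
  ring

/-- the law of the posterior at depth `n` on the Galton-Watson tree, as a functional -/
noncomputable def gwEx (p : ℕ → ℝ) (lam : ℝ) : ℕ → Ex4
  | 0 => vertexEx
  | n + 1 => mix p (fun k => Pk (chan lam (gwEx p lam n)) k)

/-- the functional is a symmetric expectation on the simplex for every `lam` in `[0,1]` -/
theorem gwEx_bexp {p : ℕ → ℝ} (hp0 : ∀ k, 0 ≤ p k) (hp1 : HasSum p 1) {lam : ℝ} (h0 : 0 ≤ lam)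
    (h1 : lam ≤ 1) (n : ℕ) : BExp (gwEx p lam n) Simp := by
  induction n with
  | zero => exact vertexEx_bexp (fun _ _ _ _ h => h) simp_v1 simp_v2 simp_v3 simp_v4
  | succ n ih =>
    have hc : BExp (chan lam (gwEx p lam n)) Simp :=
      chan_bexp ih h0 h1 (fun _ _ _ _ h => h) (fun a b c d hK => chan_simp h0 h1 hK)
    have hF : ∀ k, BExp (Pk (chan lam (gwEx p lam n)) k) Simp := by
      intro k
      induction k with
      | zero => exact centre_bexp (fun _ _ _ _ h => h) simp_centre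
      | succ k ih2 =>
        exact bprod_bexp ih2 hc (fun _ _ _ _ h => h)
          (fun a b c d q r s t h1 h2 hD => prod_simp h1 h2 hD)
    exact mix_bexp hp0 hp1 hF (fun _ _ _ _ h => h)

section kern

variable {fK fM A B al be : Fn4} {Msg : ℝ → ℝ → ℝ → ℝ → Prop} {g : ℝ}

/-- the class is invariant along the recursion -/
theorem gwEx_props (hk : Kern fK fM A B al be Msg g) {p : ℕ → ℝ} (hp0 : ∀ k, 0 ≤ p k)
    (hp1 : HasSum p 1) {lam : ℝ} (hc : ChanOK fK fM Msg lam) (n : ℕ) :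
    BExp (gwEx p lam n) Simp ∧ 0 ≤ gwEx p lam n fK := by
  induction n with
  | zero =>
    exact ⟨vertexEx_bexp (fun _ _ _ _ h => h) simp_v1 simp_v2 simp_v3 simp_v4, hk.fK_vertex⟩
  | succ n ih =>
    have hE' := chan_bexp ih.1 hc.h0 hc.h1 hk.msg_simp hc.msg
    have hm := chan_class hk hc ih.1 ih.2
    have hF := fun k => Pk_props hk hE' hm k
    refine ⟨mix_bexp hp0 hp1 (fun k => (hF k).1) (fun _ _ _ _ h => h), ?_⟩
    exact tsum_nonneg (fun k => mul_nonneg (hp0 k) (hF k).2)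

/-- the value of the weights of a `k`-fold product -/
noncomputable def ind2 (k : ℕ) : ℝ := if 2 ≤ k then 1 else 0

theorem ind2_nonneg (k : ℕ) : 0 ≤ ind2 k := by
  unfold ind2
  split_ifs <;> norm_num

theorem ind2_le (k : ℕ) : ind2 k ≤ 1 := by
  unfold ind2
  split_ifs <;> norm_num

/-- the probability of at least two children -/
noncomputable def pTwo (p : ℕ → ℝ) : ℝ := ∑' k, p k * ind2 k

theorem summable_pTwo {p : ℕ → ℝ} (hp0 : ∀ k, 0 ≤ p k) (hp1 : Summable p) :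
    Summable (fun k => p k * ind2 k) := by
  refine Summable.of_nonneg_of_le (fun k => mul_nonneg (hp0 k) (ind2_nonneg k)) (fun k => ?_) hp1
  have := mul_le_mul_of_nonneg_left (ind2_le k) (hp0 k)
  linarith

theorem pTwo_nonneg {p : ℕ → ℝ} (hp0 : ∀ k, 0 ≤ p k) : 0 ≤ pTwo p :=
  tsum_nonneg (fun k => mul_nonneg (hp0 k) (ind2_nonneg k))

theorem pTwo_pos {p : ℕ → ℝ} (hp0 : ∀ k, 0 ≤ p k) (hp1 : Summable p) {k : ℕ} (hk : 2 ≤ k)
    (hpk : 0 < p k) : 0 < pTwo p := by
  have h1 : p k * ind2 k ≤ pTwo p :=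
    (summable_pTwo hp0 hp1).le_tsum k (fun j _ => mul_nonneg (hp0 j) (ind2_nonneg j))
  have h2 : ind2 k = 1 := by
    unfold ind2
    simp [hk]
  rw [h2, mul_one] at h1
  linarith

/-- the mixture step of the recursion -/
theorem mix_step {p : ℕ → ℝ} (hp0 : ∀ k, 0 ≤ p k) (hp1 : HasSum p 1) {d : ℝ}
    (hpd : HasSum (fun k : ℕ => (k : ℝ) * p k) d) {F : ℕ → Ex4} {K : ℝ → ℝ → ℝ → ℝ → Prop}
    (hF : ∀ k, BExp (F k) K) {b : ℝ} (hb0 : 0 ≤ b) (hb1 : b ≤ 1) (hg0 : 0 ≤ g) (hg1 : g ≤ 1 / 4)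
    (h0 : F 0 I2 = 0)
    (step : ∀ k, F (k + 1) I2 ≤ F k I2 + b - g * F k I2 * b * (F k I2 + b)) :
    mix p F I2 ≤ d * b - 2 * g * b ^ 3 * pTwo p := by
  have hnn : ∀ k, 0 ≤ F k I2 := fun k => I2_mean_nonneg (hF k)
  have hM := M_bound h0 hnn hb0 hb1 hg0 hg1 step
  have hsum : HasSum (fun k : ℕ => ((k : ℝ) * p k) * b - 2 * g * b ^ 3 * (p k * ind2 k))
      (d * b - 2 * g * b ^ 3 * pTwo p) :=
    (hpd.mul_right b).sub ((summable_pTwo hp0 hp1.summable).hasSum.mul_left (2 * g * b ^ 3))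
  have hle : ∀ k, p k * F k I2 ≤ ((k : ℝ) * p k) * b - 2 * g * b ^ 3 * (p k * ind2 k) := by
    intro k
    have h1 := mul_le_mul_of_nonneg_left (hM k) (hp0 k)
    refine le_trans h1 (le_of_eq ?_)
    unfold ind2
    ring
  have := (mix_summable hp0 hp1.summable hF bd_I2).tsum_le_tsum hle hsum.summable
  rw [hsum.tsum_eq] at this
  exact this

/-- the one-step recursion for the second moment -/
theorem gwEx_step (hk : Kern fK fM A B al be Msg g) {p : ℕ → ℝ} (hp0 : ∀ k, 0 ≤ p k)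
    (hp1 : HasSum p 1) {d : ℝ} (hpd : HasSum (fun k : ℕ => (k : ℝ) * p k) d) {lam : ℝ}
    (hc : ChanOK fK fM Msg lam) (n : ℕ) :
    gwEx p lam (n + 1) I2
      ≤ d * lam ^ 2 * gwEx p lam n I2 - 2 * g * pTwo p * lam ^ 6 * (gwEx p lam n I2) ^ 3 := by
  have hP := gwEx_props hk hp0 hp1 hc n
  have hE' := chan_bexp hP.1 hc.h0 hc.h1 hk.msg_simp hc.msg
  have hm := chan_class hk hc hP.1 hP.2
  have hF := fun k => Pk_props hk hE' hm k
  have hb0 := I2_mean_nonneg hE'
  have hb1 := I2_le_one hE'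
  have key := mix_step hp0 hp1 hpd (fun k => (hF k).1) hb0 hb1 hk.g_nn hk.g_le (Pk_zero_I2 _)
    (fun k => m2_bprod_le hk (hF k).1 hE' (hF k).2 hm)
  have e : gwEx p lam (n + 1) I2 = mix p (fun k => Pk (chan lam (gwEx p lam n)) k) I2 := rfl
  rw [e]
  refine le_trans key (le_of_eq ?_)
  rw [m2_chan hP.1]
  ring

/-- The second moment tends to zero at and below the Kesten-Stigum bound. -/
theorem gwEx_tendsto (hk : Kern fK fM A B al be Msg g) (hg : 0 < g) {p : ℕ → ℝ}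
    (hp0 : ∀ k, 0 ≤ p k) (hp1 : HasSum p 1) {d : ℝ}
    (hpd : HasSum (fun k : ℕ => (k : ℝ) * p k) d) {lam : ℝ} (hc : ChanOK fK fM Msg lam)
    (hKS : d * lam ^ 2 ≤ 1) (hb : (∃ k, 2 ≤ k ∧ 0 < p k) ∨ d * lam ^ 2 < 1) :
    Tendsto (fun n => gwEx p lam n I2) atTop (𝓝 0) := by
  have h0 := hc.h0
  have h1 := hc.h1
  have hd0 : 0 ≤ d := hpd.nonneg (fun k => mul_nonneg (Nat.cast_nonneg k) (hp0 k))
  have hcase : d * lam ^ 2 < 1 ∨ 0 < 2 * g * pTwo p * lam ^ 6 := by
    by_cases hlt : d * lam ^ 2 < 1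
    · exact Or.inl hlt
    · right
      rcases hb with ⟨k, hk', hpk⟩ | hb
      · have hlam : lam ≠ 0 := by
          rintro rfl
          norm_num at hlt
        have := pTwo_pos hp0 hp1.summable hk' hpk
        positivity
      · exact absurd hb hlt
  have hgn : 0 ≤ 2 * g * pTwo p * lam ^ 6 := by
    have := pTwo_nonneg hp0
    positivity
  exact tendsto_of_rec (fun n => I2_mean_nonneg (gwEx_bexp hp0 hp1 h0 h1 n))
    (by positivity) hKS hgn (fun n => gwEx_step hk hp0 hp1 hpd hc n) hcase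

end kern

/-! ### the tree -/

section tree

variable {p : ℕ → ℝ} {lam : ℝ}

/-- the total likelihood of a configuration -/
noncomputable def gwTot (p : ℕ → ℝ) (lam : ℝ) (n : ℕ) (s : GWConfig 4 n) : ℝ :=
  gwLik 4 p lam n 0 s + gwLik 4 p lam n 1 s + gwLik 4 p lam n 2 s + gwLik 4 p lam n 3 s

/-- the coordinates of the posterior -/
noncomputable def gwPost (p : ℕ → ℝ) (lam : ℝ) (n : ℕ) (i : Fin 4) (s : GWConfig 4 n) : ℝ :=
  gwLik 4 p lam n i s / gwTot p lam n s

theorem gwLik_succ (p : ℕ → ℝ) (lam : ℝ) (n : ℕ) (i : Fin 4) (k : ℕ) (s : Fin k → GWConfig 4 n) :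
    gwLik 4 p lam (n + 1) i ⟨k, s⟩ = p k * ∏ c : Fin k,
      (lam * gwLik 4 p lam n i (s c) + (1 - lam) / 4 * gwTot p lam n (s c)) := by
  show p k * (∏ c : Fin k, ∑ j : Fin 4, potts 4 lam i j * gwLik 4 p lam n j (s c)) = _
  congr 1
  refine Finset.prod_congr rfl (fun c _ => ?_)
  rw [sum_potts]
  rfl

theorem gwLik_nonneg (hp0 : ∀ k, 0 ≤ p k) (h0 : 0 ≤ lam) (h1 : lam ≤ 1) (n : ℕ) :
    ∀ (i : Fin 4) (s : GWConfig 4 n), 0 ≤ gwLik 4 p lam n i s := by
  induction n with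
  | zero =>
    intro i s
    show 0 ≤ spinDelta 4 i s
    unfold spinDelta
    split_ifs <;> norm_num
  | succ n ih =>
    rintro i ⟨k, s⟩
    rw [gwLik_succ]
    refine mul_nonneg (hp0 k) (Finset.prod_nonneg (fun c _ => ?_))
    have h2 := ih i (s c)
    have h3 : 0 ≤ gwTot p lam n (s c) :=
      add_nonneg (add_nonneg (add_nonneg (ih 0 _) (ih 1 _)) (ih 2 _)) (ih 3 _)
    have h4 : 0 ≤ (1 - lam) / 4 := by linarith
    positivity

theorem gwTot_nonneg (hp0 : ∀ k, 0 ≤ p k) (h0 : 0 ≤ lam) (h1 : lam ≤ 1) (n : ℕ) (s : GWConfig 4 n) :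
    0 ≤ gwTot p lam n s :=
  add_nonneg (add_nonneg (add_nonneg (gwLik_nonneg hp0 h0 h1 n 0 s) (gwLik_nonneg hp0 h0 h1 n 1 s))
    (gwLik_nonneg hp0 h0 h1 n 2 s)) (gwLik_nonneg hp0 h0 h1 n 3 s)

theorem gwPost_nonneg (hp0 : ∀ k, 0 ≤ p k) (h0 : 0 ≤ lam) (h1 : lam ≤ 1) (n : ℕ) (i : Fin 4)
    (s : GWConfig 4 n) : 0 ≤ gwPost p lam n i s :=
  div_nonneg (gwLik_nonneg hp0 h0 h1 n i s) (gwTot_nonneg hp0 h0 h1 n s)

theorem gwLik_eq_zero (hp0 : ∀ k, 0 ≤ p k) (h0 : 0 ≤ lam) (h1 : lam ≤ 1) (n : ℕ) (i : Fin 4)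
    (s : GWConfig 4 n) (hT : gwTot p lam n s = 0) : gwLik 4 p lam n i s = 0 := by
  have a0 := gwLik_nonneg hp0 h0 h1 n 0 s
  have a1 := gwLik_nonneg hp0 h0 h1 n 1 s
  have a2 := gwLik_nonneg hp0 h0 h1 n 2 s
  have a3 := gwLik_nonneg hp0 h0 h1 n 3 s
  unfold gwTot at hT
  have hs : ∀ t : Fin 4, t = 0 ∨ t = 1 ∨ t = 2 ∨ t = 3 := by decide
  rcases hs i with rfl | rfl | rfl | rfl <;> linarith

theorem gwPost_simp {n : ℕ} (hp0 : ∀ k, 0 ≤ p k) (h0 : 0 ≤ lam) (h1 : lam ≤ 1) (s : GWConfig 4 n)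
    (hT : gwTot p lam n s ≠ 0) :
    Simp (gwPost p lam n 0 s) (gwPost p lam n 1 s) (gwPost p lam n 2 s) (gwPost p lam n 3 s) := by
  refine ⟨gwPost_nonneg hp0 h0 h1 n 0 s, gwPost_nonneg hp0 h0 h1 n 1 s,
    gwPost_nonneg hp0 h0 h1 n 2 s, gwPost_nonneg hp0 h0 h1 n 3 s, ?_⟩
  unfold gwPost
  rw [← add_div, ← add_div, ← add_div]
  exact div_self hT

/-- The functional of the recursion is the law of the posterior. -/
theorem gwEx_rep (hp0 : ∀ k, 0 ≤ p k) (hp1 : HasSum p 1) (h0 : 0 ≤ lam) (h1 : lam ≤ 1) (n : ℕ) :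
    Rep (gwEx p lam n) (fun s : GWConfig 4 n => 1 / 4 * gwTot p lam n s)
      (gwPost p lam n 0) (gwPost p lam n 1) (gwPost p lam n 2) (gwPost p lam n 3) := by
  induction n with
  | zero =>
    have hT : ∀ s : Fin 4, gwTot p lam 0 s = 1 := by
      intro s
      show spinDelta 4 0 s + spinDelta 4 1 s + spinDelta 4 2 s + spinDelta 4 3 s = 1
      exact delta_sum s
    let _ : Fintype (GWConfig 4 0) := inferInstanceAs (Fintype (Fin 4))
    refine ⟨fun s => ?_, (hasSum_fintype _).summable, fun s hs => ?_, fun f _ => ?_⟩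
    · have := gwTot_nonneg hp0 h0 h1 0 s
      positivity
    · exact gwPost_simp hp0 h0 h1 s (fun h => hs (by rw [h]; ring))
    · show vertexEx f = ∑' s : Fin 4, _
      rw [tsum_fintype, Fin.sum_univ_four]
      have v : ∀ (s i : Fin 4), gwPost p lam 0 i s = spinDelta 4 i s := by
        intro s i
        unfold gwPost
        rw [hT s, div_one]
        rfl
      have dd : ∀ i j : Fin 4, spinDelta 4 i j = if i = j then 1 else 0 := fun _ _ => rfl
      simp only [v, hT, dd]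
      unfold vertexEx
      simp
      ring
  | succ n ih =>
    have hB := gwEx_bexp hp0 hp1 h0 h1 n
    have hcB : BExp (chan lam (gwEx p lam n)) Simp :=
      chan_bexp hB h0 h1 (fun _ _ _ _ h => h) (fun a b c d hK => chan_simp h0 h1 hK)
    have hc := ih.chan h0 h1
    have hy : ∀ (i : Fin 4) (t : GWConfig 4 n), 0 ≤ chanPt lam (gwPost p lam n i t) :=
      fun i t => chanPt_nonneg h0 h1 (gwPost_nonneg hp0 h0 h1 n i t)
    have hPk := fun k => Pk_rep hcB hc (hy 0) (hy 1) (hy 2) (hy 3) k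
    have hF : ∀ k, BExp (Pk (chan lam (gwEx p lam n)) k) Simp := by
      intro k
      induction k with
      | zero => exact centre_bexp (fun _ _ _ _ h => h) simp_centre
      | succ k ih2 =>
        exact bprod_bexp ih2 hcB (fun _ _ _ _ h => h)
          (fun a b c d q r s t h1 h2 hD => prod_simp h1 h2 hD)
    have hM := Rep.mix hp0 hp1 hF hPk
    -- the child factor
    have hchild : ∀ (i : Fin 4) (t : GWConfig 4 n),
        lam * gwLik 4 p lam n i t + (1 - lam) / 4 * gwTot p lam n t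
          = gwTot p lam n t * chanPt lam (gwPost p lam n i t) := by
      intro i t
      by_cases hT : gwTot p lam n t = 0
      · rw [hT, gwLik_eq_zero hp0 h0 h1 n i t hT]
        ring
      · unfold chanPt gwPost
        field_simp
    have hL : ∀ (i : Fin 4) (k : ℕ) (s : Fin k → GWConfig 4 n),
        gwLik 4 p lam (n + 1) i ⟨k, s⟩ = p k * ((∏ c, gwTot p lam n (s c))
          * ∏ c, chanPt lam (gwPost p lam n i (s c))) := by
      intro i k s
      rw [gwLik_succ, ← Finset.prod_mul_distrib]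
      congr 1
      exact Finset.prod_congr rfl (fun c _ => hchild i (s c))
    have hW : ∀ (k : ℕ) (s : Fin k → GWConfig 4 n), ∏ c, (1 / 4 * gwTot p lam n (s c))
        = (1 / 4) ^ k * ∏ c, gwTot p lam n (s c) := by
      intro k s
      rw [Finset.prod_mul_distrib]
      simp
    refine hM.congr ?_ ?_
    · rintro ⟨k, s⟩
      show 1 / 4 * gwTot p lam (n + 1) ⟨k, s⟩ = p k * tupW _ _ _ _ _ k s
      have htot : gwTot p lam (n + 1) ⟨k, s⟩ = gwLik 4 p lam (n + 1) 0 ⟨k, s⟩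
          + gwLik 4 p lam (n + 1) 1 ⟨k, s⟩ + gwLik 4 p lam (n + 1) 2 ⟨k, s⟩
          + gwLik 4 p lam (n + 1) 3 ⟨k, s⟩ := rfl
      rw [htot, hL, hL, hL, hL]
      unfold tupW
      dsimp only
      rw [hW]
      have e3 : ((1 : ℝ) / 4) ^ k * 4 ^ k = 1 := by
        rw [← mul_pow]
        norm_num
      set T := ∏ c, gwTot p lam n (s c)
      set L0 := ∏ c, chanPt lam (gwPost p lam n 0 (s c))
      set L1 := ∏ c, chanPt lam (gwPost p lam n 1 (s c))
      set L2 := ∏ c, chanPt lam (gwPost p lam n 2 (s c))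
      set L3 := ∏ c, chanPt lam (gwPost p lam n 3 (s c))
      linear_combination (-(1 / 4) * p k * T * (L0 + L1 + L2 + L3)) * e3
    · rintro ⟨k, s⟩ hs
      have hs' : p k * tupW (fun s => 1 / 4 * gwTot p lam n s)
          (fun t => chanPt lam (gwPost p lam n 0 t)) (fun t => chanPt lam (gwPost p lam n 1 t))
          (fun t => chanPt lam (gwPost p lam n 2 t)) (fun t => chanPt lam (gwPost p lam n 3 t)) k s ≠ 0 := hs
      have hpk : p k ≠ 0 := left_ne_zero_of_mul hs'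
      have hs2 := right_ne_zero_of_mul hs'
      unfold tupW at hs2
      simp only [hW] at hs2
      have hTne : ∏ c, gwTot p lam n (s c) ≠ 0 :=
        right_ne_zero_of_mul (left_ne_zero_of_mul hs2)
      have hSne : ∏ c, chanPt lam (gwPost p lam n 0 (s c)) + ∏ c, chanPt lam (gwPost p lam n 1 (s c))
          + ∏ c, chanPt lam (gwPost p lam n 2 (s c)) + ∏ c, chanPt lam (gwPost p lam n 3 (s c)) ≠ 0 :=
        right_ne_zero_of_mul (right_ne_zero_of_mul hs2)
      have hP : ∀ i : Fin 4, gwPost p lam (n + 1) i ⟨k, s⟩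
          = (∏ c, chanPt lam (gwPost p lam n i (s c)))
            / (∏ c, chanPt lam (gwPost p lam n 0 (s c)) + ∏ c, chanPt lam (gwPost p lam n 1 (s c))
              + ∏ c, chanPt lam (gwPost p lam n 2 (s c)) + ∏ c, chanPt lam (gwPost p lam n 3 (s c))) := by
        intro i
        have hpost : gwPost p lam (n + 1) i ⟨k, s⟩ = gwLik 4 p lam (n + 1) i ⟨k, s⟩
            / (gwLik 4 p lam (n + 1) 0 ⟨k, s⟩ + gwLik 4 p lam (n + 1) 1 ⟨k, s⟩
              + gwLik 4 p lam (n + 1) 2 ⟨k, s⟩ + gwLik 4 p lam (n + 1) 3 ⟨k, s⟩) := rfl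
        rw [hpost, hL, hL, hL, hL, hL]
        set T := ∏ c, gwTot p lam n (s c)
        set L0 := ∏ c, chanPt lam (gwPost p lam n 0 (s c))
        set L1 := ∏ c, chanPt lam (gwPost p lam n 1 (s c))
        set L2 := ∏ c, chanPt lam (gwPost p lam n 2 (s c))
        set L3 := ∏ c, chanPt lam (gwPost p lam n 3 (s c))
        have : p k * (T * L0) + p k * (T * L1) + p k * (T * L2) + p k * (T * L3)
            = (p k * T) * (L0 + L1 + L2 + L3) := by
          ring
        rw [this, ← mul_assoc (p k) T, mul_div_mul_left _ _ (mul_ne_zero hpk hTne)]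
      exact ⟨hP 0, hP 1, hP 2, hP 3⟩

theorem gwProb_eq (n : ℕ) (s : GWConfig 4 n) :
    gwProb 4 p lam n s = 1 / 4 * gwTot p lam n s := by
  unfold gwProb gwTot
  rw [Fin.sum_univ_four]
  push_cast
  ring

theorem gwPosterior_eq (n : ℕ) (s : GWConfig 4 n) (i : Fin 4) :
    gwPosterior 4 p lam n s i = gwPost p lam n i s := by
  unfold gwPosterior gwPost
  rw [gwProb_eq]
  push_cast
  exact mul_div_mul_left _ _ (by norm_num)

theorem gwTerm_eq (n : ℕ) (s : GWConfig 4 n) :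
    gwTerm 4 p lam n s = (1 / 4 * gwTot p lam n s)
      * errFn (gwPost p lam n 0 s) (gwPost p lam n 1 s) (gwPost p lam n 2 s)
        (gwPost p lam n 3 s) := by
  unfold gwTerm errFn
  rw [gwProb_eq, Fin.sum_univ_four, gwPosterior_eq, gwPosterior_eq, gwPosterior_eq, gwPosterior_eq]
  push_cast
  ring

end tree

/-- Nonreconstruction for the four-state ferromagnetic Potts channel on Galton-Watson trees, given
the kernel data. -/
theorem gw_main {fK fM A B al be : Fn4} {Msg : ℝ → ℝ → ℝ → ℝ → Prop} {g : ℝ}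
    (hk : Kern fK fM A B al be Msg g) (hg : 0 < g) {p : ℕ → ℝ} (hp0 : ∀ k, 0 ≤ p k)
    (hp1 : HasSum p 1) {d : ℝ} (hpd : HasSum (fun k : ℕ => (k : ℝ) * p k) d) {lam : ℝ}
    (hc : ChanOK fK fM Msg lam) (hKS : d * lam ^ 2 ≤ 1)
    (hb : (∃ k, 2 ≤ k ∧ 0 < p k) ∨ d * lam ^ 2 < 1) :
    (∀ n, HasSum (gwProb 4 p lam n) 1) ∧ (∀ n, Summable (gwTerm 4 p lam n)) ∧
      Tendsto (gwError 4 p lam) atTop (𝓝 0) := by
  have h0 := hc.h0
  have h1 := hc.h1
  have hR := gwEx_rep (p := p) (lam := lam) hp0 hp1 h0 h1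
  have hE := gwEx_bexp hp0 hp1 h0 h1
  have hprob : ∀ n, gwProb 4 p lam n = fun s => 1 / 4 * gwTot p lam n s :=
    fun n => funext (fun s => gwProb_eq n s)
  have hterm : ∀ n, gwTerm 4 p lam n = fun s => (1 / 4 * gwTot p lam n s)
      * errFn (gwPost p lam n 0 s) (gwPost p lam n 1 s) (gwPost p lam n 2 s) (gwPost p lam n 3 s) :=
    fun n => funext (fun s => gwTerm_eq n s)
  refine ⟨fun n => ?_, fun n => ?_, ?_⟩
  · rw [hprob]
    have e1 := (hR n).eq (fun _ _ _ _ => 1) (Bd.const 1)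
    rw [(hE n).one] at e1
    simp only [mul_one] at e1
    have := (hR n).w_summable.hasSum
    rwa [← e1] at this
  · rw [hterm]
    exact (hR n).summable_term bd_errFn
  · have herr : ∀ n, gwError 4 p lam n = gwEx p lam n errFn := by
      intro n
      unfold gwError
      rw [hterm, (hR n).eq errFn bd_errFn]
    have e : gwError 4 p lam = fun n => gwEx p lam n errFn := funext herr
    rw [e]
    exact err_tendsto hE (gwEx_tendsto hk hg hp0 hp1 hpd hc hKS hb)

/-! ### the Poisson law -/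

theorem poisson_nonneg {d : ℝ} (hd : 0 ≤ d) (k : ℕ) : 0 ≤ poissonLaw d k := by
  unfold poissonLaw
  positivity

theorem poisson_hasSum (d : ℝ) : HasSum (poissonLaw d) 1 := by
  have h := (NormedSpace.expSeries_div_hasSum_exp (d : ℝ)).mul_left (Real.exp (-d))
  rw [← Real.exp_eq_exp_ℝ, ← Real.exp_add, neg_add_cancel, Real.exp_zero] at h
  have e : poissonLaw d = fun k : ℕ => Real.exp (-d) * (d ^ k / (k.factorial : ℝ)) := by
    funext k
    unfold poissonLaw
    ring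
  rw [e]
  exact h

theorem poisson_mean (d : ℝ) : HasSum (fun k : ℕ => (k : ℝ) * poissonLaw d k) d := by
  have h := (poisson_hasSum d).mul_left d
  rw [mul_one] at h
  rw [← hasSum_nat_add_iff' 1]
  simp only [Finset.sum_range_one, Nat.cast_zero, zero_mul, sub_zero]
  have e : (fun k : ℕ => ((k + 1 : ℕ) : ℝ) * poissonLaw d (k + 1)) = fun k : ℕ => d * poissonLaw d k := by
    funext k
    unfold poissonLaw
    rw [Nat.factorial_succ]
    push_cast
    have hk : (k.factorial : ℝ) ≠ 0 := by positivity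
    have hk1 : (k : ℝ) + 1 ≠ 0 := by positivity
    field_simp
    ring
  rw [e]
  exact h

/-- Nonreconstruction on the Poisson Galton-Watson tree, given the kernel data. -/
theorem poisson_main {fK fM A B al be : Fn4} {Msg : ℝ → ℝ → ℝ → ℝ → Prop} {g : ℝ}
    (hk : Kern fK fM A B al be Msg g) (hg : 0 < g) {d : ℝ} (hd : 0 < d) {lam : ℝ}
    (hc : ChanOK fK fM Msg lam) (hKS : d * lam ^ 2 ≤ 1) :
    (∀ n, HasSum (gwProb 4 (poissonLaw d) lam n) 1) ∧
      (∀ n, Summable (gwTerm 4 (poissonLaw d) lam n)) ∧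
      Tendsto (gwError 4 (poissonLaw d) lam) atTop (𝓝 0) := by
  refine gw_main hk hg (poisson_nonneg hd.le) (poisson_hasSum d) (poisson_mean d) hc hKS
    (Or.inl ⟨2, le_refl 2, ?_⟩)
  unfold poissonLaw
  have := Real.exp_pos (-d)
  positivity

end Vale.Agent.Lib.P154Q4
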