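import Vale.Agent.Lib.P154Q4.Q4Main
import Vale.Agent.Lib.P154Q4.GWLink

/-!
Nonreconstruction at and below the Kesten-Stigum bound for the four-state ferromagnetic Potts
channel on Galton-Watson trees, when `lam <= 5/7`.
-/

namespace Vale.Agent.Lib.P154Q4

open Filter Topology K2 K1
open Vale.Agent.Lib.P154 (gwProb gwTerm gwError poissonLaw)

/-- Any offspring law with mean `d`, `0 <= lam <= 5/7`, `d * lam ^ 2 <= 1`, with either strict
inequality or some offspring number at least two of positive probability. -/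
theorem q4_gw {p : ℕ → ℝ} (hp0 : ∀ k, 0 ≤ p k) (hp1 : HasSum p 1) {d : ℝ}
    (hpd : HasSum (fun k : ℕ => (k : ℝ) * p k) d) {lam : ℝ} (h0 : 0 ≤ lam) (h1 : lam ≤ 5 / 7)
    (hKS : d * lam ^ 2 ≤ 1) (hb : (∃ k, 2 ≤ k ∧ 0 < p k) ∨ d * lam ^ 2 < 1) :
    (∀ n, HasSum (gwProb 4 p lam n) 1) ∧ (∀ n, Summable (gwTerm 4 p lam n)) ∧
      Tendsto (gwError 4 p lam) atTop (𝓝 0) :=
  gw_main kern4 (by norm_num) hp0 hp1 hpd (chanOK4 h0 h1) hKS hb

/-- The Poisson tree: `0 <= lam <= 5/7`, `d * lam ^ 2 <= 1`. -/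
theorem q4_poisson {d : ℝ} (hd : 0 < d) {lam : ℝ} (h0 : 0 ≤ lam) (h1 : lam ≤ 5 / 7)
    (hKS : d * lam ^ 2 ≤ 1) :
    (∀ n, HasSum (gwProb 4 (poissonLaw d) lam n) 1) ∧
      (∀ n, Summable (gwTerm 4 (poissonLaw d) lam n)) ∧
      Tendsto (gwError 4 (poissonLaw d) lam) atTop (𝓝 0) :=
  poisson_main kern4 (by norm_num) hd (chanOK4 h0 h1) hKS

/-- The Poisson tree with `d >= 49/25`: every `lam >= 0` with `d * lam ^ 2 <= 1` has `lam <= 5/7`. -/
theorem q4_poisson_large {d : ℝ} (hd : 49 / 25 ≤ d) {lam : ℝ} (h0 : 0 ≤ lam)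
    (hKS : d * lam ^ 2 ≤ 1) :
    (∀ n, HasSum (gwProb 4 (poissonLaw d) lam n) 1) ∧
      (∀ n, Summable (gwTerm 4 (poissonLaw d) lam n)) ∧
      Tendsto (gwError 4 (poissonLaw d) lam) atTop (𝓝 0) := by
  refine q4_poisson (by linarith) h0 ?_ hKS
  by_contra hc
  rw [not_le] at hc
  have : (5 / 7 : ℝ) ^ 2 < lam ^ 2 := pow_lt_pow_left₀ hc (by norm_num) (by norm_num)
  nlinarith [sq_nonneg lam]

end Vale.Agent.Lib.P154Q4
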