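import Vale.Agent.Lib.P154Q4.K1Data

/-!
Reflective certificates of nonnegativity of the multipliers of the first kernel.
-/

namespace Vale.Agent.Lib.P154Q4.K1

open Kron Cells K2

/-- subdivision and exponents for the multiplier on the messages -/
def trA : CT := (CT.leaf [65, 65, 65, 65, 569, 4600])

theorem okA : treeOK TA 8 0 10 trA T0 Z0 = true := by decide +kernel

/-- subdivision and exponents for the multiplier on the simplex -/
def trB : CT := (CT.leaf [43, 43, 43, 43, 372, 3002])

theorem okB : treeOK TB 8 0 10 trB S0 Z0 = true := by decide +kernel

end Vale.Agent.Lib.P154Q4.K1
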