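import Vale.Agent.Lib.P154Q4.K1Data
import Vale.Agent.Lib.P154Q4.CellsSplit

/-!
Reflective certificates of nonnegativity of the difference polynomial of the first kernel on pairs of cells.
-/

namespace Vale.Agent.Lib.P154Q4.K1

open Kron Cells K2

theorem leafK4 : pairOK TK (bisA 1 (bisA 2 S0)) (bisB 2 T0) 8 8 (nth [130, 1157, 9371, 58649, 527825, 4281233]) 10 = true := by decide +kernel

theorem leafK5 : pairOK TK (bisB 1 (bisA 2 S0)) (bisB 2 T0) 8 8 (nth [128, 1139, 9225, 57736, 519609, 4214590]) 10 = true := by decide +kernel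

theorem leafK6 : pairOK TK (bisB 2 S0) (bisA 2 T0) 8 8 (nth [121, 1073, 8686, 69593, 626323, 5080161]) 10 = true := by decide +kernel

theorem leafK7 : pairOK TK (bisB 2 S0) (bisB 2 T0) 8 8 (nth [118, 1049, 8494, 53160, 478427, 3880560]) 10 = true := by decide +kernel


end Vale.Agent.Lib.P154Q4.K1
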