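import Vale.Agent.Lib.P154Q4.K1Leaf0
import Vale.Agent.Lib.P154Q4.K1Leaf1

/-!
Nonnegativity of the difference polynomial of the first kernel on the fundamental pair of cells.
-/

namespace Vale.Agent.Lib.P154Q4.K1

open Kron Cells K2

theorem onK : OnPair TK S0 T0 :=
  onPair_s 2 (onPair_t 2 (onPair_s 1 (onPair_t 1 (pair_sound TK (bisA 1 (bisA 2 S0)) (bisA 1 (bisA 2 T0)) 8 8 (nth [143, 1269, 10278, 82349, 741123, 6011317]) 10 leafK0) (pair_sound TK (bisA 1 (bisA 2 S0)) (bisB 1 (bisA 2 T0)) 8 8 (nth [140, 1245, 10083, 80789, 727083, 5897437]) 10 leafK1)) (onPair_t 1 (pair_sound TK (bisB 1 (bisA 2 S0)) (bisA 1 (bisA 2 T0)) 8 8 (nth [140, 1243, 10068, 80667, 725987, 5888545]) 10 leafK2) (pair_sound TK (bisB 1 (bisA 2 S0)) (bisB 1 (bisA 2 T0)) 8 8 (nth [138, 1227, 9937, 79619, 716555, 5812041]) 10 leafK3))) (onPair_s 1 (pair_sound TK (bisA 1 (bisA 2 S0)) (bisB 2 T0) 8 8 (nth [130, 1157,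 9371, 58649, 527825, 4281233]) 10 leafK4) (pair_sound TK (bisB 1 (bisA 2 S0)) (bisB 2 T0) 8 8 (nth [128, 1139, 9225, 57736, 519609, 4214590]) 10 leafK5))) (onPair_t 2 (pair_sound TK (bisB 2 S0) (bisA 2 T0) 8 8 (nth [121, 1073, 8686, 69593, 626323, 5080161]) 10 leafK6) (pair_sound TK (bisB 2 S0) (bisB 2 T0) 8 8 (nth [118, 1049, 8494, 53160, 478427, 3880560]) 10 leafK7))

end Vale.Agent.Lib.P154Q4.K1
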