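import Vale.Agent.Lib.P154Q4.K1CertId
import Vale.Agent.Lib.P154Q4.K1CertA
import Vale.Agent.Lib.P154Q4.K1CertP

/-!
The first kernel of the four-state channel: upper bound for the weighted second moment, averaged
over the arrangements of the message.
-/

namespace Vale.Agent.Lib.P154Q4.K1

open Kron Ex Cells K2

/-- the multiplier on the messages -/
noncomputable def A1m (p q r s : ℝ) : ℝ :=
  Pval TA (f1 p q r s) (f2 p q r s) (f3 p q r s) 0 0 0 / 6

/-- the multiplier on the simplex -/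
noncomputable def B1m (a b c d : ℝ) : ℝ :=
  Pval TB (f1 a b c d) (f2 a b c d) (f3 a b c d) 0 0 0 / 6

theorem A1m_nonneg : ∀ p q r s, MsgD p q r s → 0 ≤ A1m p q r s := by
  refine wlog4 _ ?_ ?_ ?_ ?_
  · intro a b c d h h'
    obtain ⟨i1, i2, i3⟩ := inv12 a b c d
    have h2 := h ⟨h'.2.1, h'.1, h'.2.2.1, h'.2.2.2.1, by linarith [h'.2.2.2.2]⟩
    unfold A1m at h2 ⊢
    rw [Pval_congr TA i1.symm i2.symm i3.symm rfl rfl rfl]
    exact h2
  · intro a b c d h h'
    obtain ⟨i1, i2, i3⟩ := inv23 a b c d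
    have h2 := h ⟨h'.1, h'.2.2.1, h'.2.1, h'.2.2.2.1, by linarith [h'.2.2.2.2]⟩
    unfold A1m at h2 ⊢
    rw [Pval_congr TA i1.symm i2.symm i3.symm rfl rfl rfl]
    exact h2
  · intro a b c d h h'
    obtain ⟨i1, i2, i3⟩ := inv34 a b c d
    have h2 := h ⟨h'.1, h'.2.1, h'.2.2.2.1, h'.2.2.1, by linarith [h'.2.2.2.2]⟩
    unfold A1m at h2 ⊢
    rw [Pval_congr TA i1.symm i2.symm i3.symm rfl rfl rfl]
    exact h2
  · intro a b c d hab hbc hcd h'
    have := treeOK_sound TA 8 0 10 trA T0 Z0 okA _ _ _ _ _ _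
      (inCell_T0 hab hbc hcd h'.2.2.2.1 h'.2.2.2.2) inCell_Z0
    unfold A1m
    positivity

theorem B1m_nonneg : ∀ a b c d, Simp a b c d → 0 ≤ B1m a b c d := by
  refine wlog4 _ ?_ ?_ ?_ ?_
  · intro a b c d h h'
    obtain ⟨i1, i2, i3⟩ := inv12 a b c d
    have h2 := h h'.swap
    unfold B1m at h2 ⊢
    rw [Pval_congr TB i1.symm i2.symm i3.symm rfl rfl rfl]
    exact h2
  · intro a b c d h h'
    obtain ⟨i1, i2, i3⟩ := inv23 a b c d
    have h2 := h h'.swap23
    unfold B1m at h2 ⊢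
    rw [Pval_congr TB i1.symm i2.symm i3.symm rfl rfl rfl]
    exact h2
  · intro a b c d h h'
    obtain ⟨i1, i2, i3⟩ := inv34 a b c d
    have h2 := h h'.swap34
    unfold B1m at h2 ⊢
    rw [Pval_congr TB i1.symm i2.symm i3.symm rfl rfl rfl]
    exact h2
  · intro a b c d hab hbc hcd h'
    have := treeOK_sound TB 8 0 10 trB S0 Z0 okB _ _ _ _ _ _
      (inCell_S0 hab hbc hcd h'.hd h'.hs) inCell_Z0
    unfold B1m
    positivity

/-- the difference polynomial is nonnegative on the product of the simplex and the messages -/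
theorem K_nonneg (a b c d p q r s : ℝ) (h : Simp a b c d) (h' : MsgD p q r s) :
    0 ≤ Pval TK (f1 a b c d) (f2 a b c d) (f3 a b c d) (f1 p q r s) (f2 p q r s) (f3 p q r s) := by
  revert p q r s
  have hmain : ∀ a b c d, Simp a b c d → ∀ p q r s, MsgD p q r s →
      0 ≤ Pval TK (f1 a b c d) (f2 a b c d) (f3 a b c d) (f1 p q r s) (f2 p q r s) (f3 p q r s) := by
    refine wlog4 _ ?_ ?_ ?_ ?_
    · intro a b c d h h' p q r s hm
      obtain ⟨i1, i2, i3⟩ := inv12 a b c d
      rw [Pval_congr TK i1.symm i2.symm i3.symm rfl rfl rfl]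
      exact h h'.swap p q r s hm
    · intro a b c d h h' p q r s hm
      obtain ⟨i1, i2, i3⟩ := inv23 a b c d
      rw [Pval_congr TK i1.symm i2.symm i3.symm rfl rfl rfl]
      exact h h'.swap23 p q r s hm
    · intro a b c d h h' p q r s hm
      obtain ⟨i1, i2, i3⟩ := inv34 a b c d
      rw [Pval_congr TK i1.symm i2.symm i3.symm rfl rfl rfl]
      exact h h'.swap34 p q r s hm
    · intro a b c d hab hbc hcd h'
      refine wlog4 _ ?_ ?_ ?_ ?_
      · intro p q r s h2 hm
        obtain ⟨i1, i2, i3⟩ := inv12 p q r s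
        rw [Pval_congr TK rfl rfl rfl i1.symm i2.symm i3.symm]
        exact h2 ⟨hm.2.1, hm.1, hm.2.2.1, hm.2.2.2.1, by linarith [hm.2.2.2.2]⟩
      · intro p q r s h2 hm
        obtain ⟨i1, i2, i3⟩ := inv23 p q r s
        rw [Pval_congr TK rfl rfl rfl i1.symm i2.symm i3.symm]
        exact h2 ⟨hm.1, hm.2.2.1, hm.2.1, hm.2.2.2.1, by linarith [hm.2.2.2.2]⟩
      · intro p q r s h2 hm
        obtain ⟨i1, i2, i3⟩ := inv34 p q r s
        rw [Pval_congr TK rfl rfl rfl i1.symm i2.symm i3.symm]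
        exact h2 ⟨hm.1, hm.2.1, hm.2.2.2.1, hm.2.2.1, by linarith [hm.2.2.2.2]⟩
      · intro p q r s hpq hqr hrs hm
        exact onK _ _ _ _ _ _
          (inCell_S0 hab hbc hcd h'.hd h'.hs) (inCell_T0 hpq hqr hrs hm.2.2.2.1 hm.2.2.2.2)
  intro p q r s h'
  exact hmain a b c d h p q r s h'

/-- the real identity obtained from the certificate -/
theorem id_real {a b c d p q r s : ℝ} (h1 : a + b + c + d = 1) (h2 : p + q + r + s = 1) :
    75 * (24 * (4194304 * avg24 (fun p q r s => G (4 * a * (4 * p)) (4 * b * (4 * q))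
        (4 * c * (4 * r)) (4 * d * (4 * s))) p q r s))
      + (-7549747200) * (sig1 (f1 a b c d) (f2 a b c d) (f3 a b c d)
          + sig1 (f1 p q r s) (f2 p q r s) (f3 p q r s))
      + 117964800 * (sig1 (f1 a b c d) (f2 a b c d) (f3 a b c d)
          * (sig1 (f1 p q r s) (f2 p q r s) (f3 p q r s)
          * (sig1 (f1 a b c d) (f2 a b c d) (f3 a b c d)
            + sig1 (f1 p q r s) (f2 p q r s) (f3 p q r s))))
      + 1572864 * Pval TK (f1 a b c d) (f2 a b c d) (f3 a b c d) (f1 p q r s) (f2 p q r s) (f3 p q r s)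
      + 62914560 * (Pval TA (f1 p q r s) (f2 p q r s) (f3 p q r s) 0 0 0
          * (60 * pii (f1 a b c d) (f2 a b c d) (f3 a b c d)
            - 11 * (sig1 (f1 a b c d) (f2 a b c d) (f3 a b c d)
              * sig1 (f1 a b c d) (f2 a b c d) (f3 a b c d))))
      + 12582912 * (Pval TB (f1 a b c d) (f2 a b c d) (f3 a b c d) 0 0 0
          * (300 * pii (f1 p q r s) (f2 p q r s) (f3 p q r s)
            - 77 * (sig1 (f1 p q r s) (f2 p q r s) (f3 p q r s)
              * sig1 (f1 p q r s) (f2 p q r s) (f3 p q r s)))) = 0 := by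
  let Y : ℕ → ℝ := fun i =>
    match i with
    | 0 => f1 p q r s
    | 1 => f2 p q r s
    | 2 => f3 p q r s
    | 3 => f1 a b c d
    | 4 => f2 a b c d
    | _ => f3 a b c d
  have hz := certZZ_sound 6 _ idEx okId Y
  have v0 : Y 0 = f1 p q r s := rfl
  have v1 : Y 1 = f2 p q r s := rfl
  have v2 : Y 2 = f3 p q r s := rfl
  have v3 : Y 3 = f1 a b c d := rfl
  have v4 : Y 4 = f2 a b c d := rfl
  have v5 : Y 5 = f3 a b c d := rfl
  have eA1 : A1.eval Y = 4 * a := by
    simp only [K2.A1, Ex.eval, v3, v4, v5, f1, f2, f3]; push_cast; linarith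
  have eA2 : A2.eval Y = 4 * b := by
    simp only [K2.A2, Ex.eval, v3, v4, v5, f1, f2, f3]; push_cast; linarith
  have eA3 : A3.eval Y = 4 * c := by
    simp only [K2.A3, Ex.eval, v3, v4, v5, f1, f2, f3]; push_cast; linarith
  have eA4 : A4.eval Y = 4 * d := by
    simp only [K2.A4, Ex.eval, v3, v4, v5, f1, f2, f3]; push_cast; linarith
  have eP1 : P1.eval Y = 4 * p := by
    simp only [K2.P1, Ex.eval, v0, v1, v2, f1, f2, f3]; push_cast; linarith
  have eP2 : P2.eval Y = 4 * q := by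
    simp only [K2.P2, Ex.eval, v0, v1, v2, f1, f2, f3]; push_cast; linarith
  have eP3 : P3.eval Y = 4 * r := by
    simp only [K2.P3, Ex.eval, v0, v1, v2, f1, f2, f3]; push_cast; linarith
  have eP4 : P4.eval Y = 4 * s := by
    simp only [K2.P4, Ex.eval, v0, v1, v2, f1, f2, f3]; push_cast; linarith
  have hGg : ∀ x y z w : Ex, (Gg x y z w).eval Y
      = (fun x y z w => 4194304 * G (4 * a * x) (4 * b * y) (4 * c * z) (4 * d * w))
          (x.eval Y) (y.eval Y) (z.eval Y) (w.eval Y) := by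
    intro x y z w
    simp only [Gg, eval_GEx, Ex.eval, eA1, eA2, eA3, eA4]
  have hs := eval_sum24 Y Gg (fun x y z w => 4194304 * G (4 * a * x) (4 * b * y) (4 * c * z) (4 * d * w))
    hGg P1 P2 P3 P4
  have hFs : ∀ m, (Fs m).eval Y = monoVal (sig1 (f1 a b c d) (f2 a b c d) (f3 a b c d))
      (pii (f1 a b c d) (f2 a b c d) (f3 a b c d)) (sig2 (f1 a b c d) (f2 a b c d) (f3 a b c d)) m := by
    intro m
    simp only [Fs, eval_monoEx, eval_sig1Ex, eval_piiEx, eval_sig2Ex, Ex.eval, v3, v4, v5]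
  have hFt : ∀ m, (Ft m).eval Y = monoVal (sig1 (f1 p q r s) (f2 p q r s) (f3 p q r s))
      (pii (f1 p q r s) (f2 p q r s) (f3 p q r s)) (sig2 (f1 p q r s) (f2 p q r s) (f3 p q r s)) m := by
    intro m
    simp only [Ft, eval_monoEx, eval_sig1Ex, eval_piiEx, eval_sig2Ex, Ex.eval, v0, v1, v2]
  have hF0 : ∀ m, (F0 m).eval Y = monoVal (sig1 0 0 0) (pii 0 0 0) (sig2 0 0 0) m := by
    intro m
    simp only [F0, eval_monoEx]
    simp [Ex.eval, sig1, pii, sig2]
  have ePP := eval_outerEx Y Fs Ft _ _ hFs hFt TK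
  have ePA := eval_outerEx Y Ft F0 _ _ hFt hF0 TA
  have ePB := eval_outerEx Y Fs F0 _ _ hFs hF0 TB
  have ef : f20.eval Y = 60 * pii (f1 a b c d) (f2 a b c d) (f3 a b c d)
      + -11 * (sig1 (f1 a b c d) (f2 a b c d) (f3 a b c d) * sig1 (f1 a b c d) (f2 a b c d) (f3 a b c d)) := by
    simp only [f20, Ex.eval, eval_sig1Ex, eval_piiEx, v3, v4, v5]
    push_cast
    ring
  have eg : g100.eval Y = 300 * pii (f1 p q r s) (f2 p q r s) (f3 p q r s)
      + -77 * (sig1 (f1 p q r s) (f2 p q r s) (f3 p q r s) * sig1 (f1 p q r s) (f2 p q r s) (f3 p q r s)) := by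
    simp only [g100, Ex.eval, eval_sig1Ex, eval_piiEx, v0, v1, v2]
    push_cast
    ring
  have esx : sx.eval Y = sig1 (f1 a b c d) (f2 a b c d) (f3 a b c d) := by
    simp only [sx, eval_sig1Ex, Ex.eval, v3, v4, v5]
  have esy : sy.eval Y = sig1 (f1 p q r s) (f2 p q r s) (f3 p q r s) := by
    simp only [sy, eval_sig1Ex, Ex.eval, v0, v1, v2]
  have ehz := hz
  unfold idEx at ehz
  simp only [Ex.eval] at ehz
  rw [hs, ePP, ePA, ePB, ef, eg, eP1, eP2, eP3, eP4, esx, esy] at ehz
  push_cast at ehz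
  have hav : avg24 (fun x y z w => 4194304 * G (4 * a * x) (4 * b * y) (4 * c * z) (4 * d * w))
        (4 * p) (4 * q) (4 * r) (4 * s)
      = 4194304 * avg24 (fun p q r s => G (4 * a * (4 * p)) (4 * b * (4 * q)) (4 * c * (4 * r))
        (4 * d * (4 * s))) p q r s := by
    simp only [avg24]
    ring
  rw [hav] at ehz
  unfold Pval
  linarith

/-- the first kernel on the simplex and the messages -/
theorem k1_main {a b c d p q r s : ℝ} (h : Simp a b c d) (hm : MsgD p q r s) :
    avg24 (fun p q r s => wt I2 a b c d p q r s) p q r s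
      ≤ I2 a b c d + I2 p q r s - (1 / 64) * I2 a b c d * I2 p q r s * (I2 a b c d + I2 p q r s)
        - A1m p q r s * fK a b c d - B1m a b c d * fM p q r s := by
  obtain ⟨hp, hq, hr, hs, hsum⟩ := hm
  have hid := id_real h.hs hsum
  have hP := K_nonneg a b c d p q r s h ⟨hp, hq, hr, hs, hsum⟩
  have hle : avg24 (fun p q r s => wt I2 a b c d p q r s) p q r s
      ≤ avg24 (fun p q r s => G (4 * a * (4 * p)) (4 * b * (4 * q)) (4 * c * (4 * r))
        (4 * d * (4 * s))) p q r s := by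
    have i0 := wt_le_G h hp hq hr hs (by linarith)
    have i1 := wt_le_G h hp hq hs hr (by linarith)
    have i2 := wt_le_G h hp hr hq hs (by linarith)
    have i3 := wt_le_G h hp hr hs hq (by linarith)
    have i4 := wt_le_G h hp hs hq hr (by linarith)
    have i5 := wt_le_G h hp hs hr hq (by linarith)
    have i6 := wt_le_G h hq hp hr hs (by linarith)
    have i7 := wt_le_G h hq hp hs hr (by linarith)
    have i8 := wt_le_G h hq hr hp hs (by linarith)
    have i9 := wt_le_G h hq hr hs hp (by linarith)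
    have i10 := wt_le_G h hq hs hp hr (by linarith)
    have i11 := wt_le_G h hq hs hr hp (by linarith)
    have i12 := wt_le_G h hr hp hq hs (by linarith)
    have i13 := wt_le_G h hr hp hs hq (by linarith)
    have i14 := wt_le_G h hr hq hp hs (by linarith)
    have i15 := wt_le_G h hr hq hs hp (by linarith)
    have i16 := wt_le_G h hr hs hp hq (by linarith)
    have i17 := wt_le_G h hr hs hq hp (by linarith)
    have i18 := wt_le_G h hs hp hq hr (by linarith)
    have i19 := wt_le_G h hs hp hr hq (by linarith)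
    have i20 := wt_le_G h hs hq hp hr (by linarith)
    have i21 := wt_le_G h hs hq hr hp (by linarith)
    have i22 := wt_le_G h hs hr hp hq (by linarith)
    have i23 := wt_le_G h hs hr hq hp (by linarith)
    unfold avg24
    linarith
  have e1 : fK a b c d = (60 * pii (f1 a b c d) (f2 a b c d) (f3 a b c d)
      - 11 * (sig1 (f1 a b c d) (f2 a b c d) (f3 a b c d)
        * sig1 (f1 a b c d) (f2 a b c d) (f3 a b c d))) / 20 := by
    unfold fK
    rw [I3_eq h.hs, I2_eq h.hs]
    ring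
  have e2 : fM p q r s = (300 * pii (f1 p q r s) (f2 p q r s) (f3 p q r s)
      - 77 * (sig1 (f1 p q r s) (f2 p q r s) (f3 p q r s)
        * sig1 (f1 p q r s) (f2 p q r s) (f3 p q r s))) / 100 := by
    unfold fM
    rw [I3_eq hsum, I2_eq hsum]
    ring
  rw [e1, e2, I2_eq h.hs, I2_eq hsum]
  unfold A1m B1m
  refine le_trans hle ?_
  nlinarith [hid, hP]

theorem bd_A1m : Bd A1m := by
  have := (bd_Pval0 TA).smul (1 / 6)
  refine (funext (fun a => funext (fun b => funext (fun c => funext (fun d => ?_)))) : A1m = _) ▸ this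
  unfold A1m
  ring

theorem bd_B1m : Bd B1m := by
  have := (bd_Pval0 TB).smul (1 / 6)
  refine (funext (fun a => funext (fun b => funext (fun c => funext (fun d => ?_)))) : B1m = _) ▸ this
  unfold B1m
  ring

end Vale.Agent.Lib.P154Q4.K1
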