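import Vale.Agent.Lib.P154Q4.K1Point

/-!
The polynomial identity of the first kernel as an integer expression.
-/

namespace Vale.Agent.Lib.P154Q4.K1

open Kron Ex Cells K2

/-- coefficients of the polynomial lower bound for the inverse, in the shifted sum -/
def cL : List ℤ := [524288, (-131072), 32768, (-8192), 1920, (-320), 15]

/-- the surrogate in four expressions, scaled by the common denominator -/
def GEx (x1 x2 x3 x4 : Ex) : Ex :=
  add (mul (c 786432) (add x1 (add x2 (add x3 x4))))
    (mul (c (-1)) (mul (add (mul x1 x2) (add (mul x1 x3) (add (mul x1 x4) (add (mul x2 x3)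
          (add (mul x2 x4) (mul x3 x4))))))
        (polyEx (add x1 (add x2 (add x3 (add x4 (c (-4)))))) cL)))

theorem polyV_cL (T : ℝ) : polyV T cL = 524288 * L1 (T / 4) := by
  simp only [cL, polyV, L1]
  push_cast
  ring

theorem eval_GEx (y : ℕ → ℝ) (x1 x2 x3 x4 : Ex) :
    (GEx x1 x2 x3 x4).eval y
      = 4194304 * G (x1.eval y) (x2.eval y) (x3.eval y) (x4.eval y) := by
  simp only [GEx, Ex.eval, eval_polyEx, polyV_cL, G]
  have e : (x1.eval y + (x2.eval y + (x3.eval y + (x4.eval y + ((-4 : ℤ) : ℝ))))) / 4
      = (x1.eval y + x2.eval y + x3.eval y + x4.eval y) / 4 - 1 := by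
    push_cast
    ring
  rw [e]
  push_cast
  ring

/-- the surrogate at one arrangement -/
def Gg (p q r s : Ex) : Ex := GEx (mul A1 p) (mul A2 q) (mul A3 r) (mul A4 s)

/-- the squared length at the first point -/
def sx : Ex := sig1Ex (v 3) (v 4) (v 5)

/-- the squared length at the second point -/
def sy : Ex := sig1Ex (v 0) (v 1) (v 2)

/-- the vanishing expression of the identity -/
def idEx : Ex :=
  add (mul (c 75) (sum24 Gg P1 P2 P3 P4))
    (add (mul (c (-7549747200)) (add sx sy))
      (add (mul (c 117964800) (mul sx (mul sy (add sx sy))))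
        (add (mul (c 1572864) (outerEx Fs Ft TK))
          (add (mul (c 62914560) (mul (outerEx Ft F0 TA) f20))
            (mul (c 12582912) (mul (outerEx Fs F0 TB) g100))))))

end Vale.Agent.Lib.P154Q4.K1
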