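import Vale.Agent.Lib.P154Q4.K1Data
import Vale.Agent.Lib.P154Q4.CellsSplit

/-!
Reflective certificates of nonnegativity of the difference polynomial of the first kernel on pairs of cells.
-/

namespace Vale.Agent.Lib.P154Q4.K1

open Kron Cells K2

theorem leafK0 : pairOK TK (bisA 1 (bisA 2 S0)) (bisA 1 (bisA 2 T0)) 8 8 (nth [143, 1269, 10278, 82349, 741123, 6011317]) 10 = true := by decide +kernel

theorem leafK1 : pairOK TK (bisA 1 (bisA 2 S0)) (bisB 1 (bisA 2 T0)) 8 8 (nth [140, 1245, 10083, 80789, 727083, 5897437]) 10 = true := by decide +kernel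

theorem leafK2 : pairOK TK (bisB 1 (bisA 2 S0)) (bisA 1 (bisA 2 T0)) 8 8 (nth [140, 1243, 10068, 80667, 725987, 5888545]) 10 = true := by decide +kernel

theorem leafK3 : pairOK TK (bisB 1 (bisA 2 S0)) (bisB 1 (bisA 2 T0)) 8 8 (nth [138, 1227, 9937, 79619, 716555, 5812041]) 10 = true := by decide +kernel


end Vale.Agent.Lib.P154Q4.K1
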