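import Vale.Agent.Lib.P154Q4.K1Data

/-!
Pointwise polynomial upper bound of the weighted second moment of the first kernel.
-/

namespace Vale.Agent.Lib.P154Q4.K1

open K2

/-- polynomial lower bound for the inverse -/
noncomputable def L1 (t : ℝ) : ℝ :=
  1 - t + t ^ 2 - t ^ 3 + (15 / 16) * t ^ 4 - (5 / 8) * t ^ 5 + (15 / 128) * t ^ 6

theorem L1_le (t : ℝ) (h3 : -1 < t) (h4 : t ≤ 15 / 7) : L1 t ≤ 1 / (1 + t) := by
  have hD : 0 < 1 + t := by linarith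
  have hq : 0 ≤ 8 - 40 * t + 65 * t ^ 2 - 15 * t ^ 3 := by
    nlinarith [mul_nonneg (sub_nonneg.2 h4) (sq_nonneg (t - 19 / 50)), sq_nonneg (t - 3 / 10)]
  have key : 1 / (1 + t) - L1 t = t ^ 4 * (8 - 40 * t + 65 * t ^ 2 - 15 * t ^ 3) / (128 * (1 + t)) := by
    unfold L1
    field_simp
    ring
  have hpos : 0 ≤ t ^ 4 * (8 - 40 * t + 65 * t ^ 2 - 15 * t ^ 3) / (128 * (1 + t)) := by positivity
  linarith

/-- the surrogate as a function of four products -/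
noncomputable def G (x1 x2 x3 x4 : ℝ) : ℝ :=
  (3 / 4) * ((x1 + x2 + x3 + x4) / 4)
    - (1 / 8) * (x1 * x2 + x1 * x3 + x1 * x4 + x2 * x3 + x2 * x4 + x3 * x4)
      * L1 ((x1 + x2 + x3 + x4) / 4 - 1)

/-- the exact weighted second moment -/
theorem wt_core (n1 n2 n3 n4 : ℝ) (hS : 0 < n1 + n2 + n3 + n4) :
    4 * (n1 + n2 + n3 + n4) * I2 (n1 / (n1 + n2 + n3 + n4)) (n2 / (n1 + n2 + n3 + n4))
        (n3 / (n1 + n2 + n3 + n4)) (n4 / (n1 + n2 + n3 + n4))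
      = (3 / 4) * (4 * (n1 + n2 + n3 + n4))
        - 32 * (n1 * n2 + n1 * n3 + n1 * n4 + n2 * n3 + n2 * n4 + n3 * n4)
          / (4 * (n1 + n2 + n3 + n4)) := by
  unfold I2
  field_simp
  ring

/-- the pointwise upper bound for nonnegative products of bounded total mass -/
theorem le_G (n1 n2 n3 n4 : ℝ) (h1 : 0 ≤ n1) (h2 : 0 ≤ n2) (h3 : 0 ≤ n3) (h4 : 0 ≤ n4)
    (hS : 1 / 14 ≤ n1 + n2 + n3 + n4) (hS' : n1 + n2 + n3 + n4 ≤ 11 / 14) :
    4 * (n1 + n2 + n3 + n4) * I2 (n1 / (n1 + n2 + n3 + n4)) (n2 / (n1 + n2 + n3 + n4))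
        (n3 / (n1 + n2 + n3 + n4)) (n4 / (n1 + n2 + n3 + n4))
      ≤ G (16 * n1) (16 * n2) (16 * n3) (16 * n4) := by
  have hpos : 0 < n1 + n2 + n3 + n4 := by linarith
  rw [wt_core n1 n2 n3 n4 hpos]
  have e2 : (16 * n1 * (16 * n2) + 16 * n1 * (16 * n3) + 16 * n1 * (16 * n4)
        + 16 * n2 * (16 * n3) + 16 * n2 * (16 * n4) + 16 * n3 * (16 * n4))
      = 256 * (n1 * n2 + n1 * n3 + n1 * n4 + n2 * n3 + n2 * n4 + n3 * n4) := by ring
  have e3 : (16 * n1 + 16 * n2 + 16 * n3 + 16 * n4) / 4 = 4 * (n1 + n2 + n3 + n4) := by ring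
  unfold G
  rw [e2, e3]
  obtain ⟨E, hE⟩ : ∃ E, E = n1 * n2 + n1 * n3 + n1 * n4 + n2 * n3 + n2 * n4 + n3 * n4 := ⟨_, rfl⟩
  obtain ⟨D, hD⟩ : ∃ D, D = 4 * (n1 + n2 + n3 + n4) := ⟨_, rfl⟩
  have hE0 : 0 ≤ E := by rw [hE]; positivity
  rw [← hE, ← hD]
  have hD0 : 0 < D := by rw [hD]; linarith
  have hL := L1_le (D - 1) (by linarith) (by rw [hD]; linarith)
  have e : 1 + (D - 1) = D := by ring
  rw [e] at hL
  have hm := mul_le_mul_of_nonneg_left hL hE0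
  have e4 : 32 * E / D = 32 * (E * (1 / D)) := by ring
  have e5 : 1 / 8 * (256 * E) * L1 (D - 1) = 32 * (E * L1 (D - 1)) := by ring
  rw [e4, e5]
  linarith

/-- the surrogate dominates the weighted second moment at one arrangement -/
theorem wt_le_G {a b c d p q r s : ℝ} (h : Simp a b c d) (hp : 1 / 14 ≤ p) (hq : 1 / 14 ≤ q)
    (hr : 1 / 14 ≤ r) (hs : 1 / 14 ≤ s) (hsum : p + q + r + s = 1) :
    wt I2 a b c d p q r s
      ≤ G (4 * a * (4 * p)) (4 * b * (4 * q)) (4 * c * (4 * r)) (4 * d * (4 * s)) := by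
  have ha := h.ha
  have hb := h.hb
  have hc := h.hc
  have hd := h.hd
  have hs1 := h.hs
  have e1 : 4 * a * (4 * p) = 16 * (a * p) := by ring
  have e2 : 4 * b * (4 * q) = 16 * (b * q) := by ring
  have e3 : 4 * c * (4 * r) = 16 * (c * r) := by ring
  have e4 : 4 * d * (4 * s) = 16 * (d * s) := by ring
  rw [e1, e2, e3, e4]
  unfold wt
  have hp' : p ≤ 11 / 14 := by linarith
  have hq' : q ≤ 11 / 14 := by linarith
  have hr' : r ≤ 11 / 14 := by linarith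
  have hs' : s ≤ 11 / 14 := by linarith
  refine le_G _ _ _ _ (by positivity) (by positivity) (by positivity) (by positivity) ?_ ?_
  · nlinarith [mul_le_mul_of_nonneg_left hp ha, mul_le_mul_of_nonneg_left hq hb,
      mul_le_mul_of_nonneg_left hr hc, mul_le_mul_of_nonneg_left hs hd]
  · nlinarith [mul_le_mul_of_nonneg_left hp' ha, mul_le_mul_of_nonneg_left hq' hb,
      mul_le_mul_of_nonneg_left hr' hc, mul_le_mul_of_nonneg_left hs' hd]

end Vale.Agent.Lib.P154Q4.K1
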