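import Vale.Agent.Lib.P154Q4.K2Data
import Vale.Agent.Lib.P154Q4.CellsSplit

/-!
Reflective certificates of nonnegativity of the difference polynomial of the second kernel on pairs of cells.
-/

namespace Vale.Agent.Lib.P154Q4.K2

open Kron Cells K2

theorem leafP4 : pairOK TP (bisB 1 (bisA 2 S0)) (bisA 1 (bisA 2 T0)) 8 8 (nth [149, 1323, 10717, 85868, 772796, 6268218]) 10 = true := by decide +kernel

theorem leafP5 : pairOK TP (bisB 1 (bisA 2 S0)) (bisB 1 (bisA 2 T0)) 8 8 (nth [147, 1307, 10586, 84820, 763364, 6191714]) 10 = true := by decide +kernel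

theorem leafP6 : pairOK TP (bisA 0 (bisA 1 (bisA 2 S0))) (bisB 2 T0) 8 8 (nth [148, 1318, 10677, 66828, 601436, 4878299]) 10 = true := by decide +kernel

theorem leafP7 : pairOK TP (bisB 0 (bisA 1 (bisA 2 S0))) (bisB 2 T0) 8 8 (nth [146, 1301, 10539, 65965, 593668, 4815293]) 10 = true := by decide +kernel


end Vale.Agent.Lib.P154Q4.K2
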