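import Vale.Agent.Lib.P154Q4.K2Data
import Vale.Agent.Lib.P154Q4.CellsSplit

/-!
Reflective certificates of nonnegativity of the difference polynomial of the second kernel on pairs of cells.
-/

namespace Vale.Agent.Lib.P154Q4.K2

open Kron Cells K2

theorem leafP8 : pairOK TP (bisB 1 (bisA 2 S0)) (bisB 2 T0) 8 8 (nth [137, 1219, 9874, 61802, 556202, 4511400]) 10 = true := by decide +kernel

theorem leafP9 : pairOK TP (bisB 2 S0) (bisA 1 (bisA 2 T0)) 8 8 (nth [139, 1233, 9986, 80010, 720076, 5840602]) 10 = true := by decide +kernel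

theorem leafP10 : pairOK TP (bisB 2 S0) (bisB 1 (bisA 2 T0)) 8 8 (nth [137, 1217, 9856, 78970, 710716, 5764682]) 10 = true := by decide +kernel

theorem leafP11 : pairOK TP (bisB 2 S0) (bisB 2 T0) 8 8 (nth [127, 1129, 9144, 57232, 515074, 4177808]) 10 = true := by decide +kernel


end Vale.Agent.Lib.P154Q4.K2
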