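import Vale.Agent.Lib.P154Q4.K2Leaf0
import Vale.Agent.Lib.P154Q4.K2Leaf1
import Vale.Agent.Lib.P154Q4.K2Leaf2

/-!
Nonnegativity of the difference polynomial of the second kernel on the fundamental pair of cells.
-/

namespace Vale.Agent.Lib.P154Q4.K2

open Kron Cells

theorem onP : OnPair TP S0 T0 :=
  onPair_s 2 (onPair_t 2 (onPair_s 1 (onPair_t 1 (onPair_s 0 (pair_sound TP (bisA 0 (bisA 1 (bisA 2 S0))) (bisA 1 (bisA 2 T0)) 8 8 (nth [160, 1422, 11520, 92303, 830711, 6737974]) 10 leafP0) (pair_sound TP (bisB 0 (bisA 1 (bisA 2 S0))) (bisA 1 (bisA 2 T0)) 8 8 (nth [158, 1405, 11382, 91197, 820756, 6657230]) 10 leafP1)) (onPair_s 0 (pair_sound TP (bisA 0 (bisA 1 (bisA 2 S0))) (bisB 1 (bisA 2 T0)) 8 8 (nth [158, 1406, 11389, 91255, 821279, 6661470]) 10 leafP2) (pair_sound TP (bisB 0 (bisA 1 (bisA 2 S0))) (bisB 1 (bisA 2 T0)) 8 8 (nth [156, 1389, 11251, 90149, 811324, 6580726])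 10 leafP3))) (onPair_t 1 (pair_sound TP (bisB 1 (bisA 2 S0)) (bisA 1 (bisA 2 T0)) 8 8 (nth [149, 1323, 10717, 85868, 772796, 6268218]) 10 leafP4) (pair_sound TP (bisB 1 (bisA 2 S0)) (bisB 1 (bisA 2 T0)) 8 8 (nth [147, 1307, 10586, 84820, 763364, 6191714]) 10 leafP5))) (onPair_s 1 (onPair_s 0 (pair_sound TP (bisA 0 (bisA 1 (bisA 2 S0))) (bisB 2 T0) 8 8 (nth [148, 1318, 10677, 66828, 601436, 4878299]) 10 leafP6) (pair_sound TP (bisB 0 (bisA 1 (bisA 2 S0))) (bisB 2 T0) 8 8 (nth [146, 1301, 10539, 65965, 593668, 4815293]) 10 leafP7)) (pair_sound TP (bisB 1 (bisA 2 S0)) (bisB 2 T0) 8 8 (nth [137, 1219, 9874, 61802, 556202, 4511400]) 10 leafP8))) (onPair_t 2 (onPair_t 1 (pair_sound TP (bisB 2 S0) (bisA 1 (bisA 2 T0)) 8 8 (nth [139, 1233, 9986, 80010, 720076, 5840602]) 10 leafP9) (pair_sound TP (bisB 2 S0) (bisB 1 (bisA 2 T0)) 8 8 (nth [137, 1217, 9856, 78970, 710716, 5764682])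 10 leafP10)) (pair_sound TP (bisB 2 S0) (bisB 2 T0) 8 8 (nth [127, 1129, 9144, 57232, 515074, 4177808]) 10 leafP11))

end Vale.Agent.Lib.P154Q4.K2
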