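import Vale.Agent.Lib.P154Q4.K2CertId
import Vale.Agent.Lib.P154Q4.K2CertA
import Vale.Agent.Lib.P154Q4.K2CertP

/-!
The second kernel of the four-state channel: lower bound for the weighted class function,
averaged over the arrangements of the message.
-/

namespace Vale.Agent.Lib.P154Q4.K2

open Kron Ex Cells

/-- Fourier coordinates of a quadruple -/
noncomputable def f1 (a b c d : ℝ) : ℝ := (a + b - c - d) / 2

/-- Fourier coordinates of a quadruple -/
noncomputable def f2 (a b c d : ℝ) : ℝ := (a - b + c - d) / 2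

/-- Fourier coordinates of a quadruple -/
noncomputable def f3 (a b c d : ℝ) : ℝ := (a - b - c + d) / 2

/-- a property invariant under adjacent transpositions and true on sorted quadruples holds -/
theorem wlog4 (Q : ℝ → ℝ → ℝ → ℝ → Prop) (h12 : ∀ a b c d, Q b a c d → Q a b c d)
    (h23 : ∀ a b c d, Q a c b d → Q a b c d) (h34 : ∀ a b c d, Q a b d c → Q a b c d)
    (hs : ∀ a b c d, b ≤ a → c ≤ b → d ≤ c → Q a b c d) : ∀ a b c d, Q a b c d := by
  have key1 : ∀ a b c d, c ≤ b → d ≤ c → Q a b c d := by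
    intro a b c d hbc hcd
    rcases le_total b a with h | h
    · exact hs a b c d h hbc hcd
    · apply h12
      rcases le_total c a with h' | h'
      · exact hs b a c d h h' hcd
      · apply h23
        rcases le_total d a with h'' | h''
        · exact hs b c a d hbc h' h''
        · apply h34
          exact hs b c d a hbc hcd h''
  have key2 : ∀ a b c d, d ≤ c → Q a b c d := by
    intro a b c d hcd
    rcases le_total c b with h | h
    · exact key1 a b c d h hcd
    · apply h23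
      rcases le_total d b with h' | h'
      · exact key1 a c b d h h'
      · apply h34
        exact key1 a c d b hcd h'
  intro a b c d
  rcases le_total d c with h | h
  · exact key2 a b c d h
  · apply h34
    exact key2 a b d c h

theorem Pval_congr (T : Terms) {x y z u v w x' y' z' u' v' w' : ℝ}
    (h1 : sig1 x y z = sig1 u v w) (h2 : pii x y z = pii u v w) (h3 : sig2 x y z = sig2 u v w)
    (h1' : sig1 x' y' z' = sig1 u' v' w') (h2' : pii x' y' z' = pii u' v' w')
    (h3' : sig2 x' y' z' = sig2 u' v' w') :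
    Pval T x y z x' y' z' = Pval T u v w u' v' w' := by
  unfold Pval
  rw [h1, h2, h3, h1', h2', h3']

/-- the three invariants at the Fourier coordinates are symmetric -/
theorem inv12 (a b c d : ℝ) :
    sig1 (f1 b a c d) (f2 b a c d) (f3 b a c d) = sig1 (f1 a b c d) (f2 a b c d) (f3 a b c d) ∧
    pii (f1 b a c d) (f2 b a c d) (f3 b a c d) = pii (f1 a b c d) (f2 a b c d) (f3 a b c d) ∧
    sig2 (f1 b a c d) (f2 b a c d) (f3 b a c d) = sig2 (f1 a b c d) (f2 a b c d) (f3 a b c d) := by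
  unfold sig1 pii sig2 f1 f2 f3
  refine ⟨by ring, by ring, by ring⟩

/-- the three invariants at the Fourier coordinates are symmetric -/
theorem inv23 (a b c d : ℝ) :
    sig1 (f1 a c b d) (f2 a c b d) (f3 a c b d) = sig1 (f1 a b c d) (f2 a b c d) (f3 a b c d) ∧
    pii (f1 a c b d) (f2 a c b d) (f3 a c b d) = pii (f1 a b c d) (f2 a b c d) (f3 a b c d) ∧
    sig2 (f1 a c b d) (f2 a c b d) (f3 a c b d) = sig2 (f1 a b c d) (f2 a b c d) (f3 a b c d) := by
  unfold sig1 pii sig2 f1 f2 f3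
  refine ⟨by ring, by ring, by ring⟩

/-- the three invariants at the Fourier coordinates are symmetric -/
theorem inv34 (a b c d : ℝ) :
    sig1 (f1 a b d c) (f2 a b d c) (f3 a b d c) = sig1 (f1 a b c d) (f2 a b c d) (f3 a b c d) ∧
    pii (f1 a b d c) (f2 a b d c) (f3 a b d c) = pii (f1 a b c d) (f2 a b c d) (f3 a b c d) ∧
    sig2 (f1 a b d c) (f2 a b d c) (f3 a b d c) = sig2 (f1 a b c d) (f2 a b c d) (f3 a b c d) := by
  unfold sig1 pii sig2 f1 f2 f3
  refine ⟨by ring, by ring, by ring⟩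

/-- the domain of the messages -/
def MsgD (p q r s : ℝ) : Prop :=
  1 / 14 ≤ p ∧ 1 / 14 ≤ q ∧ 1 / 14 ≤ r ∧ 1 / 14 ≤ s ∧ p + q + r + s = 1

theorem MsgD.simp {p q r s : ℝ} (h : MsgD p q r s) : Simp p q r s := by
  obtain ⟨h1, h2, h3, h4, h5⟩ := h
  exact ⟨by linarith, by linarith, by linarith, by linarith, h5⟩

theorem inCell_S0 {a b c d : ℝ} (hab : b ≤ a) (hbc : c ≤ b) (hcd : d ≤ c) (hd : 0 ≤ d)
    (hs : a + b + c + d = 1) : InCell S0 (f1 a b c d) (f2 a b c d) (f3 a b c d) := by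
  refine ⟨a - b, 2 * (b - c), 3 * (c - d), 4 * d, by linarith, by linarith, by linarith, by linarith,
    by linarith, ?_, ?_, ?_⟩ <;> simp [S0, f1, f2, f3] <;> ring

theorem inCell_T0 {a b c d : ℝ} (hab : b ≤ a) (hbc : c ≤ b) (hcd : d ≤ c) (hd : 1 / 14 ≤ d)
    (hs : a + b + c + d = 1) : InCell T0 (f1 a b c d) (f2 a b c d) (f3 a b c d) := by
  refine ⟨(7 / 5) * (a - b), (14 / 5) * (b - c), (21 / 5) * (c - d), (28 / 5) * (d - 1 / 14),
    by linarith, by linarith, by linarith, by linarith, by linarith, ?_, ?_, ?_⟩ <;>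
    simp [T0, f1, f2, f3] <;> ring_nf

theorem inCell_Z0 : InCell Z0 0 0 0 := by
  refine ⟨1, 0, 0, 0, by norm_num, by norm_num, by norm_num, by norm_num, by norm_num, ?_, ?_, ?_⟩ <;>
    simp [Z0]

/-- first multiplier -/
noncomputable def al (p q r s : ℝ) : ℝ :=
  (1 / 1000) * Pval Tpsi1 (f1 p q r s) (f2 p q r s) (f3 p q r s) 0 0 0

/-- second multiplier -/
noncomputable def be (a b c d : ℝ) : ℝ :=
  (1 / 1000) * Pval Tpsi2 (f1 a b c d) (f2 a b c d) (f3 a b c d) 0 0 0

theorem al_nonneg : ∀ p q r s, MsgD p q r s → 0 ≤ al p q r s := by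
  refine wlog4 _ ?_ ?_ ?_ ?_
  · intro a b c d h h'
    have h2 := h ⟨h'.2.1, h'.1, h'.2.2.1, h'.2.2.2.1, by linarith [h'.2.2.2.2]⟩
    obtain ⟨i1, i2, i3⟩ := inv12 a b c d
    unfold al at h2 ⊢
    rw [Pval_congr Tpsi1 i1.symm i2.symm i3.symm rfl rfl rfl]
    exact h2
  · intro a b c d h h'
    have h2 := h ⟨h'.1, h'.2.2.1, h'.2.1, h'.2.2.2.1, by linarith [h'.2.2.2.2]⟩
    obtain ⟨i1, i2, i3⟩ := inv23 a b c d
    unfold al at h2 ⊢
    rw [Pval_congr Tpsi1 i1.symm i2.symm i3.symm rfl rfl rfl]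
    exact h2
  · intro a b c d h h'
    have h2 := h ⟨h'.1, h'.2.1, h'.2.2.2.1, h'.2.2.1, by linarith [h'.2.2.2.2]⟩
    obtain ⟨i1, i2, i3⟩ := inv34 a b c d
    unfold al at h2 ⊢
    rw [Pval_congr Tpsi1 i1.symm i2.symm i3.symm rfl rfl rfl]
    exact h2
  · intro a b c d hab hbc hcd h'
    have := treeOK_sound Tpsi1 8 0 10 trA T0 Z0 okA _ _ _ _ _ _
      (inCell_T0 hab hbc hcd h'.2.2.2.1 h'.2.2.2.2) inCell_Z0
    unfold al
    positivity

theorem be_nonneg : ∀ a b c d, Simp a b c d → 0 ≤ be a b c d := by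
  refine wlog4 _ ?_ ?_ ?_ ?_
  · intro a b c d h h'
    have h2 := h h'.swap
    obtain ⟨i1, i2, i3⟩ := inv12 a b c d
    unfold be at h2 ⊢
    rw [Pval_congr Tpsi2 i1.symm i2.symm i3.symm rfl rfl rfl]
    exact h2
  · intro a b c d h h'
    have h2 := h h'.swap23
    obtain ⟨i1, i2, i3⟩ := inv23 a b c d
    unfold be at h2 ⊢
    rw [Pval_congr Tpsi2 i1.symm i2.symm i3.symm rfl rfl rfl]
    exact h2
  · intro a b c d h h'
    have h2 := h h'.swap34
    obtain ⟨i1, i2, i3⟩ := inv34 a b c d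
    unfold be at h2 ⊢
    rw [Pval_congr Tpsi2 i1.symm i2.symm i3.symm rfl rfl rfl]
    exact h2
  · intro a b c d hab hbc hcd h'
    have := treeOK_sound Tpsi2 8 0 10 trB S0 Z0 okB _ _ _ _ _ _
      (inCell_S0 hab hbc hcd h'.hd h'.hs) inCell_Z0
    unfold be
    positivity

/-- the difference polynomial is nonnegative on the product of the simplex and the messages -/
theorem P_nonneg (a b c d p q r s : ℝ) (h : Simp a b c d) (h' : MsgD p q r s) :
    0 ≤ Pval TP (f1 a b c d) (f2 a b c d) (f3 a b c d) (f1 p q r s) (f2 p q r s) (f3 p q r s) := by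
  revert p q r s
  have hmain : ∀ a b c d, Simp a b c d → ∀ p q r s, MsgD p q r s →
      0 ≤ Pval TP (f1 a b c d) (f2 a b c d) (f3 a b c d) (f1 p q r s) (f2 p q r s) (f3 p q r s) := by
    refine wlog4 _ ?_ ?_ ?_ ?_
    · intro a b c d h h' p q r s hm
      obtain ⟨i1, i2, i3⟩ := inv12 a b c d
      rw [Pval_congr TP i1.symm i2.symm i3.symm rfl rfl rfl]
      exact h h'.swap p q r s hm
    · intro a b c d h h' p q r s hm
      obtain ⟨i1, i2, i3⟩ := inv23 a b c d
      rw [Pval_congr TP i1.symm i2.symm i3.symm rfl rfl rfl]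
      exact h h'.swap23 p q r s hm
    · intro a b c d h h' p q r s hm
      obtain ⟨i1, i2, i3⟩ := inv34 a b c d
      rw [Pval_congr TP i1.symm i2.symm i3.symm rfl rfl rfl]
      exact h h'.swap34 p q r s hm
    · intro a b c d hab hbc hcd h'
      refine wlog4 _ ?_ ?_ ?_ ?_
      · intro p q r s h2 hm
        obtain ⟨i1, i2, i3⟩ := inv12 p q r s
        rw [Pval_congr TP rfl rfl rfl i1.symm i2.symm i3.symm]
        exact h2 ⟨hm.2.1, hm.1, hm.2.2.1, hm.2.2.2.1, by linarith [hm.2.2.2.2]⟩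
      · intro p q r s h2 hm
        obtain ⟨i1, i2, i3⟩ := inv23 p q r s
        rw [Pval_congr TP rfl rfl rfl i1.symm i2.symm i3.symm]
        exact h2 ⟨hm.1, hm.2.2.1, hm.2.1, hm.2.2.2.1, by linarith [hm.2.2.2.2]⟩
      · intro p q r s h2 hm
        obtain ⟨i1, i2, i3⟩ := inv34 p q r s
        rw [Pval_congr TP rfl rfl rfl i1.symm i2.symm i3.symm]
        exact h2 ⟨hm.1, hm.2.1, hm.2.2.2.1, hm.2.2.1, by linarith [hm.2.2.2.2]⟩
      · intro p q r s hpq hqr hrs hm
        exact onP _ _ _ _ _ _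
          (inCell_S0 hab hbc hcd h'.hd h'.hs) (inCell_T0 hpq hqr hrs hm.2.2.2.1 hm.2.2.2.2)
  intro p q r s h'
  exact hmain a b c d h p q r s h'

theorem I2_eq {a b c d : ℝ} (hs : a + b + c + d = 1) :
    I2 a b c d = sig1 (f1 a b c d) (f2 a b c d) (f3 a b c d) := by
  have hd : d = 1 - a - b - c := by linarith
  subst hd
  unfold I2 sig1 f1 f2 f3
  ring

theorem I3_eq {a b c d : ℝ} (hs : a + b + c + d = 1) :
    I3 a b c d = 3 * pii (f1 a b c d) (f2 a b c d) (f3 a b c d) := by
  have hd : d = 1 - a - b - c := by linarith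
  subst hd
  unfold I3 pii f1 f2 f3
  ring

/-- the real identity obtained from the certificate -/
theorem id_real {a b c d p q r s : ℝ} (h1 : a + b + c + d = 1) (h2 : p + q + r + s = 1) :
    24 * (6553600000 * avg24 (fun p q r s => F (4 * a * (4 * p)) (4 * b * (4 * q)) (4 * c * (4 * r))
        (4 * d * (4 * s))) p q r s)
      = 262144 * Pval TP (f1 a b c d) (f2 a b c d) (f3 a b c d) (f1 p q r s) (f2 p q r s) (f3 p q r s)
        + 7864320 * (Pval Tpsi1 (f1 p q r s) (f2 p q r s) (f3 p q r s) 0 0 0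
            * (60 * pii (f1 a b c d) (f2 a b c d) (f3 a b c d)
              - 11 * (sig1 (f1 a b c d) (f2 a b c d) (f3 a b c d) * sig1 (f1 a b c d) (f2 a b c d) (f3 a b c d))))
        + 1572864 * (Pval Tpsi2 (f1 a b c d) (f2 a b c d) (f3 a b c d) 0 0 0
            * (300 * pii (f1 p q r s) (f2 p q r s) (f3 p q r s)
              - 77 * (sig1 (f1 p q r s) (f2 p q r s) (f3 p q r s) * sig1 (f1 p q r s) (f2 p q r s) (f3 p q r s)))) := by
  let Y : ℕ → ℝ := fun i =>
    match i with
    | 0 => f1 p q r s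
    | 1 => f2 p q r s
    | 2 => f3 p q r s
    | 3 => f1 a b c d
    | 4 => f2 a b c d
    | _ => f3 a b c d
  have hz := certZZ_sound 6 _ idEx okId Y
  have v0 : Y 0 = f1 p q r s := rfl
  have v1 : Y 1 = f2 p q r s := rfl
  have v2 : Y 2 = f3 p q r s := rfl
  have v3 : Y 3 = f1 a b c d := rfl
  have v4 : Y 4 = f2 a b c d := rfl
  have v5 : Y 5 = f3 a b c d := rfl
  have eA1 : A1.eval Y = 4 * a := by
    simp only [A1, Ex.eval, v3, v4, v5, f1, f2, f3]; push_cast; linarith
  have eA2 : A2.eval Y = 4 * b := by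
    simp only [A2, Ex.eval, v3, v4, v5, f1, f2, f3]; push_cast; linarith
  have eA3 : A3.eval Y = 4 * c := by
    simp only [A3, Ex.eval, v3, v4, v5, f1, f2, f3]; push_cast; linarith
  have eA4 : A4.eval Y = 4 * d := by
    simp only [A4, Ex.eval, v3, v4, v5, f1, f2, f3]; push_cast; linarith
  have eP1 : P1.eval Y = 4 * p := by
    simp only [P1, Ex.eval, v0, v1, v2, f1, f2, f3]; push_cast; linarith
  have eP2 : P2.eval Y = 4 * q := by
    simp only [P2, Ex.eval, v0, v1, v2, f1, f2, f3]; push_cast; linarith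
  have eP3 : P3.eval Y = 4 * r := by
    simp only [P3, Ex.eval, v0, v1, v2, f1, f2, f3]; push_cast; linarith
  have eP4 : P4.eval Y = 4 * s := by
    simp only [P4, Ex.eval, v0, v1, v2, f1, f2, f3]; push_cast; linarith
  have hLg : ∀ x y z w : Ex, (Lg x y z w).eval Y
      = (fun x y z w => 6553600000 * F (4 * a * x) (4 * b * y) (4 * c * z) (4 * d * w))
          (x.eval Y) (y.eval Y) (z.eval Y) (w.eval Y) := by
    intro x y z w
    simp only [Lg, eval_LEx, Ex.eval, eA1, eA2, eA3, eA4]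
  have hs := eval_sum24 Y Lg (fun x y z w => 6553600000 * F (4 * a * x) (4 * b * y) (4 * c * z) (4 * d * w)) hLg P1 P2 P3 P4
  have hFs : ∀ m, (Fs m).eval Y = monoVal (sig1 (f1 a b c d) (f2 a b c d) (f3 a b c d))
      (pii (f1 a b c d) (f2 a b c d) (f3 a b c d)) (sig2 (f1 a b c d) (f2 a b c d) (f3 a b c d)) m := by
    intro m
    simp only [Fs, eval_monoEx, eval_sig1Ex, eval_piiEx, eval_sig2Ex, Ex.eval, v3, v4, v5]
  have hFt : ∀ m, (Ft m).eval Y = monoVal (sig1 (f1 p q r s) (f2 p q r s) (f3 p q r s))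
      (pii (f1 p q r s) (f2 p q r s) (f3 p q r s)) (sig2 (f1 p q r s) (f2 p q r s) (f3 p q r s)) m := by
    intro m
    simp only [Ft, eval_monoEx, eval_sig1Ex, eval_piiEx, eval_sig2Ex, Ex.eval, v0, v1, v2]
  have hF0 : ∀ m, (F0 m).eval Y = monoVal (sig1 0 0 0) (pii 0 0 0) (sig2 0 0 0) m := by
    intro m
    simp only [F0, eval_monoEx]
    simp [Ex.eval, sig1, pii, sig2]
  have ePP := eval_outerEx Y Fs Ft _ _ hFs hFt TP
  have ePA := eval_outerEx Y Ft F0 _ _ hFt hF0 Tpsi1
  have ePB := eval_outerEx Y Fs F0 _ _ hFs hF0 Tpsi2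
  have ef : f20.eval Y = 60 * pii (f1 a b c d) (f2 a b c d) (f3 a b c d)
      + -11 * (sig1 (f1 a b c d) (f2 a b c d) (f3 a b c d) * sig1 (f1 a b c d) (f2 a b c d) (f3 a b c d)) := by
    simp only [f20, Ex.eval, eval_sig1Ex, eval_piiEx, v3, v4, v5]
    push_cast
    ring
  have eg : g100.eval Y = 300 * pii (f1 p q r s) (f2 p q r s) (f3 p q r s)
      + -77 * (sig1 (f1 p q r s) (f2 p q r s) (f3 p q r s) * sig1 (f1 p q r s) (f2 p q r s) (f3 p q r s)) := by
    simp only [g100, Ex.eval, eval_sig1Ex, eval_piiEx, v0, v1, v2]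
    push_cast
    ring
  have ehz := hz
  unfold idEx at ehz
  simp only [Ex.eval] at ehz
  rw [hs, ePP, ePA, ePB, ef, eg, eP1, eP2, eP3, eP4] at ehz
  push_cast at ehz
  have hav : avg24 (fun x y z w => 6553600000 * F (4 * a * x) (4 * b * y) (4 * c * z) (4 * d * w))
        (4 * p) (4 * q) (4 * r) (4 * s)
      = 6553600000 * avg24 (fun p q r s => F (4 * a * (4 * p)) (4 * b * (4 * q)) (4 * c * (4 * r))
        (4 * d * (4 * s))) p q r s := by
    simp only [avg24]
    ring
  rw [hav] at ehz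
  unfold Pval
  linarith

/-- the second kernel on the simplex and the messages -/
theorem k2_main {a b c d p q r s : ℝ} (h : Simp a b c d) (hm : MsgD p q r s) :
    al p q r s * fK a b c d + be a b c d * fM p q r s
      ≤ avg24 (fun p q r s => wt fK a b c d p q r s) p q r s := by
  obtain ⟨hp, hq, hr, hs, hsum⟩ := hm
  have hid := id_real h.hs hsum
  have hP := P_nonneg a b c d p q r s h ⟨hp, hq, hr, hs, hsum⟩
  have hle : avg24 (fun p q r s => F (4 * a * (4 * p)) (4 * b * (4 * q)) (4 * c * (4 * r))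
        (4 * d * (4 * s))) p q r s
      ≤ avg24 (fun p q r s => wt fK a b c d p q r s) p q r s := by
    have i0 := F_le_wt h hp hq hr hs (by linarith)
    have i1 := F_le_wt h hp hq hs hr (by linarith)
    have i2 := F_le_wt h hp hr hq hs (by linarith)
    have i3 := F_le_wt h hp hr hs hq (by linarith)
    have i4 := F_le_wt h hp hs hq hr (by linarith)
    have i5 := F_le_wt h hp hs hr hq (by linarith)
    have i6 := F_le_wt h hq hp hr hs (by linarith)
    have i7 := F_le_wt h hq hp hs hr (by linarith)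
    have i8 := F_le_wt h hq hr hp hs (by linarith)
    have i9 := F_le_wt h hq hr hs hp (by linarith)
    have i10 := F_le_wt h hq hs hp hr (by linarith)
    have i11 := F_le_wt h hq hs hr hp (by linarith)
    have i12 := F_le_wt h hr hp hq hs (by linarith)
    have i13 := F_le_wt h hr hp hs hq (by linarith)
    have i14 := F_le_wt h hr hq hp hs (by linarith)
    have i15 := F_le_wt h hr hq hs hp (by linarith)
    have i16 := F_le_wt h hr hs hp hq (by linarith)
    have i17 := F_le_wt h hr hs hq hp (by linarith)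
    have i18 := F_le_wt h hs hp hq hr (by linarith)
    have i19 := F_le_wt h hs hp hr hq (by linarith)
    have i20 := F_le_wt h hs hq hp hr (by linarith)
    have i21 := F_le_wt h hs hq hr hp (by linarith)
    have i22 := F_le_wt h hs hr hp hq (by linarith)
    have i23 := F_le_wt h hs hr hq hp (by linarith)
    unfold avg24
    linarith
  have e1 : fK a b c d = (60 * pii (f1 a b c d) (f2 a b c d) (f3 a b c d)
      - 11 * (sig1 (f1 a b c d) (f2 a b c d) (f3 a b c d)
        * sig1 (f1 a b c d) (f2 a b c d) (f3 a b c d))) / 20 := by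
    unfold fK
    rw [I3_eq h.hs, I2_eq h.hs]
    ring
  have e2 : fM p q r s = (300 * pii (f1 p q r s) (f2 p q r s) (f3 p q r s)
      - 77 * (sig1 (f1 p q r s) (f2 p q r s) (f3 p q r s)
        * sig1 (f1 p q r s) (f2 p q r s) (f3 p q r s))) / 100 := by
    unfold fM
    rw [I3_eq hsum, I2_eq hsum]
    ring
  rw [e1, e2]
  unfold al be
  refine le_trans ?_ hle
  nlinarith [hid, hP]

theorem bd_fK : Bd fK := by
  unfold fK
  exact bd_I3.sub (Bd.smul _ (bd_I2.pow 2))

theorem bd_fM : Bd fM := by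
  unfold fM
  exact bd_I3.sub (Bd.smul _ (bd_I2.pow 2))

theorem bd_f1 : Bd f1 := by
  have : f1 = fun a b c d => (1 / 2 : ℝ) * (a + b - c - d) := by
    funext a b c d
    unfold f1
    ring
  rw [this]
  exact Bd.smul _ (((Bd.fst.add Bd.snd).sub Bd.thd).sub Bd.fth)

theorem bd_f2 : Bd f2 := by
  have : f2 = fun a b c d => (1 / 2 : ℝ) * (a - b + c - d) := by
    funext a b c d
    unfold f2
    ring
  rw [this]
  exact Bd.smul _ (((Bd.fst.sub Bd.snd).add Bd.thd).sub Bd.fth)

theorem bd_f3 : Bd f3 := by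
  have : f3 = fun a b c d => (1 / 2 : ℝ) * (a - b - c + d) := by
    funext a b c d
    unfold f3
    ring
  rw [this]
  exact Bd.smul _ (((Bd.fst.sub Bd.snd).sub Bd.thd).add Bd.fth)

theorem bd_sig1 : Bd fun a b c d => sig1 (f1 a b c d) (f2 a b c d) (f3 a b c d) := by
  unfold sig1
  exact ((bd_f1.pow 2).add (bd_f2.pow 2)).add (bd_f3.pow 2)

theorem bd_pii : Bd fun a b c d => pii (f1 a b c d) (f2 a b c d) (f3 a b c d) := by
  unfold pii
  exact (bd_f1.mul bd_f2).mul bd_f3

theorem bd_sig2 : Bd fun a b c d => sig2 (f1 a b c d) (f2 a b c d) (f3 a b c d) := by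
  unfold sig2
  exact (((bd_f1.pow 2).mul (bd_f2.pow 2)).add ((bd_f1.pow 2).mul (bd_f3.pow 2))).add
    ((bd_f2.pow 2).mul (bd_f3.pow 2))

theorem bd_monoVal (m : Mono) :
    Bd fun a b c d => monoVal (sig1 (f1 a b c d) (f2 a b c d) (f3 a b c d))
      (pii (f1 a b c d) (f2 a b c d) (f3 a b c d)) (sig2 (f1 a b c d) (f2 a b c d) (f3 a b c d)) m := by
  unfold monoVal
  exact ((bd_sig1.pow _).mul (bd_pii.pow _)).mul (bd_sig2.pow _)

theorem bd_innerVal (g : Mono → ℝ) (l : List (Mono × ℤ)) :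
    Bd fun _ _ _ _ => innerVal g l := Bd.const _

theorem bd_Pval0 (T : Terms) :
    Bd fun a b c d => Pval T (f1 a b c d) (f2 a b c d) (f3 a b c d) 0 0 0 := by
  unfold Pval
  induction T with
  | nil => simpa [outerVal] using Bd.const 0
  | cons t l ih =>
    simp only [outerVal]
    exact ((bd_monoVal t.1).mul (bd_innerVal _ _)).add ih

theorem bd_al : Bd al := by
  unfold al
  exact Bd.smul _ (bd_Pval0 Tpsi1)

theorem bd_be : Bd be := by
  unfold be
  exact Bd.smul _ (bd_Pval0 Tpsi2)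

end Vale.Agent.Lib.P154Q4.K2
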