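import Vale.Agent.Lib.P154Q4.K2Id

/-!
Reflective certificate of the identity of the second kernel.
-/

namespace Vale.Agent.Lib.P154Q4.K2

open Kron Cells

/-- the certificate of the identity -/
theorem okId : certZZ 6 (nth [84, 741, 5997, 48045, 432391, 3507159]) idEx = true := by
  decide +kernel

end Vale.Agent.Lib.P154Q4.K2
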