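import Vale.Agent.Lib.P154Q4.K2Data
import Vale.Agent.Lib.P154Q4.CellsSplit

/-!
Reflective certificates of nonnegativity of the difference polynomial of the second kernel on pairs of cells.
-/

namespace Vale.Agent.Lib.P154Q4.K2

open Kron Cells K2

theorem leafP0 : pairOK TP (bisA 0 (bisA 1 (bisA 2 S0))) (bisA 1 (bisA 2 T0)) 8 8 (nth [160, 1422, 11520, 92303, 830711, 6737974]) 10 = true := by decide +kernel

theorem leafP1 : pairOK TP (bisB 0 (bisA 1 (bisA 2 S0))) (bisA 1 (bisA 2 T0)) 8 8 (nth [158, 1405, 11382, 91197, 820756, 6657230]) 10 = true := by decide +kernel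

theorem leafP2 : pairOK TP (bisA 0 (bisA 1 (bisA 2 S0))) (bisB 1 (bisA 2 T0)) 8 8 (nth [158, 1406, 11389, 91255, 821279, 6661470]) 10 = true := by decide +kernel

theorem leafP3 : pairOK TP (bisB 0 (bisA 1 (bisA 2 S0))) (bisB 1 (bisA 2 T0)) 8 8 (nth [156, 1389, 11251, 90149, 811324, 6580726]) 10 = true := by decide +kernel


end Vale.Agent.Lib.P154Q4.K2
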