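import Vale.Agent.Lib.P154Q4.Func

/-!
The recursion for the second moment and the class, for the four-state Potts channel, given the two
pointwise kernel inequalities as data.
-/

namespace Vale.Agent.Lib.P154Q4

open Filter Topology

/-- the second centred moment -/
noncomputable def I2 (a b c d : ℝ) : ℝ :=
  (a - 1 / 4) ^ 2 + (b - 1 / 4) ^ 2 + (c - 1 / 4) ^ 2 + (d - 1 / 4) ^ 2

/-- the third centred moment -/
noncomputable def I3 (a b c d : ℝ) : ℝ :=
  (a - 1 / 4) ^ 3 + (b - 1 / 4) ^ 3 + (c - 1 / 4) ^ 3 + (d - 1 / 4) ^ 3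

theorem I2_nonneg (a b c d : ℝ) : 0 ≤ I2 a b c d := by
  unfold I2; positivity

theorem bd_I2 : Bd I2 := by
  have h : ∀ f : Fn4, Bd f → Bd (fun a b c d => (f a b c d - 1 / 4) ^ 2) :=
    fun f hf => (hf.sub (Bd.const _)).pow 2
  exact (((h _ Bd.fst).add (h _ Bd.snd)).add (h _ Bd.thd)).add (h _ Bd.fth)

theorem bd_I3 : Bd I3 := by
  have h : ∀ f : Fn4, Bd f → Bd (fun a b c d => (f a b c d - 1 / 4) ^ 3) :=
    fun f hf => (hf.sub (Bd.const _)).pow 3
  exact (((h _ Bd.fst).add (h _ Bd.snd)).add (h _ Bd.thd)).add (h _ Bd.fth)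

theorem I2_le {a b c d : ℝ} (h : Simp a b c d) : I2 a b c d ≤ 3 / 4 := by
  obtain ⟨ha, hb, hc, hd, hs⟩ := h
  have hd' : d = 1 - a - b - c := by linarith
  have e1 : 3 / 4 - I2 a b c d = 2 * (a * b + a * c + a * d + b * c + b * d + c * d) := by
    subst hd'; unfold I2; ring
  have : 0 ≤ 2 * (a * b + a * c + a * d + b * c + b * d + c * d) := by positivity
  linarith

theorem chanPt_sub (lam x : ℝ) : chanPt lam x - 1 / 4 = lam * (x - 1 / 4) := by
  unfold chanPt; ring

theorem I2_chan (lam a b c d : ℝ) :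
    I2 (chanPt lam a) (chanPt lam b) (chanPt lam c) (chanPt lam d) = lam ^ 2 * I2 a b c d := by
  unfold I2
  rw [chanPt_sub, chanPt_sub, chanPt_sub, chanPt_sub]
  ring

theorem I3_chan (lam a b c d : ℝ) :
    I3 (chanPt lam a) (chanPt lam b) (chanPt lam c) (chanPt lam d) = lam ^ 3 * I3 a b c d := by
  unfold I3
  rw [chanPt_sub, chanPt_sub, chanPt_sub, chanPt_sub]
  ring

/-- The data of the proof: the class functions `fK`, `fM`, the multipliers and the two pointwise
kernel inequalities on `Simp x Msg`. -/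
structure Kern (fK fM A B al be : Fn4) (Msg : ℝ → ℝ → ℝ → ℝ → Prop) (g : ℝ) : Prop where
  msg_simp : ∀ p q r s, Msg p q r s → Simp p q r s
  bd_fK : Bd fK
  bd_fM : Bd fM
  bd_A : Bd A
  bd_B : Bd B
  bd_al : Bd al
  bd_be : Bd be
  A_nn : ∀ p q r s, Msg p q r s → 0 ≤ A p q r s
  B_nn : ∀ a b c d, Simp a b c d → 0 ≤ B a b c d
  al_nn : ∀ p q r s, Msg p q r s → 0 ≤ al p q r s
  be_nn : ∀ a b c d, Simp a b c d → 0 ≤ be a b c d
  g_nn : 0 ≤ g
  g_le : g ≤ 1 / 4
  k1 : ∀ a b c d p q r s, Simp a b c d → Msg p q r s →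
    avg24 (fun p q r s => wt I2 a b c d p q r s) p q r s
      ≤ I2 a b c d + I2 p q r s - g * I2 a b c d * I2 p q r s * (I2 a b c d + I2 p q r s)
        - A p q r s * fK a b c d - B a b c d * fM p q r s
  k2 : ∀ a b c d p q r s, Simp a b c d → Msg p q r s →
    al p q r s * fK a b c d + be a b c d * fM p q r s
      ≤ avg24 (fun p q r s => wt fK a b c d p q r s) p q r s
  fK_centre : 0 ≤ fK (1 / 4) (1 / 4) (1 / 4) (1 / 4)
  fK_vertex : 0 ≤ vertexEx fK

theorem BExp.sq_mean {E : Ex4} {K : ℝ → ℝ → ℝ → ℝ → Prop} (hE : BExp E K) {f : Fn4} (hf : Bd f) :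
    (E f) ^ 2 ≤ E (fun a b c d => (f a b c d) ^ 2) := by
  have h1 := hE.nonneg (fun a b c d => 0 + 1 * (f a b c d - E f) ^ 2) (fun a b c d _ => by positivity)
  have e : (fun a b c d => 0 + 1 * (f a b c d - E f) ^ 2)
      = fun a b c d => (E f) ^ 2 + (-(2 * E f)) * f a b c d + 1 * (f a b c d) ^ 2 := by
    funext a b c d
    ring
  rw [e, hE.lin3 _ _ _ hf (hf.pow 2)] at h1
  nlinarith

section kern

variable {fK fM A B al be : Fn4} {Msg : ℝ → ℝ → ℝ → ℝ → Prop} {g : ℝ}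

/-- integrated form of the first kernel inequality -/
theorem m2_bprod_le (hk : Kern fK fM A B al be Msg g) {E E' : Ex4} (hE : BExp E Simp)
    (hE' : BExp E' Msg) (h1 : 0 ≤ E fK) (h2 : 0 ≤ E' fM) :
    bprod E E' I2 ≤ E I2 + E' I2 - g * E I2 * E' I2 * (E I2 + E' I2) := by
  have bI22 : Bd (fun a b c d => (I2 a b c d) ^ 2) := bd_I2.pow 2
  have hinner : ∀ a b c d, Simp a b c d →
      E' (fun p q r s => wt I2 a b c d p q r s)
        ≤ I2 a b c d + (1 - g * (I2 a b c d) ^ 2) * E' I2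
          + (-(g * I2 a b c d)) * E' (fun p q r s => (I2 p q r s) ^ 2)
          + (-(fK a b c d)) * E' A + (-(B a b c d)) * E' fM := by
    intro a b c d hK
    rw [← hE'.sym24 (bd_wt bd_I2 hK)]
    have hmono := hE'.mono (f := avg24 (fun p q r s => wt I2 a b c d p q r s))
      (g := fun p q r s => I2 a b c d + (1 - g * (I2 a b c d) ^ 2) * I2 p q r s
          + (-(g * I2 a b c d)) * (I2 p q r s) ^ 2
          + (-(fK a b c d)) * A p q r s + (-(B a b c d)) * fM p q r s)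
      (Bd.avg24 (bd_wt bd_I2 hK))
      ((((((Bd.const _).add (Bd.smul _ bd_I2)).add (Bd.smul _ bI22)).add (Bd.smul _ hk.bd_A))).add
        (Bd.smul _ hk.bd_fM))
      (fun p q r s hK' => by
        refine le_trans (hk.k1 a b c d p q r s hK hK') (le_of_eq ?_)
        ring)
    refine le_trans hmono (le_of_eq ?_)
    rw [hE'.lin5 _ _ _ _ _ bd_I2 bI22 hk.bd_A hk.bd_fM]
  set b := E' I2 with hb
  set b2 := E' (fun p q r s => (I2 p q r s) ^ 2) with hb2
  set mA := E' A with hmA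
  set mM := E' fM with hmM
  have h3 : bprod E E' I2 ≤ E (fun a b' c d => I2 a b' c d + (1 - g * (I2 a b' c d) ^ 2) * b
      + (-(g * I2 a b' c d)) * b2 + (-(fK a b' c d)) * mA + (-(B a b' c d)) * mM) := by
    refine hE.mono (bd_inner bd_I2 hE') ?_ hinner
    have e : (fun a b' c d => I2 a b' c d + (1 - g * (I2 a b' c d) ^ 2) * b
      + (-(g * I2 a b' c d)) * b2 + (-(fK a b' c d)) * mA + (-(B a b' c d)) * mM)
      = fun a b' c d => b + (1 + (-(g * b2))) * I2 a b' c d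
        + (-(g * b)) * (I2 a b' c d) ^ 2 + (-mA) * fK a b' c d + (-mM) * B a b' c d := by
      funext a b' c d
      ring
    rw [e]
    exact (((((Bd.const _).add (Bd.smul _ bd_I2)).add (Bd.smul _ bI22)).add (Bd.smul _ hk.bd_fK))).add
      (Bd.smul _ hk.bd_B)
  have e : (fun a b' c d => I2 a b' c d + (1 - g * (I2 a b' c d) ^ 2) * b
      + (-(g * I2 a b' c d)) * b2 + (-(fK a b' c d)) * mA + (-(B a b' c d)) * mM)
      = fun a b' c d => b + (1 + (-(g * b2))) * I2 a b' c d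
        + (-(g * b)) * (I2 a b' c d) ^ 2 + (-mA) * fK a b' c d + (-mM) * B a b' c d := by
    funext a b' c d
    ring
  rw [e, hE.lin5 _ _ _ _ _ bd_I2 bI22 hk.bd_fK hk.bd_B] at h3
  have hA : 0 ≤ mA := hE'.nonneg _ hk.A_nn
  have hB : 0 ≤ E B := hE.nonneg _ hk.B_nn
  have hb0 : 0 ≤ b := hE'.nonneg _ (fun p q r s _ => I2_nonneg p q r s)
  have ha0 : 0 ≤ E I2 := hE.nonneg _ (fun p q r s _ => I2_nonneg p q r s)
  have s1 := hE.sq_mean bd_I2
  have s2 := hE'.sq_mean bd_I2
  have h5 : 0 ≤ mA * E fK := mul_nonneg hA h1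
  have h6 : 0 ≤ mM * E B := mul_nonneg h2 hB
  have h7 : g * b * (E I2) ^ 2 ≤ g * b * E (fun a b c d => (I2 a b c d) ^ 2) :=
    mul_le_mul_of_nonneg_left s1 (mul_nonneg hk.g_nn hb0)
  have h8 : g * E I2 * b ^ 2 ≤ g * E I2 * b2 :=
    mul_le_mul_of_nonneg_left s2 (mul_nonneg hk.g_nn ha0)
  nlinarith

/-- integrated form of the second kernel inequality -/
theorem class_bprod (hk : Kern fK fM A B al be Msg g) {E E' : Ex4} (hE : BExp E Simp)
    (hE' : BExp E' Msg) (h1 : 0 ≤ E fK) (h2 : 0 ≤ E' fM) : 0 ≤ bprod E E' fK := by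
  have hinner : ∀ a b c d, Simp a b c d →
      0 + (E' al) * fK a b c d + (E' fM) * be a b c d ≤ E' (fun p q r s => wt fK a b c d p q r s) := by
    intro a b c d hK
    rw [← hE'.sym24 (bd_wt hk.bd_fK hK)]
    have hmono := hE'.mono
      (f := fun p q r s => 0 + (fK a b c d) * al p q r s + (be a b c d) * fM p q r s)
      (g := avg24 (fun p q r s => wt fK a b c d p q r s))
      (((Bd.const _).add (Bd.smul _ hk.bd_al)).add (Bd.smul _ hk.bd_fM))
      (Bd.avg24 (bd_wt hk.bd_fK hK))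
      (fun p q r s hK' => by
        refine le_trans (le_of_eq ?_) (hk.k2 a b c d p q r s hK hK')
        ring)
    refine le_trans (le_of_eq ?_) hmono
    rw [hE'.lin3 _ _ _ hk.bd_al hk.bd_fM]
    ring
  have h3 := hE.mono (f := fun a b c d => 0 + (E' al) * fK a b c d + (E' fM) * be a b c d)
    (g := fun a b c d => E' (fun p q r s => wt fK a b c d p q r s))
    (((Bd.const _).add (Bd.smul _ hk.bd_fK)).add (Bd.smul _ hk.bd_be))
    (bd_inner hk.bd_fK hE') hinner
  rw [hE.lin3 _ _ _ hk.bd_fK hk.bd_be] at h3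
  have h4 : 0 ≤ E be := hE.nonneg _ hk.be_nn
  have h4' : 0 ≤ E' al := hE'.nonneg _ hk.al_nn
  have h6 : 0 ≤ E' al * E fK := mul_nonneg h4' h1
  have h7 : 0 ≤ E' fM * E be := mul_nonneg h2 h4
  have : bprod E E' fK = E (fun a b c d => E' (fun p q r s => wt fK a b c d p q r s)) := rfl
  rw [this]
  linarith

/-- the second moment after the channel -/
theorem m2_chan {E : Ex4} {K : ℝ → ℝ → ℝ → ℝ → Prop} (hE : BExp E K) (lam : ℝ) :
    chan lam E I2 = lam ^ 2 * E I2 := by
  unfold chan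
  rw [← hE.smul]
  congr 1
  funext a b c d
  exact I2_chan lam a b c d

theorem centre_bexp {K : ℝ → ℝ → ℝ → ℝ → Prop} (h : ∀ a b c d, K a b c d → Simp a b c d)
    (hc : K (1 / 4) (1 / 4) (1 / 4) (1 / 4)) : BExp centre K where
  sup := h
  add _ _ _ _ := rfl
  smul _ _ := rfl
  nonneg f hf := hf _ _ _ _ hc
  congr f g hfg := hfg _ _ _ _ hc
  one := rfl
  swap _ := rfl
  cyc _ := rfl

theorem vertexEx_bexp {K : ℝ → ℝ → ℝ → ℝ → Prop} (h : ∀ a b c d, K a b c d → Simp a b c d)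
    (h1 : K 1 0 0 0) (h2 : K 0 1 0 0) (h3 : K 0 0 1 0) (h4 : K 0 0 0 1) : BExp vertexEx K where
  sup := h
  add f g _ _ := by unfold vertexEx; ring
  smul t f := by unfold vertexEx; ring
  nonneg f hf := by
    unfold vertexEx
    have h1 := hf 1 0 0 0 h1
    have h2 := hf 0 1 0 0 h2
    have h3 := hf 0 0 1 0 h3
    have h4 := hf 0 0 0 1 h4
    positivity
  congr f g hfg := by
    unfold vertexEx
    rw [hfg 1 0 0 0 h1, hfg 0 1 0 0 h2, hfg 0 0 1 0 h3, hfg 0 0 0 1 h4]
  one := by unfold vertexEx; norm_num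
  swap f := by unfold vertexEx; ring
  cyc f := by unfold vertexEx; ring

/-- the `k`-fold Bayesian product of a message functional -/
noncomputable def Pk (E' : Ex4) : ℕ → Ex4
  | 0 => centre
  | k + 1 => bprod (Pk E' k) E'

theorem Pk_props (hk : Kern fK fM A B al be Msg g) {E' : Ex4} (hE' : BExp E' Msg) (h2 : 0 ≤ E' fM)
    (k : ℕ) : BExp (Pk E' k) Simp ∧ 0 ≤ Pk E' k fK := by
  induction k with
  | zero =>
    exact ⟨centre_bexp (fun _ _ _ _ h => h) simp_centre, hk.fK_centre⟩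
  | succ k ih =>
    refine ⟨bprod_bexp ih.1 hE' (fun _ _ _ _ h => h) (fun a b c d p q r s h1 h2 hD => ?_),
      class_bprod hk ih.1 hE' ih.2 h2⟩
    exact prod_simp h1 (hk.msg_simp _ _ _ _ h2) hD

theorem Pk_zero_I2 (E' : Ex4) : Pk E' 0 I2 = 0 := by
  show I2 (1 / 4) (1 / 4) (1 / 4) (1 / 4) = 0
  unfold I2
  norm_num

/-- a numerical consequence of the one-step inequality -/
theorem M_bound {M : ℕ → ℝ} {b g : ℝ} (h0 : M 0 = 0) (hnn : ∀ k, 0 ≤ M k) (hb0 : 0 ≤ b) (hb1 : b ≤ 1)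
    (hg0 : 0 ≤ g) (hg1 : g ≤ 1 / 4)
    (step : ∀ k, M (k + 1) ≤ M k + b - g * M k * b * (M k + b)) (k : ℕ) :
    M k ≤ k * b - 2 * g * b ^ 3 * (if 2 ≤ k then 1 else 0) := by
  have a1 : M 1 ≤ b := by
    have := step 0
    rw [h0] at this
    linarith
  have a2 : M 2 ≤ 2 * b - 2 * g * b ^ 3 := by
    have := step 1
    have hm := hnn 1
    have h3 : 0 ≤ (b - M 1) * (1 - g * b * (2 * b + M 1)) := by
      refine mul_nonneg (by linarith) ?_
      have h4 : b * (2 * b + M 1) ≤ 1 * (2 * 1 + 1) := by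
        apply mul_le_mul hb1 (by linarith) (by positivity) (by norm_num)
      have h5 : g * (b * (2 * b + M 1)) ≤ 1 / 4 * (1 * (2 * 1 + 1)) :=
        mul_le_mul hg1 h4 (by positivity) (by norm_num)
      have e : g * b * (2 * b + M 1) = g * (b * (2 * b + M 1)) := by ring
      rw [e]
      linarith
    nlinarith
  have key : ∀ j : ℕ, M (j + 2) ≤ (j + 2) * b - 2 * g * b ^ 3 := by
    intro j
    induction j with
    | zero => simpa using a2
    | succ j ih =>
      have h3 := step (j + 2)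
      have h4 := hnn (j + 2)
      have h5 : 0 ≤ g * M (j + 2) * b * (M (j + 2) + b) := by positivity
      have e : j + 1 + 2 = j + 2 + 1 := by ring
      rw [e]
      push_cast
      nlinarith
  match k with
  | 0 => simp [h0]
  | 1 =>
    simpa using a1
  | j + 2 =>
    have := key j
    have hj : 2 ≤ j + 2 := by omega
    simp only [hj, if_true]
    push_cast
    linarith

theorem I2_le_one {E : Ex4} {K : ℝ → ℝ → ℝ → ℝ → Prop} (hE : BExp E K) : E I2 ≤ 1 := by
  have h3 : E I2 ≤ E (fun _ _ _ _ => 1) :=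
    hE.mono bd_I2 (Bd.const 1) (fun a b c d hK => by
      have := I2_le (hE.sup a b c d hK)
      linarith)
  rw [hE.one] at h3
  exact h3

theorem I2_mean_nonneg {E : Ex4} {K : ℝ → ℝ → ℝ → ℝ → Prop} (hE : BExp E K) : 0 ≤ E I2 :=
  hE.nonneg _ (fun a b c d _ => I2_nonneg a b c d)

/-- convergence of the recursion -/
theorem tendsto_of_rec {m : ℕ → ℝ} (hnn : ∀ n, 0 ≤ m n) {r g : ℝ} (hr0 : 0 ≤ r) (hr1 : r ≤ 1)
    (hg : 0 ≤ g) (hrec : ∀ n, m (n + 1) ≤ r * m n - g * (m n) ^ 3) (hcase : r < 1 ∨ 0 < g) :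
    Tendsto m atTop (𝓝 0) := by
  rcases hcase with hr | hg1
  · have hpow : ∀ n, m n ≤ m 0 * r ^ n := by
      intro n
      induction n with
      | zero => simp
      | succ n ih =>
        have h1 := hrec n
        have hmn := hnn n
        have h2 : 0 ≤ g * (m n) ^ 3 := by positivity
        have h3 : r * m n ≤ r * (m 0 * r ^ n) := mul_le_mul_of_nonneg_left ih hr0
        calc m (n + 1) ≤ r * (m 0 * r ^ n) := by linarith
          _ = m 0 * r ^ (n + 1) := by ring
    have hlim : Tendsto (fun n => m 0 * r ^ n) atTop (𝓝 (m 0 * 0)) :=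
      (tendsto_pow_atTop_nhds_zero_of_lt_one hr0 hr).const_mul _
    rw [mul_zero] at hlim
    exact squeeze_zero hnn hpow hlim
  · have hrec' : ∀ n, m (n + 1) ≤ m n - g * (m n) ^ 3 := by
      intro n
      have h1 := hrec n
      have h3 : r * m n ≤ 1 * m n := mul_le_mul_of_nonneg_right hr1 (hnn n)
      linarith
    have hanti : Antitone m := by
      refine antitone_nat_of_succ_le (fun n => ?_)
      have := hrec' n
      have hmn := hnn n
      have h4 : 0 ≤ g * (m n) ^ 3 := by positivity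
      linarith
    have hbdd : BddBelow (Set.range m) := ⟨0, by rintro _ ⟨n, rfl⟩; exact hnn n⟩
    have hlim := tendsto_atTop_ciInf hanti hbdd
    set L := ⨅ n, m n with hL
    have hL0 : 0 ≤ L := le_ciInf hnn
    have hl1 : Tendsto (fun n => m (n + 1)) atTop (𝓝 L) := hlim.comp (tendsto_add_atTop_nat 1)
    have hl2 : Tendsto (fun n => m n - g * (m n) ^ 3) atTop (𝓝 (L - g * L ^ 3)) :=
      hlim.sub ((hlim.pow 3).const_mul _)
    have hle : L ≤ L - g * L ^ 3 := le_of_tendsto_of_tendsto' hl1 hl2 hrec'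
    have hL2 : L ^ 3 = 0 := by
      have h5 : 0 ≤ g * L ^ 3 := by positivity
      have h6 : g * L ^ 3 = 0 := by linarith
      rcases mul_eq_zero.1 h6 with h7 | h7
      · exact absurd h7 hg1.ne'
      · exact h7
    have : L = 0 := by simpa using hL2
    rwa [this] at hlim

/-! ### the `d`-ary tree -/

/-- the law of the posterior at depth `n`, as a functional -/
noncomputable def Ehat (d : ℕ) (lam : ℝ) : ℕ → Ex4
  | 0 => vertexEx
  | n + 1 => Pk (chan lam (Ehat d lam n)) d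

theorem simp_v1 : Simp 1 0 0 0 := ⟨by norm_num, by norm_num, by norm_num, by norm_num, by norm_num⟩
theorem simp_v2 : Simp 0 1 0 0 := ⟨by norm_num, by norm_num, by norm_num, by norm_num, by norm_num⟩
theorem simp_v3 : Simp 0 0 1 0 := ⟨by norm_num, by norm_num, by norm_num, by norm_num, by norm_num⟩
theorem simp_v4 : Simp 0 0 0 1 := ⟨by norm_num, by norm_num, by norm_num, by norm_num, by norm_num⟩

/-- the conditions on the eigenvalue: messages land in `Msg` and the class functions are related -/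
structure ChanOK (fK fM : Fn4) (Msg : ℝ → ℝ → ℝ → ℝ → Prop) (lam : ℝ) : Prop where
  h0 : 0 ≤ lam
  h1 : lam ≤ 1
  msg : ∀ a b c d, Simp a b c d → Msg (chanPt lam a) (chanPt lam b) (chanPt lam c) (chanPt lam d)
  cls : ∀ a b c d, Simp a b c d →
    lam ^ 3 * fK a b c d ≤ fM (chanPt lam a) (chanPt lam b) (chanPt lam c) (chanPt lam d)

theorem chan_class (hk : Kern fK fM A B al be Msg g) {lam : ℝ} (hc : ChanOK fK fM Msg lam) {E : Ex4}
    (hE : BExp E Simp) (h : 0 ≤ E fK) : 0 ≤ chan lam E fM := by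
  have h0 := hc.h0
  have hmono := hE.mono (f := fun a b c d => lam ^ 3 * fK a b c d)
    (g := fun a b c d => fM (chanPt lam a) (chanPt lam b) (chanPt lam c) (chanPt lam d))
    (Bd.smul _ hk.bd_fK) (bd_chan hc.h0 hc.h1 hk.bd_fM) hc.cls
  rw [hE.smul] at hmono
  have : 0 ≤ lam ^ 3 * E fK := by positivity
  unfold chan
  linarith

theorem Ehat_props (hk : Kern fK fM A B al be Msg g) (d : ℕ) {lam : ℝ} (hc : ChanOK fK fM Msg lam)
    (n : ℕ) : BExp (Ehat d lam n) Simp ∧ 0 ≤ Ehat d lam n fK := by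
  induction n with
  | zero =>
    exact ⟨vertexEx_bexp (fun _ _ _ _ h => h) simp_v1 simp_v2 simp_v3 simp_v4, hk.fK_vertex⟩
  | succ n ih =>
    have hE' := chan_bexp ih.1 hc.h0 hc.h1 hk.msg_simp hc.msg
    exact Pk_props hk hE' (chan_class hk hc ih.1 ih.2) d

/-- the recursion for the second moment -/
theorem Ehat_step (hk : Kern fK fM A B al be Msg g) {d : ℕ} (hd : 2 ≤ d) {lam : ℝ}
    (hc : ChanOK fK fM Msg lam) (n : ℕ) :
    Ehat d lam (n + 1) I2
      ≤ d * lam ^ 2 * Ehat d lam n I2 - 2 * g * lam ^ 6 * (Ehat d lam n I2) ^ 3 := by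
  have hp := Ehat_props hk d hc n
  have hE' := chan_bexp hp.1 hc.h0 hc.h1 hk.msg_simp hc.msg
  have hm := chan_class hk hc hp.1 hp.2
  have hF := fun k => Pk_props hk hE' hm k
  have hb0 := I2_mean_nonneg hE'
  have hb1 := I2_le_one hE'
  have key := M_bound (M := fun k => Pk (chan lam (Ehat d lam n)) k I2) (Pk_zero_I2 _)
    (fun k => I2_mean_nonneg (hF k).1) hb0 hb1 hk.g_nn hk.g_le
    (fun k => m2_bprod_le hk (hF k).1 hE' (hF k).2 hm) d
  have hdd : 2 ≤ d := hd
  simp only [hdd, if_true] at key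
  have e : Ehat d lam (n + 1) I2 = Pk (chan lam (Ehat d lam n)) d I2 := rfl
  rw [e]
  refine le_trans key (le_of_eq ?_)
  rw [m2_chan hp.1]
  ring

/-- The second moment tends to zero at and below the Kesten-Stigum bound. -/
theorem Ehat_tendsto (hk : Kern fK fM A B al be Msg g) (hg : 0 < g) {d : ℕ} (hd : 2 ≤ d) {lam : ℝ}
    (hc : ChanOK fK fM Msg lam) (hKS : (d : ℝ) * lam ^ 2 ≤ 1) :
    Tendsto (fun n => Ehat d lam n I2) atTop (𝓝 0) := by
  have h0 := hc.h0
  have hnn : ∀ n, 0 ≤ Ehat d lam n I2 := fun n => I2_mean_nonneg (Ehat_props hk d hc n).1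
  by_cases hlam : lam = 0
  · refine tendsto_of_rec hnn (r := (d : ℝ) * lam ^ 2) (g := 2 * g * lam ^ 6) (by positivity) hKS
      (by positivity) (fun n => Ehat_step hk hd hc n) (Or.inl ?_)
    rw [hlam]
    norm_num
  · exact tendsto_of_rec hnn (r := (d : ℝ) * lam ^ 2) (g := 2 * g * lam ^ 6) (by positivity) hKS
      (by positivity) (fun n => Ehat_step hk hd hc n) (Or.inr (by positivity))

end kern

/-! ### the binary tree: partial products are messages -/

/-- The data of the proof for `d = 2`, where the kernels are needed only on `Msg x Msg`. -/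
structure Kern2 (fK fM A B al be : Fn4) (Msg : ℝ → ℝ → ℝ → ℝ → Prop) (g : ℝ) : Prop where
  msg_simp : ∀ p q r s, Msg p q r s → Simp p q r s
  bd_fK : Bd fK
  bd_fM : Bd fM
  bd_A : Bd A
  bd_B : Bd B
  bd_al : Bd al
  bd_be : Bd be
  A_nn : ∀ p q r s, Msg p q r s → 0 ≤ A p q r s
  B_nn : ∀ a b c d, Msg a b c d → 0 ≤ B a b c d
  al_nn : ∀ p q r s, Msg p q r s → 0 ≤ al p q r s
  be_nn : ∀ a b c d, Msg a b c d → 0 ≤ be a b c d
  g_nn : 0 ≤ g
  k1 : ∀ a b c d p q r s, Msg a b c d → Msg p q r s →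
    avg24 (fun p q r s => wt I2 a b c d p q r s) p q r s
      ≤ I2 a b c d + I2 p q r s - g * I2 a b c d * I2 p q r s * (I2 a b c d + I2 p q r s)
        - A p q r s * fM a b c d - B a b c d * fM p q r s
  k2 : ∀ a b c d p q r s, Msg a b c d → Msg p q r s →
    al p q r s * fM a b c d + be a b c d * fM p q r s
      ≤ avg24 (fun p q r s => wt fK a b c d p q r s) p q r s
  fK_vertex : 0 ≤ vertexEx fK

section kern2

variable {fK fM A B al be : Fn4} {Msg : ℝ → ℝ → ℝ → ℝ → Prop} {g : ℝ}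

/-- integrated form of the first kernel inequality, `d = 2` -/
theorem m2_bprod_le2 (hk : Kern2 fK fM A B al be Msg g) {E' : Ex4} (hE' : BExp E' Msg)
    (h2 : 0 ≤ E' fM) : bprod E' E' I2 ≤ 2 * E' I2 - 2 * g * (E' I2) ^ 3 := by
  have bI22 : Bd (fun a b c d => (I2 a b c d) ^ 2) := bd_I2.pow 2
  have hinner : ∀ a b c d, Msg a b c d →
      E' (fun p q r s => wt I2 a b c d p q r s)
        ≤ I2 a b c d + (1 - g * (I2 a b c d) ^ 2) * E' I2
          + (-(g * I2 a b c d)) * E' (fun p q r s => (I2 p q r s) ^ 2)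
          + (-(fM a b c d)) * E' A + (-(B a b c d)) * E' fM := by
    intro a b c d hK
    have hK0 := hk.msg_simp _ _ _ _ hK
    rw [← hE'.sym24 (bd_wt bd_I2 hK0)]
    have hmono := hE'.mono (f := avg24 (fun p q r s => wt I2 a b c d p q r s))
      (g := fun p q r s => I2 a b c d + (1 - g * (I2 a b c d) ^ 2) * I2 p q r s
          + (-(g * I2 a b c d)) * (I2 p q r s) ^ 2
          + (-(fM a b c d)) * A p q r s + (-(B a b c d)) * fM p q r s)
      (Bd.avg24 (bd_wt bd_I2 hK0))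
      ((((((Bd.const _).add (Bd.smul _ bd_I2)).add (Bd.smul _ bI22)).add (Bd.smul _ hk.bd_A))).add
        (Bd.smul _ hk.bd_fM))
      (fun p q r s hK' => by
        refine le_trans (hk.k1 a b c d p q r s hK hK') (le_of_eq ?_)
        ring)
    refine le_trans hmono (le_of_eq ?_)
    rw [hE'.lin5 _ _ _ _ _ bd_I2 bI22 hk.bd_A hk.bd_fM]
  set b := E' I2 with hb
  set b2 := E' (fun p q r s => (I2 p q r s) ^ 2) with hb2
  set mA := E' A with hmA
  set mM := E' fM with hmM
  have e : (fun a b' c d => I2 a b' c d + (1 - g * (I2 a b' c d) ^ 2) * b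
      + (-(g * I2 a b' c d)) * b2 + (-(fM a b' c d)) * mA + (-(B a b' c d)) * mM)
      = fun a b' c d => b + (1 + (-(g * b2))) * I2 a b' c d
        + (-(g * b)) * (I2 a b' c d) ^ 2 + (-mA) * fM a b' c d + (-mM) * B a b' c d := by
    funext a b' c d
    ring
  have h3 : bprod E' E' I2 ≤ E' (fun a b' c d => I2 a b' c d + (1 - g * (I2 a b' c d) ^ 2) * b
      + (-(g * I2 a b' c d)) * b2 + (-(fM a b' c d)) * mA + (-(B a b' c d)) * mM) := by
    refine hE'.mono (bd_inner bd_I2 hE') ?_ hinner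
    rw [e]
    exact (((((Bd.const _).add (Bd.smul _ bd_I2)).add (Bd.smul _ bI22)).add (Bd.smul _ hk.bd_fM))).add
      (Bd.smul _ hk.bd_B)
  rw [e, hE'.lin5 _ _ _ _ _ bd_I2 bI22 hk.bd_fM hk.bd_B] at h3
  have hA : 0 ≤ mA := hE'.nonneg _ hk.A_nn
  have hB : 0 ≤ E' B := hE'.nonneg _ hk.B_nn
  have hb0 : 0 ≤ b := hE'.nonneg _ (fun p q r s _ => I2_nonneg p q r s)
  have s2 := hE'.sq_mean bd_I2
  have h5 : 0 ≤ mA * mM := mul_nonneg hA h2
  have h6 : 0 ≤ mM * E' B := mul_nonneg h2 hB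
  have h8 : g * b * b ^ 2 ≤ g * b * b2 :=
    mul_le_mul_of_nonneg_left s2 (mul_nonneg hk.g_nn hb0)
  nlinarith

/-- integrated form of the second kernel inequality, `d = 2` -/
theorem class_bprod2 (hk : Kern2 fK fM A B al be Msg g) {E' : Ex4} (hE' : BExp E' Msg)
    (h2 : 0 ≤ E' fM) : 0 ≤ bprod E' E' fK := by
  have hinner : ∀ a b c d, Msg a b c d →
      0 + (E' al) * fM a b c d + (E' fM) * be a b c d ≤ E' (fun p q r s => wt fK a b c d p q r s) := by
    intro a b c d hK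
    have hK0 := hk.msg_simp _ _ _ _ hK
    rw [← hE'.sym24 (bd_wt hk.bd_fK hK0)]
    have hmono := hE'.mono
      (f := fun p q r s => 0 + (fM a b c d) * al p q r s + (be a b c d) * fM p q r s)
      (g := avg24 (fun p q r s => wt fK a b c d p q r s))
      (((Bd.const _).add (Bd.smul _ hk.bd_al)).add (Bd.smul _ hk.bd_fM))
      (Bd.avg24 (bd_wt hk.bd_fK hK0))
      (fun p q r s hK' => by
        refine le_trans (le_of_eq ?_) (hk.k2 a b c d p q r s hK hK')
        ring)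
    refine le_trans (le_of_eq ?_) hmono
    rw [hE'.lin3 _ _ _ hk.bd_al hk.bd_fM]
    ring
  have h3 := hE'.mono (f := fun a b c d => 0 + (E' al) * fM a b c d + (E' fM) * be a b c d)
    (g := fun a b c d => E' (fun p q r s => wt fK a b c d p q r s))
    (((Bd.const _).add (Bd.smul _ hk.bd_fM)).add (Bd.smul _ hk.bd_be))
    (bd_inner hk.bd_fK hE') hinner
  rw [hE'.lin3 _ _ _ hk.bd_fM hk.bd_be] at h3
  have h4 : 0 ≤ E' be := hE'.nonneg _ hk.be_nn
  have h4' : 0 ≤ E' al := hE'.nonneg _ hk.al_nn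
  have h6 : 0 ≤ E' al * E' fM := mul_nonneg h4' h2
  have h7 : 0 ≤ E' fM * E' be := mul_nonneg h2 h4
  have : bprod E' E' fK = E' (fun a b c d => E' (fun p q r s => wt fK a b c d p q r s)) := rfl
  rw [this]
  linarith

/-- the one-fold product is the message functional -/
theorem Pk_one {E' : Ex4} {K : ℝ → ℝ → ℝ → ℝ → Prop} (hE' : BExp E' K) : Pk E' 1 = E' := by
  funext f
  have e : Pk E' 1 f = E' (fun p q r s => wt f (1 / 4) (1 / 4) (1 / 4) (1 / 4) p q r s) := rfl
  rw [e]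
  refine hE'.congr _ _ (fun p q r s hK => ?_)
  have hs := (hE'.sup p q r s hK).hs
  unfold wt
  have e1 : 1 / 4 * p + 1 / 4 * q + 1 / 4 * r + 1 / 4 * s = 1 / 4 := by linarith
  rw [e1]
  have a1 : 1 / 4 * p / (1 / 4) = p := by ring
  have a2 : 1 / 4 * q / (1 / 4) = q := by ring
  have a3 : 1 / 4 * r / (1 / 4) = r := by ring
  have a4 : 1 / 4 * s / (1 / 4) = s := by ring
  rw [a1, a2, a3, a4]
  ring

theorem Pk_two {E' : Ex4} {K : ℝ → ℝ → ℝ → ℝ → Prop} (hE' : BExp E' K) : Pk E' 2 = bprod E' E' := by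
  have e : Pk E' 2 = bprod (Pk E' 1) E' := rfl
  rw [e, Pk_one hE']

/-- the conditions on the eigenvalue for `d = 2` -/
theorem Ehat2_props (hk : Kern2 fK fM A B al be Msg g) {lam : ℝ} (hc : ChanOK fK fM Msg lam) (n : ℕ) :
    BExp (Ehat 2 lam n) Simp ∧ 0 ≤ Ehat 2 lam n fK := by
  have hchan : ∀ {E : Ex4}, BExp E Simp → 0 ≤ E fK → 0 ≤ chan lam E fM := by
    intro E hE h
    have h0 := hc.h0
    have hmono := hE.mono (f := fun a b c d => lam ^ 3 * fK a b c d)
      (g := fun a b c d => fM (chanPt lam a) (chanPt lam b) (chanPt lam c) (chanPt lam d))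
      (Bd.smul _ hk.bd_fK) (bd_chan hc.h0 hc.h1 hk.bd_fM) hc.cls
    rw [hE.smul] at hmono
    have : 0 ≤ lam ^ 3 * E fK := by positivity
    unfold chan
    linarith
  induction n with
  | zero =>
    exact ⟨vertexEx_bexp (fun _ _ _ _ h => h) simp_v1 simp_v2 simp_v3 simp_v4, hk.fK_vertex⟩
  | succ n ih =>
    have hE' := chan_bexp ih.1 hc.h0 hc.h1 hk.msg_simp hc.msg
    have hm := hchan ih.1 ih.2
    have e : Ehat 2 lam (n + 1) = Pk (chan lam (Ehat 2 lam n)) 2 := rfl
    rw [e, Pk_two hE']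
    refine ⟨bprod_bexp hE' hE' (fun _ _ _ _ h => h) (fun a b c d p q r s h1 h2 hD => ?_),
      class_bprod2 hk hE' hm⟩
    exact prod_simp (hk.msg_simp _ _ _ _ h1) (hk.msg_simp _ _ _ _ h2) hD

/-- the recursion for the second moment for `d = 2` -/
theorem Ehat2_step (hk : Kern2 fK fM A B al be Msg g) {lam : ℝ} (hc : ChanOK fK fM Msg lam) (n : ℕ) :
    Ehat 2 lam (n + 1) I2
      ≤ 2 * lam ^ 2 * Ehat 2 lam n I2 - 2 * g * lam ^ 6 * (Ehat 2 lam n I2) ^ 3 := by
  have hp := Ehat2_props hk hc n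
  have hE' := chan_bexp hp.1 hc.h0 hc.h1 hk.msg_simp hc.msg
  have h0 := hc.h0
  have hm : 0 ≤ chan lam (Ehat 2 lam n) fM := by
    have hmono := hp.1.mono (f := fun a b c d => lam ^ 3 * fK a b c d)
      (g := fun a b c d => fM (chanPt lam a) (chanPt lam b) (chanPt lam c) (chanPt lam d))
      (Bd.smul _ hk.bd_fK) (bd_chan hc.h0 hc.h1 hk.bd_fM) hc.cls
    rw [hp.1.smul] at hmono
    have : 0 ≤ lam ^ 3 * Ehat 2 lam n fK := mul_nonneg (by positivity) hp.2
    unfold chan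
    linarith
  have e : Ehat 2 lam (n + 1) = Pk (chan lam (Ehat 2 lam n)) 2 := rfl
  rw [e, Pk_two hE']
  refine le_trans (m2_bprod_le2 hk hE' hm) (le_of_eq ?_)
  rw [m2_chan hp.1]
  ring

theorem Ehat2_tendsto (hk : Kern2 fK fM A B al be Msg g) (hg : 0 < g) {lam : ℝ}
    (hc : ChanOK fK fM Msg lam) (hKS : 2 * lam ^ 2 ≤ 1) :
    Tendsto (fun n => Ehat 2 lam n I2) atTop (𝓝 0) := by
  have h0 := hc.h0
  have hnn : ∀ n, 0 ≤ Ehat 2 lam n I2 := fun n => I2_mean_nonneg (Ehat2_props hk hc n).1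
  by_cases hlam : lam = 0
  · refine tendsto_of_rec hnn (r := 2 * lam ^ 2) (g := 2 * g * lam ^ 6) (by positivity) hKS
      (by positivity) (fun n => Ehat2_step hk hc n) (Or.inl ?_)
    rw [hlam]
    norm_num
  · exact tendsto_of_rec hnn (r := 2 * lam ^ 2) (g := 2 * g * lam ^ 6) (by positivity) hKS
      (by positivity) (fun n => Ehat2_step hk hc n) (Or.inr (by positivity))

end kern2

end Vale.Agent.Lib.P154Q4
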