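import Vale.Agent.Lib.P154Q4.K2Poly
import Vale.Agent.Lib.P154Q4.Rec

/-!
Pointwise polynomial lower bound of the weighted class function of the second kernel.
-/

namespace Vale.Agent.Lib.P154Q4.K2

/-- the class function on the simplex -/
noncomputable def fK (a b c d : ℝ) : ℝ := I3 a b c d - (11 / 20) * (I2 a b c d) ^ 2

/-- the class function on the messages -/
noncomputable def fM (a b c d : ℝ) : ℝ := I3 a b c d - (77 / 100) * (I2 a b c d) ^ 2

/-- the polynomial surrogate in three scalars -/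
noncomputable def Lf (K R D : ℝ) : ℝ :=
  K * l2 (D - 1) + (21 / 320) * D + Hf R (D - 1)

theorem l2_le (t : ℝ) (h3 : -5 / 7 ≤ t) (h4 : t ≤ 15 / 7) : l2 t ≤ 1 / (1 + t) ^ 2 := by
  have hD : 0 < 1 + t := by linarith
  have hq := qK_nonneg t (by linarith) (by linarith)
  have key : 1 / (1 + t) ^ 2 - l2 t = t ^ 4 * qK 0 t / (1 + t) ^ 2 := by
    unfold l2 qK
    field_simp
    ring
  have hpos : 0 ≤ t ^ 4 * qK 0 t / (1 + t) ^ 2 := by positivity
  linarith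

theorem Hf_le (R t : ℝ) (hR : 0 ≤ R) (hR2 : 4 * R ≤ 3 * (1 + t) ^ 2) (h3 : -5 / 7 ≤ t)
    (h4 : t ≤ 15 / 7) :
    Hf R t ≤ (3 / 40) * R / (1 + t) - (11 / 20) * R ^ 2 / (1 + t) ^ 3 := by
  have hD : 0 < 1 + t := by linarith
  have hD2 : 0 < (1 + t) ^ 2 := by positivity
  obtain ⟨r, hr⟩ : ∃ r, r = 4 * R / (3 * (1 + t) ^ 2) := ⟨_, rfl⟩
  have hr0 : 0 ≤ r := by rw [hr]; positivity
  have hr1 : r ≤ 1 := by
    rw [hr, div_le_one (by positivity)]
    linarith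
  have hRr : R = (3 / 4) * r * (1 + t) ^ 2 := by
    rw [hr]
    field_simp
  have hq := Qq_nonneg r t hr0 hr1 (by linarith) (by linarith)
  have key : (3 / 40) * R / (1 + t) - (11 / 20) * R ^ 2 / (1 + t) ^ 3 - Hf R t
      = R * t ^ 2 * QqPoly r t / (1 + t) := by
    rw [hRr]
    unfold Hf QqPoly
    field_simp
    ring
  have hpos : 0 ≤ R * t ^ 2 * QqPoly r t / (1 + t) := by positivity
  linarith

/-- the bound in the three scalars -/
theorem Lf_le (K R D : ℝ) (hK : 0 ≤ K) (hR : 0 ≤ R) (hR2 : 4 * R ≤ 3 * D ^ 2) (h3 : 2 / 7 ≤ D)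
    (h4 : D ≤ 22 / 7) :
    Lf K R D ≤ K / D ^ 2 + (21 / 320) * D + (3 / 40) * R / D - (11 / 20) * R ^ 2 / D ^ 3 := by
  have e : 1 + (D - 1) = D := by ring
  have h1 := l2_le (D - 1) (by linarith) (by linarith)
  have h2 := Hf_le R (D - 1) hR (by rw [e]; exact hR2) (by linarith) (by linarith)
  rw [e] at h1 h2
  have h5 : K * l2 (D - 1) ≤ K / D ^ 2 := by
    have := mul_le_mul_of_nonneg_left h1 hK
    calc K * l2 (D - 1) ≤ K * (1 / D ^ 2) := this
      _ = K / D ^ 2 := by ring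
  unfold Lf
  linarith

/-- the surrogate as a function of four products -/
noncomputable def F (x1 x2 x3 x4 : ℝ) : ℝ :=
  Lf ((3 / 64) * (x1 * x2 * x3 + x1 * x2 * x4 + x1 * x3 * x4 + x2 * x3 * x4))
    ((1 / 8) * (x1 * x2 + x1 * x3 + x1 * x4 + x2 * x3 + x2 * x4 + x3 * x4))
    ((x1 + x2 + x3 + x4) / 4)

/-- the exact weighted class function in the same scalars -/
theorem wt_core (n1 n2 n3 n4 : ℝ) (hS : 0 < n1 + n2 + n3 + n4) :
    4 * (n1 + n2 + n3 + n4) * fK (n1 / (n1 + n2 + n3 + n4)) (n2 / (n1 + n2 + n3 + n4))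
        (n3 / (n1 + n2 + n3 + n4)) (n4 / (n1 + n2 + n3 + n4))
      = (192 * (n1 * n2 * n3 + n1 * n2 * n4 + n1 * n3 * n4 + n2 * n3 * n4))
            / (4 * (n1 + n2 + n3 + n4)) ^ 2
          + (21 / 320) * (4 * (n1 + n2 + n3 + n4))
          + (3 / 40) * (32 * (n1 * n2 + n1 * n3 + n1 * n4 + n2 * n3 + n2 * n4 + n3 * n4))
            / (4 * (n1 + n2 + n3 + n4))
          - (11 / 20) * (32 * (n1 * n2 + n1 * n3 + n1 * n4 + n2 * n3 + n2 * n4 + n3 * n4)) ^ 2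
            / (4 * (n1 + n2 + n3 + n4)) ^ 3 := by
  unfold fK I3 I2
  field_simp
  ring

/-- the pointwise lower bound for nonnegative products of bounded total mass -/
theorem F_le (n1 n2 n3 n4 : ℝ) (h1 : 0 ≤ n1) (h2 : 0 ≤ n2) (h3 : 0 ≤ n3) (h4 : 0 ≤ n4)
    (hS : 1 / 14 ≤ n1 + n2 + n3 + n4) (hS' : n1 + n2 + n3 + n4 ≤ 11 / 14) :
    F (16 * n1) (16 * n2) (16 * n3) (16 * n4)
      ≤ 4 * (n1 + n2 + n3 + n4) * fK (n1 / (n1 + n2 + n3 + n4)) (n2 / (n1 + n2 + n3 + n4))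
        (n3 / (n1 + n2 + n3 + n4)) (n4 / (n1 + n2 + n3 + n4)) := by
  have hpos : 0 < n1 + n2 + n3 + n4 := by linarith
  rw [wt_core n1 n2 n3 n4 hpos]
  have e1 : (3 / 64 : ℝ) * (16 * n1 * (16 * n2) * (16 * n3) + 16 * n1 * (16 * n2) * (16 * n4)
        + 16 * n1 * (16 * n3) * (16 * n4) + 16 * n2 * (16 * n3) * (16 * n4))
      = 192 * (n1 * n2 * n3 + n1 * n2 * n4 + n1 * n3 * n4 + n2 * n3 * n4) := by ring
  have e2 : (1 / 8 : ℝ) * (16 * n1 * (16 * n2) + 16 * n1 * (16 * n3) + 16 * n1 * (16 * n4)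
        + 16 * n2 * (16 * n3) + 16 * n2 * (16 * n4) + 16 * n3 * (16 * n4))
      = 32 * (n1 * n2 + n1 * n3 + n1 * n4 + n2 * n3 + n2 * n4 + n3 * n4) := by ring
  have e3 : (16 * n1 + 16 * n2 + 16 * n3 + 16 * n4) / 4 = 4 * (n1 + n2 + n3 + n4) := by ring
  unfold F
  rw [e1, e2, e3]
  refine Lf_le _ _ _ (by positivity) (by positivity) ?_ (by linarith) (by linarith)
  nlinarith [sq_nonneg (n1 - n2), sq_nonneg (n1 - n3), sq_nonneg (n1 - n4), sq_nonneg (n2 - n3),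
    sq_nonneg (n2 - n4), sq_nonneg (n3 - n4)]

/-- the weighted class function dominates the surrogate at one arrangement -/
theorem F_le_wt {a b c d p q r s : ℝ} (h : Simp a b c d) (hp : 1 / 14 ≤ p) (hq : 1 / 14 ≤ q)
    (hr : 1 / 14 ≤ r) (hs : 1 / 14 ≤ s) (hsum : p + q + r + s = 1) :
    F (4 * a * (4 * p)) (4 * b * (4 * q)) (4 * c * (4 * r)) (4 * d * (4 * s))
      ≤ wt fK a b c d p q r s := by
  have ha := h.ha
  have hb := h.hb
  have hc := h.hc
  have hd := h.hd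
  have hs1 := h.hs
  have e1 : 4 * a * (4 * p) = 16 * (a * p) := by ring
  have e2 : 4 * b * (4 * q) = 16 * (b * q) := by ring
  have e3 : 4 * c * (4 * r) = 16 * (c * r) := by ring
  have e4 : 4 * d * (4 * s) = 16 * (d * s) := by ring
  rw [e1, e2, e3, e4]
  unfold wt
  have hp' : p ≤ 11 / 14 := by linarith
  have hq' : q ≤ 11 / 14 := by linarith
  have hr' : r ≤ 11 / 14 := by linarith
  have hs' : s ≤ 11 / 14 := by linarith
  refine F_le _ _ _ _ (by positivity) (by positivity) (by positivity) (by positivity) ?_ ?_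
  · nlinarith [mul_le_mul_of_nonneg_left hp ha, mul_le_mul_of_nonneg_left hq hb,
      mul_le_mul_of_nonneg_left hr hc, mul_le_mul_of_nonneg_left hs hd]
  · nlinarith [mul_le_mul_of_nonneg_left hp' ha, mul_le_mul_of_nonneg_left hq' hb,
      mul_le_mul_of_nonneg_left hr' hc, mul_le_mul_of_nonneg_left hs' hd]

end Vale.Agent.Lib.P154Q4.K2
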