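import Vale.Agent.Lib.P154Q4.K2Data

/-!
Polynomial bounds for the rational functions in the second kernel of the four-state channel.
-/

namespace Vale.Agent.Lib.P154Q4.K2

/-- lower bound for the inverse square -/
noncomputable def l2 (t : ℝ) : ℝ :=
  1 - 2 * t + 3 * t ^ 2 - 4 * t ^ 3 + (296289/100000) * t ^ 4 + (-80477/100000) * t ^ 5

/-- the remainder of the lower bound for the inverse square -/
noncomputable def qK (_r t : ℝ) : ℝ := (203711/100000) + (-112101/100000) * t + (-27067/20000) * t ^ 2 + (80477/100000) * t ^ 3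

theorem qK_rect_0 (r t : ℝ) (h1 : 0 ≤ r) (h2 : r ≤ 1) (h3 : (-5/7) ≤ t) (h4 : t ≤ (5/7)) : 0 ≤ qK r t := by
  obtain ⟨u, hu⟩ : ∃ u, u = r - 0 := ⟨_, rfl⟩
  obtain ⟨u2, hu2⟩ : ∃ u2, u2 = 1 - r := ⟨_, rfl⟩
  obtain ⟨w, hw⟩ : ∃ w, w = t - (-5/7) := ⟨_, rfl⟩
  obtain ⟨w2, hw2⟩ : ∃ w2, w2 = (5/7) - t := ⟨_, rfl⟩
  have h5 : 0 ≤ u := by rw [hu]; linarith
  have h6 : 0 ≤ u2 := by rw [hu2]; linarith
  have h7 : 0 ≤ w := by rw [hw]; linarith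
  have h8 : 0 ≤ w2 := by rw [hw2]; linarith
  have key : qK r t = (496831/781250) * w2 ^ 3 + (36368233/12500000) * w * w2 ^ 2 + (1372333/781250) * w ^ 2 * w2 + (112438/390625) * w ^ 3 := by
    subst hu hu2 hw hw2
    unfold qK
    ring
  rw [key]
  positivity

theorem qK_rect_1 (r t : ℝ) (h1 : 0 ≤ r) (h2 : r ≤ (1/2)) (h3 : (5/7) ≤ t) (h4 : t ≤ (10/7)) : 0 ≤ qK r t := by
  obtain ⟨u, hu⟩ : ∃ u, u = r - 0 := ⟨_, rfl⟩
  obtain ⟨u2, hu2⟩ : ∃ u2, u2 = (1/2) - r := ⟨_, rfl⟩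
  obtain ⟨w, hw⟩ : ∃ w, w = t - (5/7) := ⟨_, rfl⟩
  obtain ⟨w2, hw2⟩ : ∃ w2, w2 = (10/7) - t := ⟨_, rfl⟩
  have h5 : 0 ≤ u := by rw [hu]; linarith
  have h6 : 0 ≤ u2 := by rw [hu2]; linarith
  have h7 : 0 ≤ w := by rw [hw]; linarith
  have h8 : 0 ≤ w2 := by rw [hw2]; linarith
  have key : qK r t = (899504/390625) * w2 ^ 3 + (1303102/390625) * w * w2 ^ 2 + (1770697/6250000) * w ^ 2 * w2 + (685883/12500000) * w ^ 3 := by
    subst hu hu2 hw hw2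
    unfold qK
    ring
  rw [key]
  positivity

theorem qK_rect_2 (r t : ℝ) (h1 : 0 ≤ r) (h2 : r ≤ (1/2)) (h3 : (10/7) ≤ t) (h4 : t ≤ (15/7)) : 0 ≤ qK r t := by
  obtain ⟨u, hu⟩ : ∃ u, u = r - 0 := ⟨_, rfl⟩
  obtain ⟨u2, hu2⟩ : ∃ u2, u2 = (1/2) - r := ⟨_, rfl⟩
  obtain ⟨w, hw⟩ : ∃ w, w = t - (10/7) := ⟨_, rfl⟩
  obtain ⟨w2, hw2⟩ : ∃ w2, w2 = (15/7) - t := ⟨_, rfl⟩
  have h5 : 0 ≤ u := by rw [hu]; linarith
  have h6 : 0 ≤ u2 := by rw [hu2]; linarith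
  have h7 : 0 ≤ w := by rw [hw]; linarith
  have h8 : 0 ≤ w2 := by rw [hw2]; linarith
  have key : qK r t = (685883/12500000) * w2 ^ 3 + (35869/781250) * w * w2 ^ 2 + (8941071/3125000) * w ^ 2 * w2 + (2870993/781250) * w ^ 3 := by
    subst hu hu2 hw hw2
    unfold qK
    ring
  rw [key]
  positivity

theorem qK_nonneg (t : ℝ) (h3 : (-5/7) ≤ t) (h4 : t ≤ (15/7)) : 0 ≤ qK 0 t := by
  rcases le_total t (5/7) with hh0 | hh0
  · exact qK_rect_0 0 t (by norm_num) (by norm_num) (by linarith) (by linarith)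
  rcases le_total t (10/7) with hh1 | hh1
  · exact qK_rect_1 0 t (by norm_num) (by norm_num) (by linarith) (by linarith)
  exact qK_rect_2 0 t (by norm_num) (by norm_num) (by linarith) (by linarith)

/-- the polynomial surrogate of the rational part -/
noncomputable def Hf (R t : ℝ) : ℝ :=
  (3/40) * R + (-11/20) * R ^ 2 + ((-3/40) * R + (33/20) * R ^ 2) * t
    + (-1027/5000) * R ^ 1 * t ^ 2
    + (57561/50000) * R ^ 1 * t ^ 3
    + (-179857/100000) * R ^ 1 * t ^ 4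
    + (107599/100000) * R ^ 1 * t ^ 5
    + (-21839/100000) * R ^ 1 * t ^ 6
    + (-296423/100000) * R ^ 2 * t ^ 2
    + (279413/100000) * R ^ 2 * t ^ 3
    + (-17823/20000) * R ^ 2 * t ^ 4
    + (-237/2000) * R ^ 3 * t ^ 2

/-- the remainder of the polynomial surrogate -/
noncomputable def QqPoly (r t : ℝ) : ℝ := (701/2500) + (-47291/50000) * t + (12947/20000) * t ^ 2 + (36129/50000) * t ^ 3 + (-536/625) * t ^ 4 + (21839/100000) * t ^ 5 + (-100731/400000) * r + (3981/3125) * r * t + (-14913/80000) * r * t ^ 2 + (-823413/400000) * r * t ^ 3 + (-9051/100000) * r * t ^ 4 + (53469/80000) * r * t ^ 5 + (2133/32000) * r ^ 2 + (2133/6400) * r ^ 2 * t + (2133/3200) * r ^ 2 * t ^ 2 + (2133/3200) * r ^ 2 * t ^ 3 + (2133/6400) * r ^ 2 * t ^ 4 + (2133/32000) * r ^ 2 * t ^ 5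

theorem Qq_rect_0 (r t : ℝ) (h1 : 0 ≤ r) (h2 : r ≤ (1/2)) (h3 : (-5/7) ≤ t) (h4 : t ≤ 0) : 0 ≤ QqPoly r t := by
  obtain ⟨u, hu⟩ : ∃ u, u = r - 0 := ⟨_, rfl⟩
  obtain ⟨u2, hu2⟩ : ∃ u2, u2 = (1/2) - r := ⟨_, rfl⟩
  obtain ⟨w, hw⟩ : ∃ w, w = t - (-5/7) := ⟨_, rfl⟩
  obtain ⟨w2, hw2⟩ : ∃ w2, w2 = 0 - t := ⟨_, rfl⟩
  have h5 : 0 ≤ u := by rw [hu]; linarith
  have h6 : 0 ≤ u2 := by rw [hu2]; linarith
  have h7 : 0 ≤ w := by rw [hw]; linarith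
  have h8 : 0 ≤ w2 := by rw [hw2]; linarith
  have key : QqPoly r t = (127580069/7812500) * u2 ^ 2 * w2 ^ 5 + (1460623283/15625000) * u2 ^ 2 * w * w2 ^ 4 + (2549630377/15625000) * u2 ^ 2 * w ^ 2 * w2 ^ 3 + (1961922613/15625000) * u2 ^ 2 * w ^ 3 * w2 ^ 2 + (349179831/7812500) * u2 ^ 2 * w ^ 4 * w2 + (11781707/1953125) * u2 ^ 2 * w ^ 5 + (250197272/9765625) * u * u2 * w2 ^ 5 + (4596285491/31250000) * u * u2 * w * w2 ^ 4 + (3069232159/12500000) * u * u2 * w ^ 2 * w2 ^ 3 + (22983019927/125000000) * u * u2 * w ^ 3 * w2 ^ 2 + (8257295907/125000000) * u * u2 * w ^ 4 * w2 + (5847306563/625000000) * u * u2 * w ^ 5 + (725830811/78125000) * u ^ 2 * w2 ^ 5 + (8377061/156250) * u ^ 2 * w * w2 ^ 4 + (5152865137/62500000) * u ^ 2 * w ^ 2 * w2 ^ 3 + (7324219973/125000000) * u ^ 2 * w ^ 3 * w2 ^ 2 + (5468870547/250000000) * u ^ 2 * w ^ 4 * w2 + (9204874567/2500000000) * u ^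 2 * w ^ 5 := by
    subst hu hu2 hw hw2
    unfold QqPoly
    ring
  rw [key]
  positivity

theorem Qq_rect_1 (r t : ℝ) (h1 : 0 ≤ r) (h2 : r ≤ (1/4)) (h3 : 0 ≤ t) (h4 : t ≤ (5/14)) : 0 ≤ QqPoly r t := by
  obtain ⟨u, hu⟩ : ∃ u, u = r - 0 := ⟨_, rfl⟩
  obtain ⟨u2, hu2⟩ : ∃ u2, u2 = (1/4) - r := ⟨_, rfl⟩
  obtain ⟨w, hw⟩ : ∃ w, w = t - 0 := ⟨_, rfl⟩
  obtain ⟨w2, hw2⟩ : ∃ w2, w2 = (5/14) - t := ⟨_, rfl⟩
  have h5 : 0 ≤ u := by rw [hu]; linarith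
  have h6 : 0 ≤ u2 := by rw [hu2]; linarith
  have h7 : 0 ≤ w := by rw [hw]; linarith
  have h8 : 0 ≤ w2 := by rw [hw2]; linarith
  have key : QqPoly r t = (1508058496/1953125) * u2 ^ 2 * w2 ^ 5 + (5723561424/1953125) * u2 ^ 2 * w * w2 ^ 4 + (8257742836/1953125) * u2 ^ 2 * w ^ 2 * w2 ^ 3 + (5689477024/1953125) * u2 ^ 2 * w ^ 3 * w2 ^ 2 + (1884638756/1953125) * u2 ^ 2 * w ^ 4 * w2 + (97690531/781250) * u2 ^ 2 * w ^ 5 + (13387599043/9765625) * u * u2 * w2 ^ 5 + (2073174663/390625) * u * u2 * w * w2 ^ 4 + (62177958521/7812500) * u * u2 * w ^ 2 * w2 ^ 3 + (91531249369/15625000) * u * u2 * w ^ 3 * w2 ^ 2 + (16692711049/7812500) * u * u2 * w ^ 4 * w2 + (97084587521/312500000) * u * u2 * w ^ 5 + (47674685779/78125000) * u ^ 2 * w2 ^ 5 + (76709623431/31250000) * u ^ 2 * w * w2 ^ 4 + (123190810183/31250000) * u ^ 2 * w ^ 2 * w2 ^ 3 + (201983785283/62500000) * u ^ 2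 * w ^ 3 * w2 ^ 2 + (13663142563/10000000) * u ^ 2 * w ^ 4 * w2 + (596104980143/2500000000) * u ^ 2 * w ^ 5 := by
    subst hu hu2 hw hw2
    unfold QqPoly
    ring
  rw [key]
  positivity

theorem Qq_rect_2 (r t : ℝ) (h1 : 0 ≤ r) (h2 : r ≤ (1/4)) (h3 : (5/14) ≤ t) (h4 : t ≤ (5/7)) : 0 ≤ QqPoly r t := by
  obtain ⟨u, hu⟩ : ∃ u, u = r - 0 := ⟨_, rfl⟩
  obtain ⟨u2, hu2⟩ : ∃ u2, u2 = (1/4) - r := ⟨_, rfl⟩
  obtain ⟨w, hw⟩ : ∃ w, w = t - (5/14) := ⟨_, rfl⟩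
  obtain ⟨w2, hw2⟩ : ∃ w2, w2 = (5/7) - t := ⟨_, rfl⟩
  have h5 : 0 ≤ u := by rw [hu]; linarith
  have h6 : 0 ≤ u2 := by rw [hu2]; linarith
  have h7 : 0 ≤ w := by rw [hw]; linarith
  have h8 : 0 ≤ w2 := by rw [hw2]; linarith
  have key : QqPoly r t = (97690531/781250) * u2 ^ 2 * w2 ^ 5 + (557624519/1953125) * u2 ^ 2 * w * w2 ^ 4 + (381420076/1953125) * u2 ^ 2 * w ^ 2 * w2 ^ 3 + (185895364/1953125) * u2 ^ 2 * w ^ 3 * w2 ^ 2 + (195980376/1953125) * u2 ^ 2 * w ^ 4 * w2 + (84931584/1953125) * u2 ^ 2 * w ^ 5 + (97084587521/312500000) * u * u2 * w2 ^ 5 + (1212549733/1250000) * u * u2 * w * w2 ^ 4 + (18617047627/15625000) * u * u2 * w ^ 2 * w2 ^ 3 + (1489974863/1953125) * u * u2 * w ^ 3 * w2 ^ 2 + (485394216/1953125) * u * u2 * w ^ 4 * w2 + (267954888/9765625) * u * u2 * w ^ 5 + (596104980143/2500000000) * u ^ 2 * w2 ^ 5 + (63631604017/62500000) * u ^ 2 * w * w2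 ^ 4 + (28732909319/15625000) * u ^ 2 * w ^ 2 * w2 ^ 3 + (3383114599/1953125) * u ^ 2 * w ^ 3 * w2 ^ 2 + (320497728/390625) * u ^ 2 * w ^ 4 * w2 + (1501917768/9765625) * u ^ 2 * w ^ 5 := by
    subst hu hu2 hw hw2
    unfold QqPoly
    ring
  rw [key]
  positivity

theorem Qq_rect_3 (r t : ℝ) (h1 : (1/4) ≤ r) (h2 : r ≤ (1/2)) (h3 : 0 ≤ t) (h4 : t ≤ (5/7)) : 0 ≤ QqPoly r t := by
  obtain ⟨u, hu⟩ : ∃ u, u = r - (1/4) := ⟨_, rfl⟩
  obtain ⟨u2, hu2⟩ : ∃ u2, u2 = (1/2) - r := ⟨_, rfl⟩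
  obtain ⟨w, hw⟩ : ∃ w, w = t - 0 := ⟨_, rfl⟩
  obtain ⟨w2, hw2⟩ : ∃ w2, w2 = (5/7) - t := ⟨_, rfl⟩
  have h5 : 0 ≤ u := by rw [hu]; linarith
  have h6 : 0 ≤ u2 := by rw [hu2]; linarith
  have h7 : 0 ≤ w := by rw [hw]; linarith
  have h8 : 0 ≤ w2 := by rw [hw2]; linarith
  have key : QqPoly r t = (47674685779/2500000000) * u2 ^ 2 * w2 ^ 5 + (7258734413/125000000) * u2 ^ 2 * w * w2 ^ 4 + (174462491/2500000) * u2 ^ 2 * w ^ 2 * w2 ^ 3 + (929096203/15625000) * u2 ^ 2 * w ^ 3 * w2 ^ 2 + (212882439/7812500) * u2 ^ 2 * w ^ 4 * w2 + (187739721/39062500) * u2 ^ 2 * w ^ 5 + (20899487693/625000000) * u * u2 * w2 ^ 5 + (7173321239/62500000) * u * u2 * w * w2 ^ 4 + (11420079013/62500000) * u * u2 * w ^ 2 * w2 ^ 3 + (3063220937/15625000) * u * u2 * w ^ 3 * w2 ^ 2 + (763675563/7812500) * u * u2 * w ^ 4 * w2 + (717464523/39062500) * u * u2 * w ^ 5 + (9204874567/625000000)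 * u ^ 2 * w2 ^ 5 + (186800201/3125000) * u ^ 2 * w * w2 ^ 4 + (3858486919/31250000) * u ^ 2 * w ^ 2 * w2 ^ 3 + (1208160317/7812500) * u ^ 2 * w ^ 3 * w2 ^ 2 + (167933556/1953125) * u ^ 2 * w ^ 4 * w2 + (368526201/19531250) * u ^ 2 * w ^ 5 := by
    subst hu hu2 hw hw2
    unfold QqPoly
    ring
  rw [key]
  positivity

theorem Qq_rect_4 (r t : ℝ) (h1 : (1/2) ≤ r) (h2 : r ≤ (3/4)) (h3 : (-5/7) ≤ t) (h4 : t ≤ 0) : 0 ≤ QqPoly r t := by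
  obtain ⟨u, hu⟩ : ∃ u, u = r - (1/2) := ⟨_, rfl⟩
  obtain ⟨u2, hu2⟩ : ∃ u2, u2 = (3/4) - r := ⟨_, rfl⟩
  obtain ⟨w, hw⟩ : ∃ w, w = t - (-5/7) := ⟨_, rfl⟩
  obtain ⟨w2, hw2⟩ : ∃ w2, w2 = 0 - t := ⟨_, rfl⟩
  have h5 : 0 ≤ u := by rw [hu]; linarith
  have h6 : 0 ≤ u2 := by rw [hu2]; linarith
  have h7 : 0 ≤ w := by rw [hw]; linarith
  have h8 : 0 ≤ w2 := by rw [hw2]; linarith
  have key : QqPoly r t = (725830811/19531250) * u2 ^ 2 * w2 ^ 5 + (16754122/78125) * u2 ^ 2 * w * w2 ^ 4 + (5152865137/15625000) * u2 ^ 2 * w ^ 2 * w2 ^ 3 + (7324219973/31250000) * u2 ^ 2 * w ^ 3 * w2 ^ 2 + (5468870547/62500000) * u2 ^ 2 * w ^ 4 * w2 + (9204874567/625000000) * u2 ^ 2 * w ^ 5 + (235340669/3906250) * u * u2 * w2 ^ 5 + (5456187709/15625000) * u * u2 * w * w2 ^ 4 + (15571030027/31250000) * u * u2 * w ^ 2 * w2 ^ 3 + (20962299911/62500000) * u * u2 * w ^ 3 * w2 ^ 2 + (4074657867/31250000)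 * u * u2 * w ^ 4 * w2 + (636800423/25000000) * u * u2 * w ^ 5 + (1803543461/78125000) * u ^ 2 * w2 ^ 5 + (4211099893/31250000) * u ^ 2 * w * w2 ^ 4 + (2633956339/15625000) * u ^ 2 * w ^ 2 * w2 ^ 3 + (158303761/1562500) * u ^ 2 * w ^ 3 * w2 ^ 2 + (10849814073/250000000) * u ^ 2 * w ^ 4 * w2 + (27756777307/2500000000) * u ^ 2 * w ^ 5 := by
    subst hu hu2 hw hw2
    unfold QqPoly
    ring
  rw [key]
  positivity

theorem Qq_rect_5 (r t : ℝ) (h1 : (3/4) ≤ r) (h2 : r ≤ 1) (h3 : (-5/7) ≤ t) (h4 : t ≤ (-5/14)) : 0 ≤ QqPoly r t := by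
  obtain ⟨u, hu⟩ : ∃ u, u = r - (3/4) := ⟨_, rfl⟩
  obtain ⟨u2, hu2⟩ : ∃ u2, u2 = 1 - r := ⟨_, rfl⟩
  obtain ⟨w, hw⟩ : ∃ w, w = t - (-5/7) := ⟨_, rfl⟩
  obtain ⟨w2, hw2⟩ : ∃ w2, w2 = (-5/14) - t := ⟨_, rfl⟩
  have h5 : 0 ≤ u := by rw [hu]; linarith
  have h6 : 0 ≤ u2 := by rw [hu2]; linarith
  have h7 : 0 ≤ w := by rw [hw]; linarith
  have h8 : 0 ≤ w2 := by rw [hw2]; linarith
  have key : QqPoly r t = (7214173844/9765625) * u2 ^ 2 * w2 ^ 5 + (1563637363/390625) * u2 ^ 2 * w * w2 ^ 4 + (14663243047/1953125) * u2 ^ 2 * w ^ 2 * w2 ^ 3 + (12862646614/1953125) * u2 ^ 2 * w ^ 3 * w2 ^ 2 + (351548813817/125000000) * u2 ^ 2 * w ^ 4 * w2 + (1205575332069/2500000000) * u2 ^ 2 * w ^ 5 + (10029441856/9765625) * u * u2 * w2 ^ 5 + (10946745082/1953125) * u * u2 * w * w2 ^ 4 + (39258159157/3906250) * u * u2 * w ^ 2 * w2 ^ 3 + (128613199519/15625000) * u * u2 * w ^ 3 * w2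 ^ 2 + (20384492247/6250000) * u * u2 * w ^ 4 * w2 + (20701034319/39062500) * u * u2 * w ^ 5 + (2815481312/9765625) * u ^ 2 * w2 ^ 5 + (3129038192/1953125) * u ^ 2 * w * w2 ^ 4 + (4967996194/1953125) * u ^ 2 * w ^ 2 * w2 ^ 3 + (6437725133/3906250) * u ^ 2 * w ^ 3 * w2 ^ 2 + (882670257/1953125) * u ^ 2 * w ^ 4 * w2 + (7652478267/156250000) * u ^ 2 * w ^ 5 := by
    subst hu hu2 hw hw2
    unfold QqPoly
    ring
  rw [key]
  positivity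

theorem Qq_rect_6 (r t : ℝ) (h1 : (3/4) ≤ r) (h2 : r ≤ (7/8)) (h3 : (-5/14) ≤ t) (h4 : t ≤ 0) : 0 ≤ QqPoly r t := by
  obtain ⟨u, hu⟩ : ∃ u, u = r - (3/4) := ⟨_, rfl⟩
  obtain ⟨u2, hu2⟩ : ∃ u2, u2 = (7/8) - r := ⟨_, rfl⟩
  obtain ⟨w, hw⟩ : ∃ w, w = t - (-5/14) := ⟨_, rfl⟩
  obtain ⟨w2, hw2⟩ : ∃ w2, w2 = 0 - t := ⟨_, rfl⟩
  have h5 : 0 ≤ u := by rw [hu]; linarith
  have h6 : 0 ≤ u2 := by rw [hu2]; linarith
  have h7 : 0 ≤ w := by rw [hw]; linarith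
  have h8 : 0 ≤ w2 := by rw [hw2]; linarith
  have key : QqPoly r t = (1205575332069/625000000) * u2 ^ 2 * w2 ^ 5 + (100495540887/12500000) * u2 ^ 2 * w * w2 ^ 4 + (210984768449/15625000) * u2 ^ 2 * w ^ 2 * w2 ^ 3 + (96484635359/7812500) * u2 ^ 2 * w ^ 3 * w2 ^ 2 + (49456405453/7812500) * u2 ^ 2 * w ^ 4 * w2 + (27756777307/19531250) * u2 ^ 2 * w ^ 5 + (1868008430277/625000000) * u * u2 * w2 ^ 5 + (757220957703/62500000) * u * u2 * w * w2 ^ 4 + (63052915163/3125000) * u * u2 * w ^ 2 * w2 ^ 3 + (150494759233/7812500) * u * u2 * w ^ 3 * w2 ^ 2 + (83931932273/7812500) * u * u2 * w ^ 4 * w2 + (51430310771/19531250) * u * u2 * w ^ 5 + (2652881180757/2500000000) * u ^ 2 * w2 ^ 5 + (1021422070347/250000000) * u ^ 2 * w * w2 ^ 4 + (419024051789/62500000) * u ^ 2 * w ^ 2 * w2 ^ 3 + (217522023971/31250000) * u ^ 2 * w ^ 3 * w2 ^ 2 + (27810881441/6250000) * u ^ 2 * w ^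 4 * w2 + (95590367131/78125000) * u ^ 2 * w ^ 5 := by
    subst hu hu2 hw hw2
    unfold QqPoly
    ring
  rw [key]
  positivity

theorem Qq_rect_7 (r t : ℝ) (h1 : (7/8) ≤ r) (h2 : r ≤ 1) (h3 : (-5/14) ≤ t) (h4 : t ≤ (-5/28)) : 0 ≤ QqPoly r t := by
  obtain ⟨u, hu⟩ : ∃ u, u = r - (7/8) := ⟨_, rfl⟩
  obtain ⟨u2, hu2⟩ : ∃ u2, u2 = 1 - r := ⟨_, rfl⟩
  obtain ⟨w, hw⟩ : ∃ w, w = t - (-5/14) := ⟨_, rfl⟩
  obtain ⟨w2, hw2⟩ : ∃ w2, w2 = (-5/28) - t := ⟨_, rfl⟩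
  have h5 : 0 ≤ u := by rw [hu]; linarith
  have h6 : 0 ≤ u2 := by rw [hu2]; linarith
  have h7 : 0 ≤ w := by rw [hw]; linarith
  have h8 : 0 ≤ w2 := by rw [hw2]; linarith
  have key : QqPoly r t = (2652881180757/78125000) * u2 ^ 2 * w2 ^ 5 + (4695725321451/31250000) * u2 ^ 2 * w * w2 ^ 4 + (8414665669301/31250000) * u2 ^ 2 * w ^ 2 * w2 ^ 3 + (621995136643/2500000) * u2 ^ 2 * w ^ 3 * w2 ^ 2 + (30066410268821/250000000) * u2 ^ 2 * w ^ 4 * w2 + (61213070198059/2500000000) * u2 ^ 2 * w ^ 5 + (78487275048/1953125) * u * u2 * w2 ^ 5 + (328318743942/1953125) * u * u2 * w * w2 ^ 4 + (564178776238/1953125) * u * u2 * w ^ 2 * w2 ^ 3 + (518926406992/1953125) * u * u2 * w ^ 3 * w2 ^ 2 + (262985660798/1953125) * u * u2 * w ^ 4 * w2 + (18762363893/625000) * u * u2 * w ^ 5 + (61219826136/9765625) * u ^ 2 * w2 ^ 5 + (35338842756/1953125) * u ^ 2 * w * w2 ^ 4 + (39547441052/1953125)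 * u ^ 2 * w ^ 2 * w2 ^ 3 + (34634994842/1953125) * u ^ 2 * w ^ 3 * w2 ^ 2 + (58282140707/3906250) * u ^ 2 * w ^ 4 * w2 + (221556302569/39062500) * u ^ 2 * w ^ 5 := by
    subst hu hu2 hw hw2
    unfold QqPoly
    ring
  rw [key]
  positivity

theorem Qq_rect_8 (r t : ℝ) (h1 : (7/8) ≤ r) (h2 : r ≤ 1) (h3 : (-5/28) ≤ t) (h4 : t ≤ 0) : 0 ≤ QqPoly r t := by
  obtain ⟨u, hu⟩ : ∃ u, u = r - (7/8) := ⟨_, rfl⟩
  obtain ⟨u2, hu2⟩ : ∃ u2, u2 = 1 - r := ⟨_, rfl⟩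
  obtain ⟨w, hw⟩ : ∃ w, w = t - (-5/28) := ⟨_, rfl⟩
  obtain ⟨w2, hw2⟩ : ∃ w2, w2 = 0 - t := ⟨_, rfl⟩
  have h5 : 0 ≤ u := by rw [hu]; linarith
  have h6 : 0 ≤ u2 := by rw [hu2]; linarith
  have h7 : 0 ≤ w := by rw [hw]; linarith
  have h8 : 0 ≤ w2 := by rw [hw2]; linarith
  have key : QqPoly r t = (61213070198059/2500000000) * u2 ^ 2 * w2 ^ 5 + (15573329964619/125000000) * u2 ^ 2 * w * w2 ^ 4 + (4157532019123/15625000) * u2 ^ 2 * w ^ 2 * w2 ^ 3 + (231220224263/781250) * u2 ^ 2 * w ^ 3 * w2 ^ 2 + (330235141467/1953125) * u2 ^ 2 * w ^ 4 * w2 + (382361468524/9765625) * u2 ^ 2 * w ^ 5 + (18762363893/625000) * u * u2 * w2 ^ 5 + (1293352843433/7812500) * u * u2 * w * w2 ^ 4 + (760336607233/1953125) * u * u2 * w ^ 2 * w2 ^ 3 + (928314779812/1953125) * u * u2 * w ^ 3 * w2 ^ 2 + (573770350608/1953125) * u * u2 * w ^ 4 * w2 + (141312180352/1953125) * u * u2 * w ^ 5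 + (221556302569/39062500) * u ^ 2 * w2 ^ 5 + (81637080931/1953125) * u ^ 2 * w * w2 ^ 4 + (244619037152/1953125) * u ^ 2 * w ^ 2 * w2 ^ 3 + (355102049792/1953125) * u ^ 2 * w ^ 3 * w2 ^ 2 + (246479975616/1953125) * u ^ 2 * w ^ 4 * w2 + (327784366336/9765625) * u ^ 2 * w ^ 5 := by
    subst hu hu2 hw hw2
    unfold QqPoly
    ring
  rw [key]
  positivity

theorem Qq_rect_9 (r t : ℝ) (h1 : (1/2) ≤ r) (h2 : r ≤ 1) (h3 : 0 ≤ t) (h4 : t ≤ (5/7)) : 0 ≤ QqPoly r t := by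
  obtain ⟨u, hu⟩ : ∃ u, u = r - (1/2) := ⟨_, rfl⟩
  obtain ⟨u2, hu2⟩ : ∃ u2, u2 = 1 - r := ⟨_, rfl⟩
  obtain ⟨w, hw⟩ : ∃ w, w = t - 0 := ⟨_, rfl⟩
  obtain ⟨w2, hw2⟩ : ∃ w2, w2 = (5/7) - t := ⟨_, rfl⟩
  have h5 : 0 ≤ u := by rw [hu]; linarith
  have h6 : 0 ≤ u2 := by rw [hu2]; linarith
  have h7 : 0 ≤ w := by rw [hw]; linarith
  have h8 : 0 ≤ w2 := by rw [hw2]; linarith
  have key : QqPoly r t = (9204874567/2500000000) * u2 ^ 2 * w2 ^ 5 + (186800201/12500000) * u2 ^ 2 * w * w2 ^ 4 + (3858486919/125000000) * u2 ^ 2 * w ^ 2 * w2 ^ 3 + (1208160317/31250000) * u2 ^ 2 * w ^ 3 * w2 ^ 2 + (41983389/1953125) * u2 ^ 2 * w ^ 4 * w2 + (368526201/78125000) * u2 ^ 2 * w ^ 5 + (839392001/156250000) * u * u2 * w2 ^ 5 + (4034690821/125000000) * u * u2 * w * w2 ^ 4 + (11730842501/125000000) * u * u2 * w ^ 2 * w2 ^ 3 + (837148193/6250000) * u * u2 * w ^ 3 * w2 ^ 2 + (1251527109/15625000)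 * u * u2 * w ^ 4 * w2 + (1493692683/78125000) * u * u2 * w ^ 5 + (1280407681/625000000) * u ^ 2 * w2 ^ 5 + (1275394393/62500000) * u ^ 2 * w * w2 ^ 4 + (4594634891/62500000) * u ^ 2 * w ^ 2 * w2 ^ 3 + (221373278/1953125) * u ^ 2 * w ^ 3 * w2 ^ 2 + (1157542197/15625000) * u ^ 2 * w ^ 4 * w2 + (769910841/39062500) * u ^ 2 * w ^ 5 := by
    subst hu hu2 hw hw2
    unfold QqPoly
    ring
  rw [key]
  positivity

theorem Qq_rect_10 (r t : ℝ) (h1 : 0 ≤ r) (h2 : r ≤ (1/8)) (h3 : (5/7) ≤ t) (h4 : t ≤ (15/14)) : 0 ≤ QqPoly r t := by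
  obtain ⟨u, hu⟩ : ∃ u, u = r - 0 := ⟨_, rfl⟩
  obtain ⟨u2, hu2⟩ : ∃ u2, u2 = (1/8) - r := ⟨_, rfl⟩
  obtain ⟨w, hw⟩ : ∃ w, w = t - (5/7) := ⟨_, rfl⟩
  obtain ⟨w2, hw2⟩ : ∃ w2, w2 = (15/14) - t := ⟨_, rfl⟩
  have h5 : 0 ≤ u := by rw [hu]; linarith
  have h6 : 0 ≤ u2 := by rw [hu2]; linarith
  have h7 : 0 ≤ w := by rw [hw]; linarith
  have h8 : 0 ≤ w2 := by rw [hw2]; linarith
  have key : QqPoly r t = (339726336/1953125) * u2 ^ 2 * w2 ^ 5 + (2613341856/1953125) * u2 ^ 2 * w * w2 ^ 4 + (8061262864/1953125) * u2 ^ 2 * w ^ 2 * w2 ^ 3 + (11299799216/1953125) * u2 ^ 2 * w ^ 3 * w2 ^ 2 + (7143373084/1953125) * u2 ^ 2 * w ^ 4 * w2 + (1658519962/1953125) * u2 ^ 2 * w ^ 5 + (2234541456/9765625) * u * u2 * w2 ^ 5 + (2714372976/1953125) * u * u2 * w * w2 ^ 4 + (7562183342/1953125) * u * u2 * w ^ 2 * w2 ^ 3 + (39203478853/7812500) * u * u2 * w ^ 3 * w2 ^ 2 + (44674133413/15625000)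 * u * u2 * w ^ 4 * w2 + (91452502771/156250000) * u * u2 * w ^ 5 + (2194530576/9765625) * u ^ 2 * w2 ^ 5 + (421039584/390625) * u ^ 2 * w * w2 ^ 4 + (4344323578/1953125) * u ^ 2 * w ^ 2 * w2 ^ 3 + (17414063639/7812500) * u ^ 2 * w ^ 3 * w2 ^ 2 + (63255872939/62500000) * u ^ 2 * w ^ 4 * w2 + (434091513401/2500000000) * u ^ 2 * w ^ 5 := by
    subst hu hu2 hw hw2
    unfold QqPoly
    ring
  rw [key]
  positivity

theorem Qq_rect_11 (r t : ℝ) (h1 : (1/8) ≤ r) (h2 : r ≤ (1/4)) (h3 : (5/7) ≤ t) (h4 : t ≤ (15/14)) : 0 ≤ QqPoly r t := by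
  obtain ⟨u, hu⟩ : ∃ u, u = r - (1/8) := ⟨_, rfl⟩
  obtain ⟨u2, hu2⟩ : ∃ u2, u2 = (1/4) - r := ⟨_, rfl⟩
  obtain ⟨w, hw⟩ : ∃ w, w = t - (5/7) := ⟨_, rfl⟩
  obtain ⟨w2, hw2⟩ : ∃ w2, w2 = (15/14) - t := ⟨_, rfl⟩
  have h5 : 0 ≤ u := by rw [hu]; linarith
  have h6 : 0 ≤ u2 := by rw [hu2]; linarith
  have h7 : 0 ≤ w := by rw [hw]; linarith
  have h8 : 0 ≤ w2 := by rw [hw2]; linarith
  have key : QqPoly r t = (2194530576/9765625) * u2 ^ 2 * w2 ^ 5 + (421039584/390625) * u2 ^ 2 * w * w2 ^ 4 + (4344323578/1953125) * u2 ^ 2 * w ^ 2 * w2 ^ 3 + (17414063639/7812500) * u2 ^ 2 * w ^ 3 * w2 ^ 2 + (63255872939/62500000) * u2 ^ 2 * w ^ 4 * w2 + (434091513401/2500000000) * u2 ^ 2 * w ^ 5 + (6543580848/9765625) * u * u2 * w2 ^ 5 + (5706418704/1953125) * u * u2 * w * w2 ^ 4 + (1963022194/390625) * u * u2 * w ^ 2 * w2 ^ 3 + (30452775703/7812500) * u * u2 * w ^ 3 * w2 ^ 2 + (9290869763/7812500)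 * u * u2 * w ^ 4 * w2 + (68281502317/625000000) * u * u2 * w ^ 5 + (6007671072/9765625) * u ^ 2 * w2 ^ 5 + (5605387584/1953125) * u ^ 2 * w * w2 ^ 4 + (10314190492/1953125) * u ^ 2 * w ^ 2 * w2 ^ 3 + (18224246857/3906250) * u ^ 2 * w ^ 3 * w2 ^ 2 + (6210918157/3125000) * u ^ 2 * w ^ 4 * w2 + (233197879073/625000000) * u ^ 2 * w ^ 5 := by
    subst hu hu2 hw hw2
    unfold QqPoly
    ring
  rw [key]
  positivity

theorem Qq_rect_12 (r t : ℝ) (h1 : 0 ≤ r) (h2 : r ≤ (1/8)) (h3 : (15/14) ≤ t) (h4 : t ≤ (10/7)) : 0 ≤ QqPoly r t := by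
  obtain ⟨u, hu⟩ : ∃ u, u = r - 0 := ⟨_, rfl⟩
  obtain ⟨u2, hu2⟩ : ∃ u2, u2 = (1/8) - r := ⟨_, rfl⟩
  obtain ⟨w, hw⟩ : ∃ w, w = t - (15/14) := ⟨_, rfl⟩
  obtain ⟨w2, hw2⟩ : ∃ w2, w2 = (10/7) - t := ⟨_, rfl⟩
  have h5 : 0 ≤ u := by rw [hu]; linarith
  have h6 : 0 ≤ u2 := by rw [hu2]; linarith
  have h7 : 0 ≤ w := by rw [hw]; linarith
  have h8 : 0 ≤ w2 := by rw [hw2]; linarith
  have key : QqPoly r t = (1658519962/1953125) * u2 ^ 2 * w2 ^ 5 + (9441826536/1953125) * u2 ^ 2 * w * w2 ^ 4 + (20493613024/1953125) * u2 ^ 2 * w ^ 2 * w2 ^ 3 + (20978175376/1953125) * u2 ^ 2 * w ^ 3 * w2 ^ 2 + (10059539264/1953125) * u2 ^ 2 * w ^ 4 * w2 + (1818969088/1953125) * u2 ^ 2 * w ^ 5 + (91452502771/156250000) * u * u2 * w2 ^ 5 + (23389184679/7812500) * u * u2 * w * w2 ^ 4 + (43411950743/7812500) * u * u2 * w ^ 2 * w2 ^ 3 + (17346274939/3906250) * u * u2 * w ^ 3 * w2 ^ 2 + (2832045286/1953125)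 * u * u2 * w ^ 4 * w2 + (1863981406/9765625) * u * u2 * w ^ 5 + (434091513401/2500000000) * u ^ 2 * w2 ^ 5 + (36213604329/50000000) * u ^ 2 * w * w2 ^ 4 + (67357039001/62500000) * u ^ 2 * w ^ 2 * w2 ^ 3 + (23449388221/31250000) * u ^ 2 * w ^ 3 * w2 ^ 2 + (13519058777/31250000) * u ^ 2 * w ^ 4 * w2 + (17866962253/78125000) * u ^ 2 * w ^ 5 := by
    subst hu hu2 hw hw2
    unfold QqPoly
    ring
  rw [key]
  positivity

theorem Qq_rect_13 (r t : ℝ) (h1 : (1/8) ≤ r) (h2 : r ≤ (3/16)) (h3 : (15/14) ≤ t) (h4 : t ≤ (5/4)) : 0 ≤ QqPoly r t := by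
  obtain ⟨u, hu⟩ : ∃ u, u = r - (1/8) := ⟨_, rfl⟩
  obtain ⟨u2, hu2⟩ : ∃ u2, u2 = (3/16) - r := ⟨_, rfl⟩
  obtain ⟨w, hw⟩ : ∃ w, w = t - (15/14) := ⟨_, rfl⟩
  obtain ⟨w2, hw2⟩ : ∃ w2, w2 = (5/4) - t := ⟨_, rfl⟩
  have h5 : 0 ≤ u := by rw [hu]; linarith
  have h6 : 0 ≤ u2 := by rw [hu2]; linarith
  have h7 : 0 ≤ w := by rw [hw]; linarith
  have h8 : 0 ≤ w2 := by rw [hw2]; linarith
  have key : QqPoly r t = (434091513401/19531250) * u2 ^ 2 * w2 ^ 5 + (796227556691/7812500) * u2 ^ 2 * w * w2 ^ 4 + (285558351197/1562500) * u2 ^ 2 * w ^ 2 * w2 ^ 3 + (2516379217051/15625000) * u2 ^ 2 * w ^ 3 * w2 ^ 2 + (4465889986089/62500000) * u2 ^ 2 * w ^ 4 * w2 + (8468271841827/625000000) * u2 ^ 2 * w ^ 5 + (114130903607/3906250) * u * u2 * w2 ^ 5 + (908608738177/7812500) * u * u2 * w * w2 ^ 4 + (1360256214443/7812500) * u * u2 * w ^ 2 * w2 ^ 3 + (1933301466089/15625000) * u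 * u2 * w ^ 3 * w2 ^ 2 + (2921862037059/62500000) * u * u2 * w ^ 4 * w2 + (1276621450461/125000000) * u * u2 * w ^ 5 + (1640009038961/78125000) * u ^ 2 * w2 ^ 5 + (2825617563419/31250000) * u ^ 2 * w * w2 ^ 4 + (4891714687657/31250000) * u ^ 2 * w ^ 2 * w2 ^ 3 + (8881378023427/62500000) * u ^ 2 * w ^ 3 * w2 ^ 2 + (3636932183661/50000000) * u ^ 2 * w ^ 4 * w2 + (44581020297387/2500000000) * u ^ 2 * w ^ 5 := by
    subst hu hu2 hw hw2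
    unfold QqPoly
    ring
  rw [key]
  positivity

theorem Qq_rect_14 (r t : ℝ) (h1 : (3/16) ≤ r) (h2 : r ≤ (1/4)) (h3 : (15/14) ≤ t) (h4 : t ≤ (5/4)) : 0 ≤ QqPoly r t := by
  obtain ⟨u, hu⟩ : ∃ u, u = r - (3/16) := ⟨_, rfl⟩
  obtain ⟨u2, hu2⟩ : ∃ u2, u2 = (1/4) - r := ⟨_, rfl⟩
  obtain ⟨w, hw⟩ : ∃ w, w = t - (15/14) := ⟨_, rfl⟩
  obtain ⟨w2, hw2⟩ : ∃ w2, w2 = (5/4) - t := ⟨_, rfl⟩
  have h5 : 0 ≤ u := by rw [hu]; linarith
  have h6 : 0 ≤ u2 := by rw [hu2]; linarith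
  have h7 : 0 ≤ w := by rw [hw]; linarith
  have h8 : 0 ≤ w2 := by rw [hw2]; linarith
  have key : QqPoly r t = (1640009038961/78125000) * u2 ^ 2 * w2 ^ 5 + (2825617563419/31250000) * u2 ^ 2 * w * w2 ^ 4 + (4891714687657/31250000) * u2 ^ 2 * w ^ 2 * w2 ^ 3 + (8881378023427/62500000) * u2 ^ 2 * w ^ 3 * w2 ^ 2 + (3636932183661/50000000) * u2 ^ 2 * w ^ 4 * w2 + (44581020297387/2500000000) * u2 ^ 2 * w ^ 5 + (534677260463/9765625) * u * u2 * w2 ^ 5 + (958504412621/3906250) * u * u2 * w * w2 ^ 4 + (1765729236607/3906250) * u * u2 * w ^ 2 * w2 ^ 3 + (3474038278669/7812500) * u * u2 * w ^ 3 * w2 ^ 2 + (7631399440623/31250000) * u * u2 * w ^ 4 * w2 + (19098956522541/312500000) * u * u2 * w ^ 5 + (466395758146/9765625) * u ^ 2 * w2 ^ 5 + (451156910939/1953125) * u ^ 2 * w * w2 ^ 4 + (899748503689/1953125) * u ^ 2 * w ^ 2 * w2 ^ 3 + (75311543083/156250) * u ^ 2 * w ^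 3 * w2 ^ 2 + (4201706707569/15625000) * u ^ 2 * w ^ 4 * w2 + (10070769408651/156250000) * u ^ 2 * w ^ 5 := by
    subst hu hu2 hw hw2
    unfold QqPoly
    ring
  rw [key]
  positivity

theorem Qq_rect_15 (r t : ℝ) (h1 : (1/8) ≤ r) (h2 : r ≤ (3/16)) (h3 : (5/4) ≤ t) (h4 : t ≤ (10/7)) : 0 ≤ QqPoly r t := by
  obtain ⟨u, hu⟩ : ∃ u, u = r - (1/8) := ⟨_, rfl⟩
  obtain ⟨u2, hu2⟩ : ∃ u2, u2 = (3/16) - r := ⟨_, rfl⟩
  obtain ⟨w, hw⟩ : ∃ w, w = t - (5/4) := ⟨_, rfl⟩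
  obtain ⟨w2, hw2⟩ : ∃ w2, w2 = (10/7) - t := ⟨_, rfl⟩
  have h5 : 0 ≤ u := by rw [hu]; linarith
  have h6 : 0 ≤ u2 := by rw [hu2]; linarith
  have h7 : 0 ≤ w := by rw [hw]; linarith
  have h8 : 0 ≤ w2 := by rw [hw2]; linarith
  have key : QqPoly r t = (8468271841827/625000000) * u2 ^ 2 * w2 ^ 5 + (2001190927869/31250000) * u2 ^ 2 * w * w2 ^ 4 + (20528710867/156250) * u2 ^ 2 * w ^ 2 * w2 ^ 3 + (297986944682/1953125) * u2 ^ 2 * w ^ 3 * w2 ^ 2 + (197011933132/1953125) * u2 ^ 2 * w ^ 4 * w2 + (285871396048/9765625) * u2 ^ 2 * w ^ 5 + (1276621450461/125000000) * u * u2 * w2 ^ 5 + (1730622607623/31250000) * u * u2 * w * w2 ^ 4 + (618171161069/3906250) * u * u2 * w ^ 2 * w2 ^ 3 + (514292331238/1953125) * u * u2 * w ^ 3 * w2 ^ 2 + (440762945252/1953125) * u * u2 * w ^ 4 * w2 + (147663875632/1953125) * u * u2 * w ^ 5 + (44581020297387/2500000000) * u ^ 2 * w2 ^ 5 +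 (13198179689541/125000000) * u ^ 2 * w * w2 ^ 4 + (4273269121051/15625000) * u ^ 2 * w ^ 2 * w2 ^ 3 + (1472432115637/3906250) * u ^ 2 * w ^ 3 * w2 ^ 2 + (104867544719/390625) * u ^ 2 * w ^ 4 * w2 + (755303480212/9765625) * u ^ 2 * w ^ 5 := by
    subst hu hu2 hw hw2
    unfold QqPoly
    ring
  rw [key]
  positivity

theorem Qq_rect_16 (r t : ℝ) (h1 : (3/16) ≤ r) (h2 : r ≤ (1/4)) (h3 : (5/4) ≤ t) (h4 : t ≤ (10/7)) : 0 ≤ QqPoly r t := by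
  obtain ⟨u, hu⟩ : ∃ u, u = r - (3/16) := ⟨_, rfl⟩
  obtain ⟨u2, hu2⟩ : ∃ u2, u2 = (1/4) - r := ⟨_, rfl⟩
  obtain ⟨w, hw⟩ : ∃ w, w = t - (5/4) := ⟨_, rfl⟩
  obtain ⟨w2, hw2⟩ : ∃ w2, w2 = (10/7) - t := ⟨_, rfl⟩
  have h5 : 0 ≤ u := by rw [hu]; linarith
  have h6 : 0 ≤ u2 := by rw [hu2]; linarith
  have h7 : 0 ≤ w := by rw [hw]; linarith
  have h8 : 0 ≤ w2 := by rw [hw2]; linarith
  have key : QqPoly r t = (44581020297387/2500000000) * u2 ^ 2 * w2 ^ 5 + (13198179689541/125000000) * u2 ^ 2 * w * w2 ^ 4 + (4273269121051/15625000) * u2 ^ 2 * w ^ 2 * w2 ^ 3 + (1472432115637/3906250) * u2 ^ 2 * w ^ 3 * w2 ^ 2 + (104867544719/390625) * u2 ^ 2 * w ^ 4 * w2 + (755303480212/9765625) * u2 ^ 2 * w ^ 5 + (19098956522541/312500000) * u * u2 * w2 ^ 5 + (5733778540959/15625000) * u * u2 * w * w2 ^ 4 + (1827548979991/1953125) * u * u2 * w ^ 2 * w2 ^ 3 + (2430571900036/1953125)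 * u * u2 * w ^ 3 * w2 ^ 2 + (1656587949128/1953125) * u * u2 * w ^ 4 * w2 + (2282894542688/9765625) * u * u2 * w ^ 5 + (10070769408651/156250000) * u ^ 2 * w2 ^ 5 + (2934531350541/7812500) * u ^ 2 * w * w2 ^ 4 + (1775072285294/1953125) * u ^ 2 * w ^ 2 * w2 ^ 3 + (442853302696/390625) * u ^ 2 * w ^ 3 * w2 ^ 2 + (1412836937008/1953125) * u ^ 2 * w ^ 4 * w2 + (1830446560576/9765625) * u ^ 2 * w ^ 5 := by
    subst hu hu2 hw hw2
    unfold QqPoly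
    ring
  rw [key]
  positivity

theorem Qq_rect_17 (r t : ℝ) (h1 : (1/4) ≤ r) (h2 : r ≤ (1/2)) (h3 : (5/7) ≤ t) (h4 : t ≤ (10/7)) : 0 ≤ QqPoly r t := by
  obtain ⟨u, hu⟩ : ∃ u, u = r - (1/4) := ⟨_, rfl⟩
  obtain ⟨u2, hu2⟩ : ∃ u2, u2 = (1/2) - r := ⟨_, rfl⟩
  obtain ⟨w, hw⟩ : ∃ w, w = t - (5/7) := ⟨_, rfl⟩
  obtain ⟨w2, hw2⟩ : ∃ w2, w2 = (10/7) - t := ⟨_, rfl⟩
  have h5 : 0 ≤ u := by rw [hu]; linarith
  have h6 : 0 ≤ u2 := by rw [hu2]; linarith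
  have h7 : 0 ≤ w := by rw [hw]; linarith
  have h8 : 0 ≤ w2 := by rw [hw2]; linarith
  have key : QqPoly r t = (187739721/39062500) * u2 ^ 2 * w2 ^ 5 + (162597003/7812500) * u2 ^ 2 * w * w2 ^ 4 + (105362543/3125000) * u2 ^ 2 * w ^ 2 * w2 ^ 3 + (1094002597/62500000) * u2 ^ 2 * w ^ 3 * w2 ^ 2 + (625031509/125000000) * u2 ^ 2 * w ^ 4 * w2 + (28600727509/2500000000) * u2 ^ 2 * w ^ 5 + (717464523/39062500) * u * u2 * w2 ^ 5 + (671253483/7812500) * u * u2 * w * w2 ^ 4 + (2323844297/15625000) * u * u2 * w ^ 2 * w2 ^ 3 + (7306974323/62500000) * u * u2 * w ^ 3 * w2 ^ 2 + (4862124979/62500000) * u * u2 * w ^ 4 * w2 + (35831591543/625000000) * u * u2 * w ^ 5 + (368526201/19531250) * u ^ 2 * w2 ^ 5 + (40118529/390625) * u ^ 2 * w * w2 ^ 4 + (1730705741/7812500) * u ^ 2 * w ^ 2 * w2 ^ 3 + (7822228913/31250000) * u ^ 2 * w ^ 3 * w2 ^ 2 + (2807561303/15625000) * u ^ 2 *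 w ^ 4 * w2 + (47609878297/625000000) * u ^ 2 * w ^ 5 := by
    subst hu hu2 hw hw2
    unfold QqPoly
    ring
  rw [key]
  positivity

theorem Qq_rect_18 (r t : ℝ) (h1 : 0 ≤ r) (h2 : r ≤ (1/8)) (h3 : (10/7) ≤ t) (h4 : t ≤ (25/14)) : 0 ≤ QqPoly r t := by
  obtain ⟨u, hu⟩ : ∃ u, u = r - 0 := ⟨_, rfl⟩
  obtain ⟨u2, hu2⟩ : ∃ u2, u2 = (1/8) - r := ⟨_, rfl⟩
  obtain ⟨w, hw⟩ : ∃ w, w = t - (10/7) := ⟨_, rfl⟩
  obtain ⟨w2, hw2⟩ : ∃ w2, w2 = (25/14) - t := ⟨_, rfl⟩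
  have h5 : 0 ≤ u := by rw [hu]; linarith
  have h6 : 0 ≤ u2 := by rw [hu2]; linarith
  have h7 : 0 ≤ w := by rw [hw]; linarith
  have h8 : 0 ≤ w2 := by rw [hw2]; linarith
  have key : QqPoly r t = (1818969088/1953125) * u2 ^ 2 * w2 ^ 5 + (8130151616/1953125) * u2 ^ 2 * w * w2 ^ 4 + (13260624784/1953125) * u2 ^ 2 * w ^ 2 * w2 ^ 3 + (9464023936/1953125) * u2 ^ 2 * w ^ 3 * w2 ^ 2 + (2817749544/1953125) * u2 ^ 2 * w ^ 4 * w2 + (330466614/1953125) * u2 ^ 2 * w ^ 5 + (1863981406/9765625) * u * u2 * w2 ^ 5 + (895917526/1953125) * u * u2 * w * w2 ^ 4 + (1857252859/3906250) * u * u2 * w ^ 2 * w2 ^ 3 + (12161811053/7812500) * u * u2 * w ^ 3 * w2 ^ 2 + (22844993619/7812500) * u * u2 * w ^ 4 * w2 + (251307319221/156250000) * u * u2 * w ^ 5 + (17866962253/78125000) * u ^ 2 * w2 ^ 5 + (11589758047/6250000) * u ^ 2 * w * w2 ^ 4 + (201168314053/31250000) * u ^ 2 * w ^ 2 *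 w2 ^ 3 + (708606382547/62500000) * u ^ 2 * w ^ 3 * w2 ^ 2 + (2467559956701/250000000) * u ^ 2 * w ^ 4 * w2 + (8409125253291/2500000000) * u ^ 2 * w ^ 5 := by
    subst hu hu2 hw hw2
    unfold QqPoly
    ring
  rw [key]
  positivity

theorem Qq_rect_19 (r t : ℝ) (h1 : (1/8) ≤ r) (h2 : r ≤ (1/4)) (h3 : (10/7) ≤ t) (h4 : t ≤ (25/14)) : 0 ≤ QqPoly r t := by
  obtain ⟨u, hu⟩ : ∃ u, u = r - (1/8) := ⟨_, rfl⟩
  obtain ⟨u2, hu2⟩ : ∃ u2, u2 = (1/4) - r := ⟨_, rfl⟩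
  obtain ⟨w, hw⟩ : ∃ w, w = t - (10/7) := ⟨_, rfl⟩
  obtain ⟨w2, hw2⟩ : ∃ w2, w2 = (25/14) - t := ⟨_, rfl⟩
  have h5 : 0 ≤ u := by rw [hu]; linarith
  have h6 : 0 ≤ u2 := by rw [hu2]; linarith
  have h7 : 0 ≤ w := by rw [hw]; linarith
  have h8 : 0 ≤ w2 := by rw [hw2]; linarith
  have key : QqPoly r t = (17866962253/78125000) * u2 ^ 2 * w2 ^ 5 + (11589758047/6250000) * u2 ^ 2 * w * w2 ^ 4 + (201168314053/31250000) * u2 ^ 2 * w ^ 2 * w2 ^ 3 + (708606382547/62500000) * u2 ^ 2 * w ^ 3 * w2 ^ 2 + (2467559956701/250000000) * u2 ^ 2 * w ^ 4 * w2 + (8409125253291/2500000000) * u2 ^ 2 * w ^ 5 + (14138999441/19531250) * u * u2 * w2 ^ 5 + (54365120131/7812500) * u * u2 * w * w2 ^ 4 + (39490761667/1562500) * u * u2 * w ^ 2 * w2 ^ 3 + (684282760441/15625000) * u * u2 * w ^ 3 * w2 ^ 2 + (2284800007749/62500000) * u * u2 * w ^ 4 * w2 + (7403895976407/625000000) * u * u2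 * w ^ 5 + (28600727509/19531250) * u ^ 2 * w2 ^ 5 + (83302056491/7812500) * u ^ 2 * w * w2 ^ 4 + (246781801753/7812500) * u ^ 2 * w ^ 2 * w2 ^ 3 + (735671329823/15625000) * u ^ 2 * w ^ 3 * w2 ^ 2 + (438441608841/12500000) * u ^ 2 * w ^ 4 * w2 + (6504416016003/625000000) * u ^ 2 * w ^ 5 := by
    subst hu hu2 hw hw2
    unfold QqPoly
    ring
  rw [key]
  positivity

theorem Qq_rect_20 (r t : ℝ) (h1 : 0 ≤ r) (h2 : r ≤ (1/4)) (h3 : (25/14) ≤ t) (h4 : t ≤ (15/7)) : 0 ≤ QqPoly r t := by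
  obtain ⟨u, hu⟩ : ∃ u, u = r - 0 := ⟨_, rfl⟩
  obtain ⟨u2, hu2⟩ : ∃ u2, u2 = (1/4) - r := ⟨_, rfl⟩
  obtain ⟨w, hw⟩ : ∃ w, w = t - (25/14) := ⟨_, rfl⟩
  obtain ⟨w2, hw2⟩ : ∃ w2, w2 = (15/7) - t := ⟨_, rfl⟩
  have h5 : 0 ≤ u := by rw [hu]; linarith
  have h6 : 0 ≤ u2 := by rw [hu2]; linarith
  have h7 : 0 ≤ w := by rw [hw]; linarith
  have h8 : 0 ≤ w2 := by rw [hw2]; linarith
  have key : QqPoly r t = (165233307/3906250) * u2 ^ 2 * w2 ^ 5 + (121729149/1953125) * u2 ^ 2 * w * w2 ^ 4 + (35173036/1953125) * u2 ^ 2 * w ^ 2 * w2 ^ 3 + (583714724/1953125) * u2 ^ 2 * w ^ 3 * w2 ^ 2 + (1231320856/1953125) * u2 ^ 2 * w ^ 4 * w2 + (130098272/390625) * u2 ^ 2 * w ^ 5 + (224869990101/312500000) * u * u2 * w2 ^ 5 + (40344399843/6250000) * u * u2 * w * w2 ^ 4 + (331453731967/15625000) * u * u2 * w ^ 2 * w2 ^ 3 + (129216588761/3906250) * u * u2 * w ^ 3 * w2 ^ 2 + (48644465906/1953125)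 * u * u2 * w ^ 4 * w2 + (71422857328/9765625) * u * u2 * w ^ 5 + (6504416016003/2500000000) * u ^ 2 * w2 ^ 5 + (2156103985899/125000000) * u ^ 2 * w * w2 ^ 4 + (356958907177/7812500) * u ^ 2 * w ^ 2 * w2 ^ 3 + (118001504444/1953125) * u ^ 2 * w ^ 3 * w2 ^ 2 + (3114466669/78125) * u ^ 2 * w ^ 4 * w2 + (102522578828/9765625) * u ^ 2 * w ^ 5 := by
    subst hu hu2 hw hw2
    unfold QqPoly
    ring
  rw [key]
  positivity

theorem Qq_rect_21 (r t : ℝ) (h1 : (1/4) ≤ r) (h2 : r ≤ (1/2)) (h3 : (10/7) ≤ t) (h4 : t ≤ (15/7)) : 0 ≤ QqPoly r t := by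
  obtain ⟨u, hu⟩ : ∃ u, u = r - (1/4) := ⟨_, rfl⟩
  obtain ⟨u2, hu2⟩ : ∃ u2, u2 = (1/2) - r := ⟨_, rfl⟩
  obtain ⟨w, hw⟩ : ∃ w, w = t - (10/7) := ⟨_, rfl⟩
  obtain ⟨w2, hw2⟩ : ∃ w2, w2 = (15/7) - t := ⟨_, rfl⟩
  have h5 : 0 ≤ u := by rw [hu]; linarith
  have h6 : 0 ≤ u2 := by rw [hu2]; linarith
  have h7 : 0 ≤ w := by rw [hw]; linarith
  have h8 : 0 ≤ w2 := by rw [hw2]; linarith
  have key : QqPoly r t = (28600727509/2500000000) * u2 ^ 2 * w2 ^ 5 + (27350664491/250000000) * u2 ^ 2 * w * w2 ^ 4 + (2719460407/6250000) * u2 ^ 2 * w ^ 2 * w2 ^ 3 + (1692432551/1953125) * u2 ^ 2 * w ^ 3 * w2 ^ 2 + (26600377311/31250000) * u2 ^ 2 * w ^ 4 * w2 + (25630644707/78125000) * u2 ^ 2 * w ^ 5 + (35831591543/625000000) * u * u2 * w2 ^ 5 + (7742366641/15625000) * u * u2 * w * w2 ^ 4 + (111736340663/62500000) * u * u2 * w ^ 2 * w2 ^ 3 + (102254100799/31250000) * u * u2 * w ^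 3 * w2 ^ 2 + (46734236001/15625000) * u * u2 * w ^ 4 * w2 + (10583358062/9765625) * u * u2 * w ^ 5 + (47609878297/625000000) * u ^ 2 * w2 ^ 5 + (7275926617/12500000) * u ^ 2 * w * w2 ^ 4 + (58121004659/31250000) * u ^ 2 * w ^ 2 * w2 ^ 3 + (47843560579/15625000) * u ^ 2 * w ^ 3 * w2 ^ 2 + (5008782951/1953125) * u ^ 2 * w ^ 4 * w2 + (16906066091/19531250) * u ^ 2 * w ^ 5 := by
    subst hu hu2 hw hw2
    unfold QqPoly
    ring
  rw [key]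
  positivity

theorem Qq_rect_22 (r t : ℝ) (h1 : (1/2) ≤ r) (h2 : r ≤ 1) (h3 : (5/7) ≤ t) (h4 : t ≤ (15/7)) : 0 ≤ QqPoly r t := by
  obtain ⟨u, hu⟩ : ∃ u, u = r - (1/2) := ⟨_, rfl⟩
  obtain ⟨u2, hu2⟩ : ∃ u2, u2 = 1 - r := ⟨_, rfl⟩
  obtain ⟨w, hw⟩ : ∃ w, w = t - (5/7) := ⟨_, rfl⟩
  obtain ⟨w2, hw2⟩ : ∃ w2, w2 = (15/7) - t := ⟨_, rfl⟩
  have h5 : 0 ≤ u := by rw [hu]; linarith
  have h6 : 0 ≤ u2 := by rw [hu2]; linarith
  have h7 : 0 ≤ w := by rw [hw]; linarith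
  have h8 : 0 ≤ w2 := by rw [hw2]; linarith
  have key : QqPoly r t = (368526201/2500000000) * u2 ^ 2 * w2 ^ 5 + (433844379/500000000) * u2 ^ 2 * w * w2 ^ 4 + (247245391/125000000) * u2 ^ 2 * w ^ 2 * w2 ^ 3 + (303033109/100000000) * u2 ^ 2 * w ^ 3 * w2 ^ 2 + (3129065713/500000000) * u2 ^ 2 * w ^ 4 * w2 + (16906066091/2500000000) * u2 ^ 2 * w ^ 5 + (1493692683/2500000000) * u * u2 * w2 ^ 5 + (1978023831/500000000) * u * u2 * w * w2 ^ 4 + (652662451/62500000) * u * u2 * w ^ 2 * w2 ^ 3 + (9106971979/500000000) * u * u2 * w ^ 3 * w2 ^ 2 + (574943621/20000000) * u * u2 * w ^ 4 * w2 + (29551482149/1250000000) * u * u2 * w ^ 5 + (769910841/1250000000) * u ^ 2 * w2 ^ 5 + (576095163/125000000) * u ^ 2 * w * w2 ^ 4 + (1754930611/125000000) * u ^ 2 * w ^ 2 * w2 ^ 3 + (6351023917/250000000) * u ^ 2 * w ^ 3 * w2 ^ 2 + (7964456381/250000000) * u ^ 2 * w ^ 4 * w2 + (25392471391/1250000000)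 * u ^ 2 * w ^ 5 := by
    subst hu hu2 hw hw2
    unfold QqPoly
    ring
  rw [key]
  positivity

theorem Qq_nonneg (r t : ℝ) (h1 : 0 ≤ r) (h2 : r ≤ 1) (h3 : (-5/7) ≤ t) (h4 : t ≤ (15/7)) : 0 ≤ QqPoly r t := by
  rcases le_total t (5/7) with h0 | h0
  · have ht0 := h0
    rcases le_total r (1/2) with h1 | h1
    · have ht1 := h1
      rcases le_total t 0 with h2 | h2
      · have ht2 := h2
        exact Qq_rect_0 r t (by linarith) (by linarith) (by linarith) (by linarith)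
      · have ht2 := h2
        rcases le_total r (1/4) with h3 | h3
        · have ht3 := h3
          rcases le_total t (5/14) with h4 | h4
          · have ht4 := h4
            exact Qq_rect_1 r t (by linarith) (by linarith) (by linarith) (by linarith)
          · have ht4 := h4
            exact Qq_rect_2 r t (by linarith) (by linarith) (by linarith) (by linarith)
        · have ht3 := h3
          exact Qq_rect_3 r t (by linarith) (by linarith) (by linarith) (by linarith)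
    · have ht1 := h1
      rcases le_total t 0 with h2 | h2
      · have ht2 := h2
        rcases le_total r (3/4) with h3 | h3
        · have ht3 := h3
          exact Qq_rect_4 r t (by linarith) (by linarith) (by linarith) (by linarith)
        · have ht3 := h3
          rcases le_total t (-5/14) with h4 | h4
          · have ht4 := h4
            exact Qq_rect_5 r t (by linarith) (by linarith) (by linarith) (by linarith)
          · have ht4 := h4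
            rcases le_total r (7/8) with h5 | h5
            · have ht5 := h5
              exact Qq_rect_6 r t (by linarith) (by linarith) (by linarith) (by linarith)
            · have ht5 := h5
              rcases le_total t (-5/28) with h6 | h6
              · have ht6 := h6
                exact Qq_rect_7 r t (by linarith) (by linarith) (by linarith) (by linarith)
              · have ht6 := h6
                exact Qq_rect_8 r t (by linarith) (by linarith) (by linarith) (by linarith)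
      · have ht2 := h2
        exact Qq_rect_9 r t (by linarith) (by linarith) (by linarith) (by linarith)
  · have ht0 := h0
    rcases le_total r (1/2) with h1 | h1
    · have ht1 := h1
      rcases le_total t (10/7) with h2 | h2
      · have ht2 := h2
        rcases le_total r (1/4) with h3 | h3
        · have ht3 := h3
          rcases le_total t (15/14) with h4 | h4
          · have ht4 := h4
            rcases le_total r (1/8) with h5 | h5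
            · have ht5 := h5
              exact Qq_rect_10 r t (by linarith) (by linarith) (by linarith) (by linarith)
            · have ht5 := h5
              exact Qq_rect_11 r t (by linarith) (by linarith) (by linarith) (by linarith)
          · have ht4 := h4
            rcases le_total r (1/8) with h5 | h5
            · have ht5 := h5
              exact Qq_rect_12 r t (by linarith) (by linarith) (by linarith) (by linarith)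
            · have ht5 := h5
              rcases le_total t (5/4) with h6 | h6
              · have ht6 := h6
                rcases le_total r (3/16) with h7 | h7
                · have ht7 := h7
                  exact Qq_rect_13 r t (by linarith) (by linarith) (by linarith) (by linarith)
                · have ht7 := h7
                  exact Qq_rect_14 r t (by linarith) (by linarith) (by linarith) (by linarith)
              · have ht6 := h6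
                rcases le_total r (3/16) with h7 | h7
                · have ht7 := h7
                  exact Qq_rect_15 r t (by linarith) (by linarith) (by linarith) (by linarith)
                · have ht7 := h7
                  exact Qq_rect_16 r t (by linarith) (by linarith) (by linarith) (by linarith)
        · have ht3 := h3
          exact Qq_rect_17 r t (by linarith) (by linarith) (by linarith) (by linarith)
      · have ht2 := h2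
        rcases le_total r (1/4) with h3 | h3
        · have ht3 := h3
          rcases le_total t (25/14) with h4 | h4
          · have ht4 := h4
            rcases le_total r (1/8) with h5 | h5
            · have ht5 := h5
              exact Qq_rect_18 r t (by linarith) (by linarith) (by linarith) (by linarith)
            · have ht5 := h5
              exact Qq_rect_19 r t (by linarith) (by linarith) (by linarith) (by linarith)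
          · have ht4 := h4
            exact Qq_rect_20 r t (by linarith) (by linarith) (by linarith) (by linarith)
        · have ht3 := h3
          exact Qq_rect_21 r t (by linarith) (by linarith) (by linarith) (by linarith)
    · have ht1 := h1
      exact Qq_rect_22 r t (by linarith) (by linarith) (by linarith) (by linarith)

end Vale.Agent.Lib.P154Q4.K2
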