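import Mathlib

/-!
Polynomial facts by evaluation at one huge integer point (Kronecker substitution).

An expression `e : Ex` is a polynomial with integer coefficients in the variables `v 0, v 1, ...`.
Its dense nested coefficient lists `toNP n e : NP n` exist only inside the proofs.  If the bases
`B j` dominate the sizes computed by `evalAbs` then the base `B` digits of the single integer
`evalZ B e` are the coefficients of `e`, so a digit check shows that all coefficients are
nonnegative, or all zero.  The check only uses few arithmetic operations on big natural numbers.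
-/

namespace Vale.Agent.Lib.P154Q4.Kron

/-- polynomial expressions with integer coefficients -/
inductive Ex : Type
  | c : ℤ → Ex
  | v : ℕ → Ex
  | add : Ex → Ex → Ex
  | mul : Ex → Ex → Ex

namespace Ex

/-- value in a commutative ring -/
def eval {R : Type} [CommRing R] (pts : ℕ → R) : Ex → R
  | c z => (z : R)
  | v i => pts i
  | add a b => eval pts a + eval pts b
  | mul a b => eval pts a * eval pts b

/-- value in the integers, written with plain integer operations -/
def evalZ (pts : ℕ → ℤ) : Ex → ℤ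
  | c z => z
  | v i => pts i
  | add a b => Int.add (evalZ pts a) (evalZ pts b)
  | mul a b => Int.mul (evalZ pts a) (evalZ pts b)

/-- value with the coefficients replaced by their absolute values -/
def evalAbs (pts : ℕ → ℕ) : Ex → ℕ
  | c z => z.natAbs
  | v i => pts i
  | add a b => Nat.add (evalAbs pts a) (evalAbs pts b)
  | mul a b => Nat.mul (evalAbs pts a) (evalAbs pts b)

/-- all variables of the expression are below `n` -/
def varsBelow (n : ℕ) : Ex → Bool
  | c _ => true
  | v i => Nat.blt i n
  | add a b => and (varsBelow n a) (varsBelow n b)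
  | mul a b => and (varsBelow n a) (varsBelow n b)

theorem evalZ_eq (pts : ℕ → ℤ) (e : Ex) : evalZ pts e = eval pts e := by
  induction e with
  | c z => simp [evalZ, eval]
  | v i => simp [evalZ, eval]
  | add a b iha ihb => simp only [evalZ, eval, iha, ihb]; rfl
  | mul a b iha ihb => simp only [evalZ, eval, iha, ihb]; rfl

end Ex

/-! ### Lists as polynomials in one variable -/

/-- sum of two coefficient lists -/
def ladd {X : Type} (f : X → X → X) : List X → List X → List X
  | [], q => q
  | a :: p, [] => a :: p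
  | a :: p, b :: q => f a b :: ladd f p q

/-- product of two coefficient lists -/
def lmul {X : Type} (af mf : X → X → X) (z : X) : List X → List X → List X
  | [], _ => []
  | a :: p, q => ladd af (q.map (mf a)) (z :: lmul af mf z p q)

/-- value of a coefficient list -/
def hev {X R : Type} [Semiring R] (ev : X → R) (x : R) : List X → R
  | [] => 0
  | a :: l => ev a + x * hev ev x l

theorem hev_ladd {X R : Type} [Semiring R] (ev : X → R) (x : R) (f : X → X → X)
    (h : ∀ a b, ev (f a b) = ev a + ev b) (p q : List X) :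
    hev ev x (ladd f p q) = hev ev x p + hev ev x q := by
  induction p generalizing q with
  | nil => simp [ladd, hev]
  | cons a p ih =>
    cases q with
    | nil => simp [ladd, hev]
    | cons b q =>
      simp only [ladd, hev, h, ih, mul_add]
      simp only [add_assoc, add_left_comm]

theorem hev_map {X R : Type} [Semiring R] (ev : X → R) (x : R) (m : X → X) (k : R)
    (h : ∀ b, ev (m b) = k * ev b) (hk : k * x = x * k) (q : List X) :
    hev ev x (q.map m) = k * hev ev x q := by
  induction q with
  | nil => simp [hev]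
  | cons b q ih =>
    simp only [List.map_cons, hev, h, ih, mul_add]
    rw [← mul_assoc x k, ← hk, mul_assoc]

theorem hev_lmul {X R : Type} [CommSemiring R] (ev : X → R) (x : R) (af mf : X → X → X) (z : X)
    (ha : ∀ a b, ev (af a b) = ev a + ev b) (hm : ∀ a b, ev (mf a b) = ev a * ev b) (hz : ev z = 0)
    (p q : List X) : hev ev x (lmul af mf z p q) = hev ev x p * hev ev x q := by
  induction p with
  | nil => simp [lmul, hev]
  | cons a p ih =>
    simp only [lmul]
    rw [hev_ladd ev x af ha, hev_map ev x (mf a) (ev a) (hm a) (mul_comm _ _)]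
    simp only [hev, hz, ih]
    ring

/-! ### Bounds for lists over the natural numbers -/

theorem hev_ladd_le {X : Type} (ev : X → ℕ) (x : ℕ) (f : X → X → X)
    (h : ∀ a b, ev (f a b) ≤ ev a + ev b) (p q : List X) :
    hev ev x (ladd f p q) ≤ hev ev x p + hev ev x q := by
  induction p generalizing q with
  | nil => simp [ladd, hev]
  | cons a p ih =>
    cases q with
    | nil => simp [ladd, hev]
    | cons b q =>
      simp only [ladd, hev]
      have h1 := h a b
      have h2 := Nat.mul_le_mul_left x (ih q)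
      rw [mul_add] at h2
      omega

theorem hev_map_le {X : Type} (ev : X → ℕ) (x : ℕ) (m : X → X) (k : ℕ)
    (h : ∀ b, ev (m b) ≤ k * ev b) (q : List X) : hev ev x (q.map m) ≤ k * hev ev x q := by
  induction q with
  | nil => simp [hev]
  | cons b q ih =>
    simp only [List.map_cons, hev]
    have h1 := h b
    have h2 := Nat.mul_le_mul_left x ih
    have e : k * (ev b + x * hev ev x q) = k * ev b + x * (k * hev ev x q) := by ring
    rw [e]
    omega

theorem hev_lmul_le {X : Type} (ev : X → ℕ) (x : ℕ) (af mf : X → X → X) (z : X)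
    (ha : ∀ a b, ev (af a b) ≤ ev a + ev b) (hm : ∀ a b, ev (mf a b) ≤ ev a * ev b) (hz : ev z = 0)
    (p q : List X) : hev ev x (lmul af mf z p q) ≤ hev ev x p * hev ev x q := by
  induction p with
  | nil => simp [lmul, hev]
  | cons a p ih =>
    simp only [lmul]
    have h1 := hev_ladd_le ev x af ha (q.map (mf a)) (z :: lmul af mf z p q)
    have h2 := hev_map_le ev x (mf a) (ev a) (hm a) q
    have h3 : hev ev x (z :: lmul af mf z p q) = x * hev ev x (lmul af mf z p q) := by
      simp [hev, hz]
    have h4 := Nat.mul_le_mul_left x ih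
    have e : hev ev x (a :: p) * hev ev x q = ev a * hev ev x q + x * (hev ev x p * hev ev x q) := by
      simp only [hev]; ring
    rw [e]
    omega

/-! ### Nested lists -/

/-- coefficient lists nested `k` times -/
def NP : ℕ → Type
  | 0 => ℤ
  | k + 1 => List (NP k)

namespace NP

/-- zero -/
def zero : (k : ℕ) → NP k
  | 0 => (0 : ℤ)
  | _ + 1 => ([] : List _)

/-- constant -/
def const : (k : ℕ) → ℤ → NP k
  | 0, z => z
  | k + 1, z => ([const k z] : List (NP k))

/-- sum -/
def add : (k : ℕ) → NP k → NP k → NP k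
  | 0, a, b => Int.add a b
  | k + 1, a, b => ladd (add k) a b

/-- product -/
def mul : (k : ℕ) → NP k → NP k → NP k
  | 0, a, b => Int.mul a b
  | k + 1, a, b => lmul (add k) (mul k) (zero k) a b

/-- variable number `i`, which is the one of level `i + 1` -/
def var (i : ℕ) : (k : ℕ) → NP k
  | 0 => (0 : ℤ)
  | k + 1 => if i = k then ([zero k, const k 1] : List (NP k)) else ([var i k] : List (NP k))

/-- value in a commutative ring -/
def ev {R : Type} [CommRing R] (pts : ℕ → R) : (k : ℕ) → NP k → R
  | 0, a => Int.cast (R := R) a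
  | k + 1, a => hev (ev pts k) (pts k) a

/-- value with absolute values of the coefficients -/
def ab (pts : ℕ → ℕ) : (k : ℕ) → NP k → ℕ
  | 0, a => Int.natAbs a
  | k + 1, a => hev (ab pts k) (pts k) a

/-- all coefficients are nonnegative -/
def NN : (k : ℕ) → NP k → Prop
  | 0, a => Int.le 0 a
  | k + 1, a => ∀ x, List.Mem x a → NN k x

/-- all coefficients vanish -/
def ZZ : (k : ℕ) → NP k → Prop
  | 0, a => @Eq ℤ a 0
  | k + 1, a => ∀ x, List.Mem x a → ZZ k x

variable {R : Type} [CommRing R] (pts : ℕ → R)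

theorem ev_zero (k : ℕ) : ev pts k (zero k) = 0 := by
  cases k with
  | zero => simp [ev, zero]
  | succ k => simp [ev, zero, hev]

theorem ev_const (k : ℕ) (z : ℤ) : ev pts k (const k z) = (z : R) := by
  induction k with
  | zero => simp [ev, const]
  | succ k ih => simp [ev, const, hev, ih]

theorem ev_add (k : ℕ) (a b : NP k) : ev pts k (add k a b) = ev pts k a + ev pts k b := by
  induction k with
  | zero => exact Int.cast_add (R := R) _ _
  | succ k ih => exact hev_ladd _ _ _ ih a b

theorem ev_mul (k : ℕ) (a b : NP k) : ev pts k (mul k a b) = ev pts k a * ev pts k b := by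
  induction k with
  | zero => exact Int.cast_mul (α := R) _ _
  | succ k ih => exact hev_lmul _ _ _ _ _ (ev_add pts k) ih (ev_zero pts k) a b

theorem ev_var (i k : ℕ) (hi : i < k) : ev pts k (var i k) = pts i := by
  induction k with
  | zero => omega
  | succ k ih =>
    by_cases h : i = k
    · subst h
      simp [ev, var, hev, ev_zero, ev_const]
    · have hi' : i < k := by omega
      simp [ev, var, h, hev, ih hi']

theorem ab_zero (p : ℕ → ℕ) (k : ℕ) : ab p k (zero k) = 0 := by
  cases k with
  | zero => simp [ab, zero]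
  | succ k => simp [ab, zero, hev]

theorem ab_const (p : ℕ → ℕ) (k : ℕ) (z : ℤ) : ab p k (const k z) = z.natAbs := by
  induction k with
  | zero => simp [ab, const]
  | succ k ih => simp [ab, const, hev, ih]

theorem ab_add (p : ℕ → ℕ) (k : ℕ) (a b : NP k) : ab p k (add k a b) ≤ ab p k a + ab p k b := by
  induction k with
  | zero => exact Int.natAbs_add_le _ _
  | succ k ih => exact hev_ladd_le _ _ _ ih a b

theorem ab_mul (p : ℕ → ℕ) (k : ℕ) (a b : NP k) : ab p k (mul k a b) ≤ ab p k a * ab p k b := by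
  induction k with
  | zero => exact le_of_eq (Int.natAbs_mul _ _)
  | succ k ih => exact hev_lmul_le _ _ _ _ _ (ab_add p k) ih (ab_zero p k) a b

theorem ab_var (p : ℕ → ℕ) (i k : ℕ) (hi : i < k) : ab p k (var i k) = p i := by
  induction k with
  | zero => omega
  | succ k ih =>
    by_cases h : i = k
    · subst h
      simp [ab, var, hev, ab_zero, ab_const]
    · have hi' : i < k := by omega
      simp [ab, var, h, hev, ih hi']

end NP

/-! ### From expressions to nested lists -/

/-- nested lists of an expression -/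
def toNP (n : ℕ) : Ex → NP n
  | Ex.c z => NP.const n z
  | Ex.v i => NP.var i n
  | Ex.add a b => NP.add n (toNP n a) (toNP n b)
  | Ex.mul a b => NP.mul n (toNP n a) (toNP n b)

theorem ev_toNP {R : Type} [CommRing R] (pts : ℕ → R) (n : ℕ) (e : Ex) (h : e.varsBelow n = true) :
    NP.ev pts n (toNP n e) = Ex.eval pts e := by
  induction e with
  | c z => simp [toNP, Ex.eval, NP.ev_const]
  | v i =>
    have hi : i < n := by simpa [Ex.varsBelow] using h
    simp [toNP, Ex.eval, NP.ev_var pts i n hi]
  | add a b iha ihb =>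
    simp only [Ex.varsBelow, Bool.and_eq_true] at h
    simp [toNP, Ex.eval, NP.ev_add, iha h.1, ihb h.2]
  | mul a b iha ihb =>
    simp only [Ex.varsBelow, Bool.and_eq_true] at h
    simp [toNP, Ex.eval, NP.ev_mul, iha h.1, ihb h.2]

theorem ab_toNP (p : ℕ → ℕ) (n : ℕ) (e : Ex) (h : e.varsBelow n = true) :
    NP.ab p n (toNP n e) ≤ Ex.evalAbs p e := by
  induction e with
  | c z => simp [toNP, Ex.evalAbs, NP.ab_const]
  | v i =>
    have hi : i < n := by simpa [Ex.varsBelow] using h
    simp [toNP, Ex.evalAbs, NP.ab_var p i n hi]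
  | add a b iha ihb =>
    simp only [Ex.varsBelow, Bool.and_eq_true] at h
    exact (NP.ab_add p n _ _).trans (Nat.add_le_add (iha h.1) (ihb h.2))
  | mul a b iha ihb =>
    simp only [Ex.varsBelow, Bool.and_eq_true] at h
    exact (NP.ab_mul p n _ _).trans (Nat.mul_le_mul (iha h.1) (ihb h.2))

/-! ### Nonnegativity and vanishing on the real side -/

theorem hev_nonneg {X : Type} (ev : X → ℝ) (P : X → Prop) (x : ℝ) (hx : 0 ≤ x)
    (h : ∀ a, P a → 0 ≤ ev a) (l : List X) (hl : ∀ a ∈ l, P a) : 0 ≤ hev ev x l := by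
  induction l with
  | nil => simp [hev]
  | cons a l ih =>
    simp only [hev]
    have h1 := h a (hl a (by simp))
    have h2 := ih (fun b hb => hl b (by simp [hb]))
    positivity

theorem NN_ev (y : ℕ → ℝ) (n : ℕ) (hy : ∀ i < n, 0 ≤ y i) (x : NP n) (hx : NP.NN n x) :
    0 ≤ NP.ev y n x := by
  induction n with
  | zero =>
    have key : ∀ z : ℤ, Int.le 0 z → 0 ≤ Int.cast (R := ℝ) z :=
      fun z hz => Int.cast_nonneg hz
    exact key x hx
  | succ n ih =>
    exact hev_nonneg _ (NP.NN n) _ (hy n (by omega))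
      (fun a ha => ih (fun i hi => hy i (by omega)) a ha) x hx

theorem hev_zero {X R : Type} [Semiring R] (ev : X → R) (P : X → Prop) (x : R)
    (h : ∀ a, P a → ev a = 0) (l : List X) (hl : ∀ a ∈ l, P a) : hev ev x l = 0 := by
  induction l with
  | nil => simp [hev]
  | cons a l ih =>
    simp only [hev]
    rw [h a (hl a (by simp)), ih (fun b hb => hl b (by simp [hb]))]
    simp

theorem ZZ_ev {R : Type} [CommRing R] (y : ℕ → R) (n : ℕ) (x : NP n) (hx : NP.ZZ n x) :
    NP.ev y n x = 0 := by
  induction n with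
  | zero =>
    have key : ∀ z : ℤ, z = 0 → Int.cast (R := R) z = 0 := fun z hz => by simp [hz]
    exact key x hx
  | succ n ih => exact hev_zero _ (NP.ZZ n) _ (fun a ha => ih a ha) x hx

/-! ### Digits -/

/-- the points where the sizes are measured: the bases below `j` and one from `j` on -/
def ptsBelow (B : ℕ → ℕ) (j : ℕ) : ℕ → ℕ := fun i => if i < j then B i else 1

/-- the digit check of one list level; `b` is the exponent of the base -/
def chkL (low : ℕ → Bool) (b : ℕ) : ℕ → ℕ → Bool
  | 0, z => Nat.beq z 0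
  | f + 1, z =>
    or (Nat.beq z 0)
      (and (Nat.ble (Nat.succ (Nat.mod z (2 ^ b))) (2 ^ (b - 1)))
        (and (low (Nat.mod z (2 ^ b))) (chkL low b f (Nat.div z (2 ^ b)))))

/-- the digit check of all levels; `bs j` is the exponent of the base number `j` -/
def chk (bs : ℕ → ℕ) (fuel : ℕ) : ℕ → ℕ → Bool
  | 0, _ => true
  | k + 1, z => chkL (chk bs fuel k) (bs k) fuel z

theorem chkL_zero (low : ℕ → Bool) (b f : ℕ) : chkL low b f 0 = true := by
  cases f <;> simp [chkL]

theorem chk_zero (bs : ℕ → ℕ) (fuel k : ℕ) : chk bs fuel k 0 = true := by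
  cases k <;> simp [chk, chkL_zero]

/-- sizes of the members of a list, when the variable of the list is set to one -/
theorem le_hev_of_mem {X : Type} (ev : X → ℕ) (l : List X) (a : X) (h : a ∈ l) :
    ev a ≤ hev ev 1 l := by
  induction l with
  | nil => simp at h
  | cons b l ih =>
    simp only [hev, one_mul]
    rcases List.mem_cons.1 h with h | h
    · subst h; omega
    · have := ih h; omega

theorem abs_ev_le (B : ℕ → ℕ) (p : ℕ → ℕ) (k : ℕ) (hp : ∀ i < k, p i = B i) (x : NP k) :
    |NP.ev (fun i => (B i : ℤ)) k x| ≤ (NP.ab p k x : ℤ) := by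
  induction k with
  | zero =>
    have key : ∀ z : ℤ, |Int.cast (R := ℤ) z| ≤ ((Int.natAbs z : ℕ) : ℤ) := fun z => by simp
    exact key x
  | succ k ih =>
    have hk : p k = B k := hp k (by omega)
    have ih' := ih (fun i hi => hp i (by omega))
    change |hev (NP.ev (fun i => (B i : ℤ)) k) (B k : ℤ) x|
      ≤ (hev (NP.ab p k) (p k) x : ℕ)
    rw [hk]
    generalize (x : List (NP k)) = l
    induction l with
    | nil => simp [hev]
    | cons a l ihl =>
      simp only [hev]
      have h1 := ih' a
      have h2 := abs_add_le (NP.ev (fun i => (B i : ℤ)) k a)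
        ((B k : ℤ) * hev (NP.ev (fun i => (B i : ℤ)) k) (B k : ℤ) l)
      rw [abs_mul] at h2
      push_cast
      have h3 : |(B k : ℤ)| = B k := abs_of_nonneg (by positivity)
      rw [h3] at h2
      have h4 := mul_le_mul_of_nonneg_left ihl (by positivity : (0 : ℤ) ≤ (B k : ℤ))
      linarith

/-- one step of the digit analysis -/
theorem digit_step (e h : ℤ) (B : ℕ) (z : ℕ) (hz : (z : ℤ) = e + (B : ℤ) * h)
    (hB : 2 * |e| < (B : ℤ)) (hd : 2 * (z % B) < B) : e = ((z % B : ℕ) : ℤ) ∧ h = ((z / B : ℕ) : ℤ) := by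
  have hBpos : (0 : ℤ) < (B : ℤ) := by have := abs_nonneg e; linarith
  have hBn : 0 < B := by exact_mod_cast hBpos
  have hdm : (z : ℤ) = ((z % B : ℕ) : ℤ) + (B : ℤ) * ((z / B : ℕ) : ℤ) := by
    have := Nat.mod_add_div z B
    exact_mod_cast this.symm
  have hdlt : 2 * ((z % B : ℕ) : ℤ) < (B : ℤ) := by exact_mod_cast hd
  have hd0 : (0 : ℤ) ≤ ((z % B : ℕ) : ℤ) := by positivity
  set d : ℤ := ((z % B : ℕ) : ℤ) with hd_def
  set q : ℤ := ((z / B : ℕ) : ℤ) with hq_def
  have hdiff : e - d = (B : ℤ) * (q - h) := by linarith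
  have hab : 2 * |e| + 2 * d < 2 * (B : ℤ) := by linarith
  have habs : |e - d| < (B : ℤ) := by
    have h1 := abs_sub (e) (d)
    have h2 : |d| = d := abs_of_nonneg hd0
    rw [h2] at h1
    linarith
  have hzero : q - h = 0 := by
    by_contra hne
    have h1 : |(B : ℤ) * (q - h)| = (B : ℤ) * |q - h| := by
      rw [abs_mul, abs_of_pos hBpos]
    have h2 : 1 ≤ |q - h| := Int.one_le_abs hne
    rw [hdiff, h1] at habs
    nlinarith
  have hq : h = q := by linarith
  have he : e = d := by
    rw [hzero] at hdiff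
    linarith
  exact ⟨he, hq⟩

/-- the digit analysis of a list level -/
theorem chkL_sound {X : Type} (ev : X → ℤ) (size : X → ℕ) (P : X → Prop) (low : ℕ → Bool)
    (b : ℕ) (hb : 0 < b) (hle : ∀ a, |ev a| ≤ (size a : ℤ))
    (hlow : ∀ a (z : ℕ), ev a = z → low z = true → 2 * size a < 2 ^ b → P a)
    (hlow0 : low 0 = true)
    (f : ℕ) (l : List X) (z : ℕ) (hz : hev ev ((2 ^ b : ℕ) : ℤ) l = (z : ℤ))
    (hsize : ∀ a ∈ l, 2 * size a < 2 ^ b)
    (hc : chkL low b f z = true) : ∀ a ∈ l, P a := by
  induction l generalizing f z with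
  | nil => simp
  | cons a l ih =>
    have hsa := hsize a (by simp)
    have hea : 2 * |ev a| < ((2 ^ b : ℕ) : ℤ) := by
      have h1 := hle a
      have h2 : (2 * (size a : ℤ)) < ((2 ^ b : ℕ) : ℤ) := by exact_mod_cast hsa
      linarith
    have hz' : (z : ℤ) = ev a + ((2 ^ b : ℕ) : ℤ) * hev ev ((2 ^ b : ℕ) : ℤ) l := by
      rw [← hz]; rfl
    have hB2 : 2 ^ b = 2 * 2 ^ (b - 1) := by
      obtain ⟨c, rfl⟩ : ∃ c, b = c + 1 := ⟨b - 1, by omega⟩
      simp [pow_succ, mul_comm]
    have hmem : ∀ c, c ∈ l → 2 * size c < 2 ^ b := fun c hc => hsize c (by simp [hc])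
    by_cases hz0 : z = 0
    · -- all digits vanish
      subst hz0
      have hd : 2 * (0 % 2 ^ b) < 2 ^ b := by
        simp
      obtain ⟨h1, h2⟩ := digit_step _ _ _ _ hz' hea hd
      have h1' : ev a = ((0 : ℕ) : ℤ) := by simpa using h1
      have h2' : hev ev ((2 ^ b : ℕ) : ℤ) l = ((0 : ℕ) : ℤ) := by simpa using h2
      intro c hc'
      rcases List.mem_cons.1 hc' with hca | hca
      · subst hca
        exact hlow _ 0 h1' hlow0 hsa
      · exact ih 0 0 h2' hmem (by simp [chkL]) c hca
    · cases f with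
      | zero =>
        simp only [chkL, Nat.beq_eq] at hc
        exact absurd hc hz0
      | succ f =>
        simp only [chkL, Bool.or_eq_true, Bool.and_eq_true, Nat.beq_eq, Nat.ble_eq] at hc
        rcases hc with hc | ⟨hc1, hc2, hc3⟩
        · exact absurd hc hz0
        · have hd : 2 * (z % 2 ^ b) < 2 ^ b := by
            have : z % 2 ^ b + 1 ≤ 2 ^ (b - 1) := hc1
            omega
          obtain ⟨h1, h2⟩ := digit_step _ _ _ _ hz' hea hd
          intro c hc'
          rcases List.mem_cons.1 hc' with hca | hca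
          · subst hca
            exact hlow _ _ h1 hc2 hsa
          · exact ih f _ h2 hmem hc3 c hca

/-- the digit analysis of all levels -/
theorem chk_sound (bs : ℕ → ℕ) (fuel : ℕ) (k : ℕ) (hbs : ∀ j < k, 0 < bs j) (x : NP k) (z : ℕ)
    (hz : NP.ev (fun i => ((2 ^ bs i : ℕ) : ℤ)) k x = (z : ℤ))
    (hsize : ∀ j < k, 2 * NP.ab (ptsBelow (fun i => 2 ^ bs i) j) k x < 2 ^ bs j)
    (hc : chk bs fuel k z = true) : NP.NN k x := by
  induction k generalizing z with
  | zero =>
    have key : ∀ y : ℤ, Int.cast (R := ℤ) y = (z : ℤ) → Int.le 0 y := fun y hy => by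
      have h1 : y = (z : ℤ) := by simpa using hy
      rw [h1]
      exact Int.natCast_nonneg z
    exact key x hz
  | succ k ih =>
    let B : ℕ → ℕ := fun i => 2 ^ bs i
    have hone : ∀ j ≤ k, ptsBelow B j k = 1 := fun j hj => by simp [ptsBelow, Nat.not_lt.2 hj]
    have hle : ∀ j ≤ k, ∀ a, List.Mem a x →
        NP.ab (ptsBelow B j) k a ≤ NP.ab (ptsBelow B j) (k + 1) x := by
      intro j hj a ha
      change NP.ab (ptsBelow B j) k a ≤ hev (NP.ab (ptsBelow B j) k) (ptsBelow B j k) x
      rw [hone j hj]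
      exact le_hev_of_mem _ _ _ ha
    have key := chkL_sound (NP.ev (fun i => ((B i : ℕ) : ℤ)) k) (NP.ab (ptsBelow B k) k)
      (fun a => (∀ j < k, 2 * NP.ab (ptsBelow B j) k a < 2 ^ bs j) → NP.NN k a)
      (chk bs fuel k) (bs k) (hbs k (by omega))
      (fun a => abs_ev_le B _ k (fun i hi => by simp [ptsBelow, hi]) a)
      (fun a w hw hcw _ hl => ih (fun j hj => hbs j (by omega)) a w hw hl hcw)
      (chk_zero bs fuel k) fuel x z hz
      (fun a ha => lt_of_le_of_lt (Nat.mul_le_mul_left 2 (hle k le_rfl a ha)) (hsize k (by omega)))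
      hc
    intro a ha
    exact key a ha (fun j hj => lt_of_le_of_lt (Nat.mul_le_mul_left 2 (hle j hj.le a ha))
      (hsize j (by omega)))

/-! ### The check for nonnegativity and for vanishing -/

/-- sizes of all levels are below the bases -/
def sizesOK (bs : ℕ → ℕ) (e : Ex) : ℕ → Bool
  | 0 => true
  | j + 1 => and (Nat.blt (2 * Ex.evalAbs (ptsBelow (fun i => 2 ^ bs i) j) e) (2 ^ bs j))
      (sizesOK bs e j)

theorem sizesOK_spec (bs : ℕ → ℕ) (e : Ex) (n : ℕ) (h : sizesOK bs e n = true) :
    ∀ j < n, 2 * Ex.evalAbs (ptsBelow (fun i => 2 ^ bs i) j) e < 2 ^ bs j := by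
  induction n with
  | zero => intro j hj; omega
  | succ n ih =>
    simp only [sizesOK, Bool.and_eq_true] at h
    intro j hj
    rcases Nat.lt_succ_iff_lt_or_eq.1 hj with hj | hj
    · exact ih h.2 j hj
    · subst hj
      exact Nat.lt_of_succ_le (Nat.le_of_ble_eq_true h.1)

/-- positive exponents -/
def bsOK (bs : ℕ → ℕ) : ℕ → Bool
  | 0 => true
  | j + 1 => and (Nat.blt 0 (bs j)) (bsOK bs j)

/-- the certificate of nonnegativity: with `n` variables, exponents `bs`, and `fuel` digits per level -/
def certNN (n : ℕ) (bs : ℕ → ℕ) (fuel : ℕ) (e : Ex) : Bool :=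
  and (bsOK bs n) (and (e.varsBelow n) (and (sizesOK bs e n) (
    match Ex.evalZ (fun i => Int.ofNat (2 ^ bs i)) e with
    | Int.ofNat z => chk bs fuel n z
    | Int.negSucc _ => false)))

theorem bsOK_spec (bs : ℕ → ℕ) (n : ℕ) (h : bsOK bs n = true) : ∀ j < n, 0 < bs j := by
  induction n with
  | zero => intro j hj; omega
  | succ n ih =>
    simp only [bsOK, Bool.and_eq_true] at h
    intro j hj
    rcases Nat.lt_succ_iff_lt_or_eq.1 hj with hj | hj
    · exact ih h.2 j hj
    · subst hj
      exact Nat.lt_of_succ_le (Nat.le_of_ble_eq_true h.1)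

theorem certNN_sound (n : ℕ) (bs : ℕ → ℕ) (fuel : ℕ) (e : Ex)
    (h : certNN n bs fuel e = true) (y : ℕ → ℝ) (hy : ∀ i < n, 0 ≤ y i) : 0 ≤ e.eval y := by
  unfold certNN at h
  simp only [Bool.and_eq_true] at h
  obtain ⟨h0, h1, h2, h3⟩ := h
  have hbs := bsOK_spec bs n h0
  have hval : Ex.eval (fun i => ((2 ^ bs i : ℕ) : ℤ)) e =
      Ex.evalZ (fun i => Int.ofNat (2 ^ bs i)) e := by
    rw [Ex.evalZ_eq]; rfl
  cases hz : Ex.evalZ (fun i => Int.ofNat (2 ^ bs i)) e with
  | negSucc m => rw [hz] at h3; simp at h3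
  | ofNat z =>
    rw [hz] at h3
    have hnn : NP.NN n (toNP n e) := by
      refine chk_sound bs fuel n hbs (toNP n e) z ?_ ?_ h3
      · rw [ev_toNP _ n e h1, hval, hz]; rfl
      · intro j hj
        exact lt_of_le_of_lt (Nat.mul_le_mul_left 2 (ab_toNP _ n e h1))
          (sizesOK_spec bs e n h2 j hj)
    rw [← ev_toNP y n e h1]
    exact NN_ev y n hy _ hnn

/-- digit analysis for the value zero -/
theorem zero_sound (bs : ℕ → ℕ) (k : ℕ) (x : NP k)
    (hz : NP.ev (fun i => ((2 ^ bs i : ℕ) : ℤ)) k x = 0)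
    (hsize : ∀ j < k, 2 * NP.ab (ptsBelow (fun i => 2 ^ bs i) j) k x < 2 ^ bs j) : NP.ZZ k x := by
  induction k with
  | zero =>
    have key : ∀ y : ℤ, Int.cast (R := ℤ) y = 0 → y = 0 := fun y hy => by simpa using hy
    exact key x hz
  | succ k ih =>
    let B : ℕ → ℕ := fun i => 2 ^ bs i
    have hone : ∀ j ≤ k, ptsBelow B j k = 1 := fun j hj => by simp [ptsBelow, Nat.not_lt.2 hj]
    have hle : ∀ j ≤ k, ∀ a, List.Mem a x →
        NP.ab (ptsBelow B j) k a ≤ NP.ab (ptsBelow B j) (k + 1) x := by
      intro j hj a ha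
      change NP.ab (ptsBelow B j) k a ≤ hev (NP.ab (ptsBelow B j) k) (ptsBelow B j k) x
      rw [hone j hj]
      exact le_hev_of_mem _ _ _ ha
    have hlist : ∀ l : List (NP k), (∀ a, List.Mem a l → List.Mem a x) →
        hev (NP.ev (fun i => ((B i : ℕ) : ℤ)) k) ((B k : ℕ) : ℤ) l = 0 →
        ∀ a, List.Mem a l → NP.ZZ k a := by
      intro l
      induction l with
      | nil => intro _ _ a ha; cases ha
      | cons a l ihl =>
        intro hsub hzero c hc
        have hax : List.Mem a x := hsub a (List.Mem.head l)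
        have hsa := lt_of_le_of_lt (Nat.mul_le_mul_left 2 (hle k le_rfl a hax)) (hsize k (by omega))
        have hea : 2 * |NP.ev (fun i => ((B i : ℕ) : ℤ)) k a| < ((B k : ℕ) : ℤ) := by
          have h1 := abs_ev_le B (ptsBelow B k) k (fun i hi => by simp [ptsBelow, hi]) a
          have h2 : (2 * (NP.ab (ptsBelow B k) k a : ℤ)) < ((B k : ℕ) : ℤ) := by exact_mod_cast hsa
          linarith
        have hz' : ((0 : ℕ) : ℤ) = NP.ev (fun i => ((B i : ℕ) : ℤ)) k a + ((B k : ℕ) : ℤ) *
            hev (NP.ev (fun i => ((B i : ℕ) : ℤ)) k) ((B k : ℕ) : ℤ) l := by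
          simpa [hev] using hzero.symm
        have hd : 2 * (0 % B k) < B k := by simp; exact (by positivity)
        obtain ⟨h1, h2⟩ := digit_step _ _ _ _ hz' hea hd
        have h1' : NP.ev (fun i => ((B i : ℕ) : ℤ)) k a = 0 := by simpa using h1
        have h2' : hev (NP.ev (fun i => ((B i : ℕ) : ℤ)) k) ((B k : ℕ) : ℤ) l = 0 := by simpa using h2
        cases hc with
        | head => exact ih a h1' (fun j hj => lt_of_le_of_lt
            (Nat.mul_le_mul_left 2 (hle j hj.le a hax)) (hsize j (by omega)))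
        | tail _ hc => exact ihl (fun b hb => hsub b (List.Mem.tail _ hb)) h2' c hc
    exact hlist x (fun a ha => ha) hz

/-- the certificate of vanishing -/
def certZZ (n : ℕ) (bs : ℕ → ℕ) (e : Ex) : Bool :=
  and (e.varsBelow n) (and (sizesOK bs e n) (
    match Ex.evalZ (fun i => Int.ofNat (2 ^ bs i)) e with
    | Int.ofNat z => Nat.beq z 0
    | Int.negSucc _ => false))

theorem certZZ_sound (n : ℕ) (bs : ℕ → ℕ) (e : Ex)
    (h : certZZ n bs e = true) {R : Type} [CommRing R] (y : ℕ → R) : e.eval y = 0 := by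
  unfold certZZ at h
  simp only [Bool.and_eq_true] at h
  obtain ⟨h1, h2, h3⟩ := h
  have hval : Ex.eval (fun i => ((2 ^ bs i : ℕ) : ℤ)) e =
      Ex.evalZ (fun i => Int.ofNat (2 ^ bs i)) e := by
    rw [Ex.evalZ_eq]; rfl
  cases hz : Ex.evalZ (fun i => Int.ofNat (2 ^ bs i)) e with
  | negSucc m => rw [hz] at h3; simp at h3
  | ofNat z =>
    rw [hz] at h3
    simp only [Nat.beq_eq] at h3
    subst h3
    have hzz : NP.ZZ n (toNP n e) := by
      refine zero_sound bs n (toNP n e) ?_ ?_
      · rw [ev_toNP _ n e h1, hval, hz]; rfl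
      · intro j hj
        exact lt_of_le_of_lt (Nat.mul_le_mul_left 2 (ab_toNP _ n e h1))
          (sizesOK_spec bs e n h2 j hj)
    rw [← ev_toNP y n e h1]
    exact ZZ_ev y n _ hzz

end Vale.Agent.Lib.P154Q4.Kron
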