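import Vale.Agent.Lib.P154.GW.Defs
import Vale.Agent.Lib.P154Q4.Rec

/-!
The link between the tree recursion and the functionals, for the four-state Potts channel.
-/

namespace Vale.Agent.Lib.P154Q4

open scoped BigOperators
open Filter Topology
open Vale.Agent.Lib.P154 (potts spinDelta LeafConfig leafLik leafProb rootPosterior reconError
  leafConfigFintype)

/-- `E` is the expectation, on bounded functions, with weights `w` at the points `y` -/
structure Rep (E : Ex4) {C : Type} (w y0 y1 y2 y3 : C → ℝ) : Prop where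
  w_nonneg : ∀ t, 0 ≤ w t
  w_summable : Summable w
  pts : ∀ t, w t ≠ 0 → Simp (y0 t) (y1 t) (y2 t) (y3 t)
  eq : ∀ f : Fn4, Bd f → E f = ∑' t, w t * f (y0 t) (y1 t) (y2 t) (y3 t)

namespace Rep

variable {E : Ex4} {C : Type} {w y0 y1 y2 y3 : C → ℝ}

/-- the bound of the integrand -/
theorem term_bound (h : Rep E w y0 y1 y2 y3) {f : Fn4} {B : ℝ}
    (hB : ∀ a b c d, Simp a b c d → |f a b c d| ≤ B) (t : C) :
    |w t * f (y0 t) (y1 t) (y2 t) (y3 t)| ≤ w t * B := by
  by_cases h0 : w t = 0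
  · rw [h0]
    simp
  · rw [abs_mul, abs_of_nonneg (h.w_nonneg t)]
    exact mul_le_mul_of_nonneg_left (hB _ _ _ _ (h.pts t h0)) (h.w_nonneg t)

theorem summable_term (h : Rep E w y0 y1 y2 y3) {f : Fn4} (hf : Bd f) :
    Summable (fun t => w t * f (y0 t) (y1 t) (y2 t) (y3 t)) := by
  obtain ⟨B, hB⟩ := hf
  exact Summable.of_norm_bounded (g := fun t => w t * B) (h.w_summable.mul_right B)
    (fun t => by
      rw [Real.norm_eq_abs]
      exact h.term_bound hB t)

/-- change of the index type -/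
theorem equiv {C' : Type} (h : Rep E w y0 y1 y2 y3) (e : C' ≃ C) :
    Rep E (fun t => w (e t)) (fun t => y0 (e t)) (fun t => y1 (e t)) (fun t => y2 (e t))
      (fun t => y3 (e t)) where
  w_nonneg t := h.w_nonneg _
  w_summable := (e.summable_iff (f := w)).2 h.w_summable
  pts t ht := h.pts _ ht
  eq f hf := by
    rw [h.eq f hf]
    exact (e.tsum_eq (fun t => w t * f (y0 t) (y1 t) (y2 t) (y3 t))).symm

/-- change of the weights and points on the support -/
theorem congr {w' z0 z1 z2 z3 : C → ℝ} (h : Rep E w y0 y1 y2 y3) (hw : ∀ t, w' t = w t)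
    (hz : ∀ t, w t ≠ 0 → z0 t = y0 t ∧ z1 t = y1 t ∧ z2 t = y2 t ∧ z3 t = y3 t) :
    Rep E w' z0 z1 z2 z3 where
  w_nonneg t := by rw [hw]; exact h.w_nonneg t
  w_summable := by
    have : w' = w := funext hw
    rw [this]
    exact h.w_summable
  pts t ht := by
    rw [hw] at ht
    obtain ⟨e0, e1, e2, e3⟩ := hz t ht
    rw [e0, e1, e2, e3]
    exact h.pts t ht
  eq f hf := by
    rw [h.eq f hf]
    refine tsum_congr (fun t => ?_)
    rw [hw]
    by_cases h0 : w t = 0
    · rw [h0]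
      ring
    · obtain ⟨e0, e1, e2, e3⟩ := hz t h0
      rw [e0, e1, e2, e3]

end Rep

/-- the law of the channel output -/
theorem Rep.chan {E : Ex4} {C : Type} {w y0 y1 y2 y3 : C → ℝ} (h : Rep E w y0 y1 y2 y3) {lam : ℝ}
    (h0 : 0 ≤ lam) (h1 : lam ≤ 1) :
    Rep (chan lam E) w (fun t => chanPt lam (y0 t)) (fun t => chanPt lam (y1 t))
      (fun t => chanPt lam (y2 t)) (fun t => chanPt lam (y3 t)) where
  w_nonneg := h.w_nonneg
  w_summable := h.w_summable
  pts t ht := chan_simp h0 h1 (h.pts t ht)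
  eq f hf := h.eq _ (bd_chan h0 h1 hf)

/-- the law of the Bayesian product -/
theorem Rep.bprod {E E' : Ex4} {K2 : ℝ → ℝ → ℝ → ℝ → Prop} (hE' : BExp E' K2) {C D : Type}
    {w y0 y1 y2 y3 : C → ℝ} {w' z0 z1 z2 z3 : D → ℝ} (h : Rep E w y0 y1 y2 y3)
    (h' : Rep E' w' z0 z1 z2 z3) :
    Rep (bprod E E')
      (fun t : C × D => w t.1 * w' t.2 *
        (4 * (y0 t.1 * z0 t.2 + y1 t.1 * z1 t.2 + y2 t.1 * z2 t.2 + y3 t.1 * z3 t.2)))
      (fun t => y0 t.1 * z0 t.2 / (y0 t.1 * z0 t.2 + y1 t.1 * z1 t.2 + y2 t.1 * z2 t.2 + y3 t.1 * z3 t.2))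
      (fun t => y1 t.1 * z1 t.2 / (y0 t.1 * z0 t.2 + y1 t.1 * z1 t.2 + y2 t.1 * z2 t.2 + y3 t.1 * z3 t.2))
      (fun t => y2 t.1 * z2 t.2 / (y0 t.1 * z0 t.2 + y1 t.1 * z1 t.2 + y2 t.1 * z2 t.2 + y3 t.1 * z3 t.2))
      (fun t => y3 t.1 * z3 t.2 / (y0 t.1 * z0 t.2 + y1 t.1 * z1 t.2 + y2 t.1 * z2 t.2 + y3 t.1 * z3 t.2)) := by
  set W : C × D → ℝ :=
    fun t : C × D => w t.1 * w' t.2 *
      (4 * (y0 t.1 * z0 t.2 + y1 t.1 * z1 t.2 + y2 t.1 * z2 t.2 + y3 t.1 * z3 t.2))
    with hW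
  have hww : Summable (fun t : C × D => w t.1 * w' t.2) :=
    h.w_summable.mul_of_nonneg h'.w_summable h.w_nonneg h'.w_nonneg
  have hsimp : ∀ t : C × D, w t.1 * w' t.2 ≠ 0 →
      Simp (y0 t.1) (y1 t.1) (y2 t.1) (y3 t.1) ∧ Simp (z0 t.2) (z1 t.2) (z2 t.2) (z3 t.2) := by
    intro t ht
    exact ⟨h.pts _ (left_ne_zero_of_mul ht), h'.pts _ (right_ne_zero_of_mul ht)⟩
  have hwnn : ∀ t : C × D, 0 ≤ w t.1 * w' t.2 :=
    fun t => mul_nonneg (h.w_nonneg _) (h'.w_nonneg _)
  -- the bound for the double sum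
  have hbound : ∀ {f : Fn4} {B : ℝ}, (∀ a b c d, Simp a b c d → |f a b c d| ≤ B) → ∀ t : C × D,
      |w t.1 * w' t.2 * wt f (y0 t.1) (y1 t.1) (y2 t.1) (y3 t.1) (z0 t.2) (z1 t.2) (z2 t.2) (z3 t.2)|
        ≤ w t.1 * w' t.2 * (4 * B) := by
    intro f B hB t
    by_cases h0 : w t.1 * w' t.2 = 0
    · rw [h0]
      simp
    · obtain ⟨s1, s2⟩ := hsimp t h0
      rw [abs_mul, abs_of_nonneg (hwnn t)]
      exact mul_le_mul_of_nonneg_left (wt_bound hB s1 s2) (hwnn t)
  have hsum2 : ∀ {f : Fn4}, Bd f → Summable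
      (fun t : C × D => w t.1 * w' t.2 *
        wt f (y0 t.1) (y1 t.1) (y2 t.1) (y3 t.1) (z0 t.2) (z1 t.2) (z2 t.2) (z3 t.2)) := by
    intro f hf
    obtain ⟨B, hB⟩ := hf
    exact Summable.of_norm_bounded (g := fun t : C × D => w t.1 * w' t.2 * (4 * B))
      (hww.mul_right _) (fun t => by
        rw [Real.norm_eq_abs]
        exact hbound hB t)
  have hWeq : ∀ t : C × D, W t = w t.1 * w' t.2 * wt (fun _ _ _ _ => 1) (y0 t.1) (y1 t.1) (y2 t.1)
      (y3 t.1) (z0 t.2) (z1 t.2) (z2 t.2) (z3 t.2) := by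
    intro t
    rw [hW]
    unfold wt
    ring
  refine ⟨fun t => ?_, ?_, fun t ht => ?_, fun f hf => ?_⟩
  · by_cases h0 : w t.1 * w' t.2 = 0
    · show 0 ≤ w t.1 * w' t.2 * _
      rw [h0, zero_mul]
    · obtain ⟨s1, s2⟩ := hsimp t h0
      exact mul_nonneg (hwnn t) (by have := dot_nonneg s1 s2; positivity)
  · have := hsum2 (Bd.const (1 : ℝ))
    exact this.congr (fun t => (hWeq t).symm)
  · have h0 : w t.1 * w' t.2 ≠ 0 := left_ne_zero_of_mul ht
    obtain ⟨s1, s2⟩ := hsimp t h0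
    have hD : y0 t.1 * z0 t.2 + y1 t.1 * z1 t.2 + y2 t.1 * z2 t.2 + y3 t.1 * z3 t.2 ≠ 0 := by
      intro hz
      apply ht
      simp only [hW]
      rw [hz]
      ring
    exact prod_simp s1 s2 (lt_of_le_of_ne (dot_nonneg s1 s2) (Ne.symm hD))
  · -- the computation of the product law
    have hin : Bd (fun a b c d => E' (fun p q r s => wt f a b c d p q r s)) := bd_inner hf hE'
    have e1 : Vale.Agent.Lib.P154Q4.bprod E E' f
        = E (fun a b c d => E' (fun p q r s => wt f a b c d p q r s)) := rfl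
    rw [e1, h.eq _ hin]
    have e2 : ∀ s : C, w s * E' (fun p q r s' => wt f (y0 s) (y1 s) (y2 s) (y3 s) p q r s')
        = ∑' t : D, w s * w' t * wt f (y0 s) (y1 s) (y2 s) (y3 s) (z0 t) (z1 t) (z2 t) (z3 t) := by
      intro s
      by_cases h0 : w s = 0
      · simp [h0]
      · rw [h'.eq _ (bd_wt hf (h.pts s h0)), ← tsum_mul_left]
        refine tsum_congr (fun t => ?_)
        ring
    simp only [e2]
    rw [← (hsum2 hf).tsum_prod' (fun s => ((hsum2 hf).prod_factor s))]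
    refine tsum_congr (fun t => ?_)
    simp only [hW]
    unfold wt
    ring

/-- the likelihood-type weights of a tuple -/
noncomputable def tupW {C : Type} (w y0 y1 y2 y3 : C → ℝ) (k : ℕ) (s : Fin k → C) : ℝ :=
  (∏ c, w (s c)) * (4 ^ k / 4 * (∏ c, y0 (s c) + ∏ c, y1 (s c) + ∏ c, y2 (s c) + ∏ c, y3 (s c)))

/-- the coordinates of a tuple -/
noncomputable def tupX {C : Type} (y0 y1 y2 y3 y : C → ℝ) (k : ℕ) (s : Fin k → C) : ℝ :=
  (∏ c, y (s c)) / (∏ c, y0 (s c) + ∏ c, y1 (s c) + ∏ c, y2 (s c) + ∏ c, y3 (s c))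

/-- adding a last coordinate -/
def consE (C : Type) (k : ℕ) : (Fin k → C) × C ≃ (Fin (k + 1) → C) :=
  (Equiv.prodComm _ _).trans (Fin.consEquiv (fun _ : Fin (k + 1) => C))

theorem prod_consE {C : Type} {k : ℕ} (g : C → ℝ) (b : Fin k → C) (a : C) :
    ∏ c, g (consE C k (b, a) c) = g a * ∏ c, g (b c) := by
  rw [Fin.prod_univ_succ]
  rfl

theorem alg_w {Wb wa L0 L1 L2 L3 y0 y1 y2 y3 : ℝ} (k : ℕ) (h0 : 0 ≤ L0) (h1 : 0 ≤ L1) (h2 : 0 ≤ L2)
    (h3 : 0 ≤ L3) :
    (wa * Wb) * (4 ^ (k + 1) / 4 * (y0 * L0 + y1 * L1 + y2 * L2 + y3 * L3))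
      = Wb * (4 ^ k / 4 * (L0 + L1 + L2 + L3)) * wa *
        (4 * (L0 / (L0 + L1 + L2 + L3) * y0 + L1 / (L0 + L1 + L2 + L3) * y1
          + L2 / (L0 + L1 + L2 + L3) * y2 + L3 / (L0 + L1 + L2 + L3) * y3)) := by
  rcases (add_nonneg (add_nonneg (add_nonneg h0 h1) h2) h3).eq_or_lt with hS | hS
  · have z0 : L0 = 0 := by linarith
    have z1 : L1 = 0 := by linarith
    have z2 : L2 = 0 := by linarith
    have z3 : L3 = 0 := by linarith
    rw [z0, z1, z2, z3]
    ring
  · have hne := hS.ne'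
    field_simp
    ring

theorem alg_x {Wb wa L0 L1 L2 L3 y0 y1 y2 y3 : ℝ} {k : ℕ} (h0 : 0 ≤ L0) (h1 : 0 ≤ L1) (h2 : 0 ≤ L2)
    (h3 : 0 ≤ L3)
    (hs : Wb * (4 ^ k / 4 * (L0 + L1 + L2 + L3)) * wa *
        (4 * (L0 / (L0 + L1 + L2 + L3) * y0 + L1 / (L0 + L1 + L2 + L3) * y1
          + L2 / (L0 + L1 + L2 + L3) * y2 + L3 / (L0 + L1 + L2 + L3) * y3)) ≠ 0)
    {y L : ℝ} :
    y * L / (y0 * L0 + y1 * L1 + y2 * L2 + y3 * L3)
      = (L / (L0 + L1 + L2 + L3) * y) /
        (L0 / (L0 + L1 + L2 + L3) * y0 + L1 / (L0 + L1 + L2 + L3) * y1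
          + L2 / (L0 + L1 + L2 + L3) * y2 + L3 / (L0 + L1 + L2 + L3) * y3) := by
  rcases (add_nonneg (add_nonneg (add_nonneg h0 h1) h2) h3).eq_or_lt with hS | hS
  · exfalso
    apply hs
    rw [← hS]
    ring
  · have hne := hS.ne'
    have e0 : L0 / (L0 + L1 + L2 + L3) * y0 + L1 / (L0 + L1 + L2 + L3) * y1
        + L2 / (L0 + L1 + L2 + L3) * y2 + L3 / (L0 + L1 + L2 + L3) * y3
        = (y0 * L0 + y1 * L1 + y2 * L2 + y3 * L3) / (L0 + L1 + L2 + L3) := by
      field_simp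
    rw [e0]
    have hD : y0 * L0 + y1 * L1 + y2 * L2 + y3 * L3 ≠ 0 := by
      intro hz
      apply hs
      rw [e0, hz]
      ring
    field_simp

/-- The `k`-fold product functional as a sum over `k`-tuples. -/
theorem Pk_rep {E' : Ex4} {K2 : ℝ → ℝ → ℝ → ℝ → Prop} (hE' : BExp E' K2) {C : Type}
    {w y0 y1 y2 y3 : C → ℝ} (h : Rep E' w y0 y1 y2 y3)
    (hy0 : ∀ t, 0 ≤ y0 t) (hy1 : ∀ t, 0 ≤ y1 t) (hy2 : ∀ t, 0 ≤ y2 t) (hy3 : ∀ t, 0 ≤ y3 t) (k : ℕ) :
    Rep (Pk E' k) (tupW w y0 y1 y2 y3 k) (tupX y0 y1 y2 y3 y0 k) (tupX y0 y1 y2 y3 y1 k)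
      (tupX y0 y1 y2 y3 y2 k) (tupX y0 y1 y2 y3 y3 k) := by
  induction k with
  | zero =>
    refine ⟨fun s => ?_, ?_, fun s _ => ?_, fun f _ => ?_⟩
    · unfold tupW
      simp
      norm_num
    · exact (hasSum_fintype _).summable
    · unfold tupX
      simp
      exact ⟨by norm_num, by norm_num, by norm_num, by norm_num, by norm_num⟩
    · rw [tsum_fintype, Fintype.sum_unique]
      simp only [Pk, centre, tupW, tupX, Finset.univ_eq_empty, Finset.prod_empty]
      norm_num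
  | succ k ih =>
    have hP := Rep.bprod hE' ih h
    have hQ := hP.equiv (consE C k).symm
    have nn0 : ∀ b : Fin k → C, 0 ≤ ∏ c, y0 (b c) := fun b => Finset.prod_nonneg (fun c _ => hy0 _)
    have nn1 : ∀ b : Fin k → C, 0 ≤ ∏ c, y1 (b c) := fun b => Finset.prod_nonneg (fun c _ => hy1 _)
    have nn2 : ∀ b : Fin k → C, 0 ≤ ∏ c, y2 (b c) := fun b => Finset.prod_nonneg (fun c _ => hy2 _)
    have nn3 : ∀ b : Fin k → C, 0 ≤ ∏ c, y3 (b c) := fun b => Finset.prod_nonneg (fun c _ => hy3 _)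
    refine hQ.congr (fun s => ?_) (fun s hs => ?_)
    · obtain ⟨⟨b, a⟩, rfl⟩ := (consE C k).surjective s
      simp only [Equiv.symm_apply_apply, tupW, tupX, prod_consE]
      exact alg_w k (nn0 b) (nn1 b) (nn2 b) (nn3 b)
    · obtain ⟨⟨b, a⟩, rfl⟩ := (consE C k).surjective s
      simp only [Equiv.symm_apply_apply, tupW, tupX, prod_consE] at hs ⊢
      exact ⟨alg_x (nn0 b) (nn1 b) (nn2 b) (nn3 b) hs, alg_x (nn0 b) (nn1 b) (nn2 b) (nn3 b) hs,
        alg_x (nn0 b) (nn1 b) (nn2 b) (nn3 b) hs, alg_x (nn0 b) (nn1 b) (nn2 b) (nn3 b) hs⟩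

theorem sum_potts (lam : ℝ) (i : Fin 4) (g : Fin 4 → ℝ) :
    ∑ j : Fin 4, potts 4 lam i j * g j = lam * g i + (1 - lam) / 4 * (g 0 + g 1 + g 2 + g 3) := by
  rw [Fin.sum_univ_four]
  unfold potts
  fin_cases i <;> simp <;> ring

theorem delta_sum (s : Fin 4) :
    spinDelta 4 0 s + spinDelta 4 1 s + spinDelta 4 2 s + spinDelta 4 3 s = 1 := by
  have hs : ∀ t : Fin 4, t = 0 ∨ t = 1 ∨ t = 2 ∨ t = 3 := by decide
  rcases hs s with h | h | h | h <;> rw [h] <;> simp [spinDelta]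

/-! ### the `d`-ary tree -/

section tree

variable {d : ℕ} {lam : ℝ}

/-- the total likelihood of a configuration -/
noncomputable def totLik (d : ℕ) (lam : ℝ) (n : ℕ) (s : LeafConfig d 4 n) : ℝ :=
  leafLik d 4 lam n 0 s + leafLik d 4 lam n 1 s + leafLik d 4 lam n 2 s + leafLik d 4 lam n 3 s

/-- the coordinates of the posterior -/
noncomputable def postC (d : ℕ) (lam : ℝ) (n : ℕ) (i : Fin 4) (s : LeafConfig d 4 n) : ℝ :=
  leafLik d 4 lam n i s / totLik d lam n s

theorem leafLik_succ (lam : ℝ) (n : ℕ) (i : Fin 4) (s : LeafConfig d 4 (n + 1)) :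
    leafLik d 4 lam (n + 1) i s = ∏ c : Fin d,
      (lam * leafLik d 4 lam n i ((s : Fin d → LeafConfig d 4 n) c)
        + (1 - lam) / 4 * totLik d lam n ((s : Fin d → LeafConfig d 4 n) c)) := by
  show (∏ c : Fin d, ∑ j : Fin 4, potts 4 lam i j * leafLik d 4 lam n j
    ((s : Fin d → LeafConfig d 4 n) c)) = _
  refine Finset.prod_congr rfl (fun c _ => ?_)
  rw [sum_potts]
  rfl

theorem leafLik_nonneg (h0 : 0 ≤ lam) (h1 : lam ≤ 1) (n : ℕ) :
    ∀ (i : Fin 4) (s : LeafConfig d 4 n), 0 ≤ leafLik d 4 lam n i s := by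
  induction n with
  | zero =>
    intro i s
    show 0 ≤ spinDelta 4 i s
    unfold spinDelta
    split_ifs <;> norm_num
  | succ n ih =>
    intro i s
    rw [leafLik_succ]
    refine Finset.prod_nonneg (fun c _ => ?_)
    have h2 := ih i ((s : Fin d → LeafConfig d 4 n) c)
    have h3 : 0 ≤ totLik d lam n ((s : Fin d → LeafConfig d 4 n) c) :=
      add_nonneg (add_nonneg (add_nonneg (ih 0 _) (ih 1 _)) (ih 2 _)) (ih 3 _)
    have h4 : 0 ≤ (1 - lam) / 4 := by linarith
    positivity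

theorem totLik_nonneg (h0 : 0 ≤ lam) (h1 : lam ≤ 1) (n : ℕ) (s : LeafConfig d 4 n) :
    0 ≤ totLik d lam n s :=
  add_nonneg (add_nonneg (add_nonneg (leafLik_nonneg h0 h1 n 0 s) (leafLik_nonneg h0 h1 n 1 s))
    (leafLik_nonneg h0 h1 n 2 s)) (leafLik_nonneg h0 h1 n 3 s)

theorem postC_nonneg (h0 : 0 ≤ lam) (h1 : lam ≤ 1) (n : ℕ) (i : Fin 4) (s : LeafConfig d 4 n) :
    0 ≤ postC d lam n i s :=
  div_nonneg (leafLik_nonneg h0 h1 n i s) (totLik_nonneg h0 h1 n s)

theorem leafLik_eq_zero (h0 : 0 ≤ lam) (h1 : lam ≤ 1) (n : ℕ) (i : Fin 4) (s : LeafConfig d 4 n)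
    (hT : totLik d lam n s = 0) : leafLik d 4 lam n i s = 0 := by
  have a0 := leafLik_nonneg h0 h1 n 0 s
  have a1 := leafLik_nonneg h0 h1 n 1 s
  have a2 := leafLik_nonneg h0 h1 n 2 s
  have a3 := leafLik_nonneg h0 h1 n 3 s
  unfold totLik at hT
  have hs : ∀ t : Fin 4, t = 0 ∨ t = 1 ∨ t = 2 ∨ t = 3 := by decide
  rcases hs i with rfl | rfl | rfl | rfl <;> linarith

theorem postC_simp {n : ℕ} (h0 : 0 ≤ lam) (h1 : lam ≤ 1) (s : LeafConfig d 4 n)
    (hT : totLik d lam n s ≠ 0) :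
    Simp (postC d lam n 0 s) (postC d lam n 1 s) (postC d lam n 2 s) (postC d lam n 3 s) := by
  refine ⟨postC_nonneg h0 h1 n 0 s, postC_nonneg h0 h1 n 1 s, postC_nonneg h0 h1 n 2 s,
    postC_nonneg h0 h1 n 3 s, ?_⟩
  unfold postC
  rw [← add_div, ← add_div, ← add_div]
  exact div_self hT

/-- the functional is a symmetric expectation on the simplex for every `lam` in `[0,1]` -/
theorem Ehat_bexp (h0 : 0 ≤ lam) (h1 : lam ≤ 1) (n : ℕ) : BExp (Ehat d lam n) Simp := by
  induction n with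
  | zero => exact vertexEx_bexp (fun _ _ _ _ h => h) simp_v1 simp_v2 simp_v3 simp_v4
  | succ n ih =>
    have hc : BExp (chan lam (Ehat d lam n)) Simp :=
      chan_bexp ih h0 h1 (fun _ _ _ _ h => h) (fun a b c d hK => chan_simp h0 h1 hK)
    have hF : ∀ k, BExp (Pk (chan lam (Ehat d lam n)) k) Simp := by
      intro k
      induction k with
      | zero => exact centre_bexp (fun _ _ _ _ h => h) simp_centre
      | succ k ih2 =>
        exact bprod_bexp ih2 hc (fun _ _ _ _ h => h)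
          (fun a b c d q r s t h1 h2 hD => prod_simp h1 h2 hD)
    exact hF d

/-- The functional of the recursion is the law of the posterior. -/
theorem Ehat_rep (h0 : 0 ≤ lam) (h1 : lam ≤ 1) (n : ℕ) :
    Rep (Ehat d lam n) (fun s : LeafConfig d 4 n => 1 / 4 * totLik d lam n s)
      (postC d lam n 0) (postC d lam n 1) (postC d lam n 2) (postC d lam n 3) := by
  induction n with
  | zero =>
    have hT : ∀ s : Fin 4, totLik d lam 0 s = 1 := by
      intro s
      show spinDelta 4 0 s + spinDelta 4 1 s + spinDelta 4 2 s + spinDelta 4 3 s = 1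
      exact delta_sum s
    refine ⟨fun s => ?_, (hasSum_fintype _).summable, fun s hs => ?_, fun f _ => ?_⟩
    · have := totLik_nonneg h0 h1 0 s
      positivity
    · exact postC_simp h0 h1 s (fun h => hs (by rw [h]; ring))
    · show vertexEx f = ∑' s : Fin 4, _
      rw [tsum_fintype, Fin.sum_univ_four]
      have v : ∀ (s i : Fin 4), postC d lam 0 i s = spinDelta 4 i s := by
        intro s i
        unfold postC
        rw [hT s, div_one]
        rfl
      have dd : ∀ i j : Fin 4, spinDelta 4 i j = if i = j then 1 else 0 := fun _ _ => rfl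
      simp only [v, hT, dd]
      unfold vertexEx
      simp
      ring
  | succ n ih =>
    have hB := Ehat_bexp (d := d) h0 h1 n
    have hcB : BExp (chan lam (Ehat d lam n)) Simp :=
      chan_bexp hB h0 h1 (fun _ _ _ _ h => h) (fun a b c d hK => chan_simp h0 h1 hK)
    have hc := ih.chan h0 h1
    have hy : ∀ (i : Fin 4) (t : LeafConfig d 4 n), 0 ≤ chanPt lam (postC d lam n i t) :=
      fun i t => chanPt_nonneg h0 h1 (postC_nonneg h0 h1 n i t)
    have hPk := Pk_rep hcB hc (hy 0) (hy 1) (hy 2) (hy 3) d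
    -- the child factor
    have hchild : ∀ (i : Fin 4) (t : LeafConfig d 4 n),
        lam * leafLik d 4 lam n i t + (1 - lam) / 4 * totLik d lam n t
          = totLik d lam n t * chanPt lam (postC d lam n i t) := by
      intro i t
      by_cases hT : totLik d lam n t = 0
      · rw [hT, leafLik_eq_zero h0 h1 n i t hT]
        ring
      · unfold chanPt postC
        field_simp
    have hL : ∀ (i : Fin 4) (s : Fin d → LeafConfig d 4 n),
        leafLik d 4 lam (n + 1) i s = (∏ c, totLik d lam n (s c))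
          * ∏ c, chanPt lam (postC d lam n i (s c)) := by
      intro i s
      rw [← Finset.prod_mul_distrib]
      refine (leafLik_succ lam n i s).trans ?_
      exact Finset.prod_congr rfl (fun c _ => hchild i (s c))
    have hW : ∀ (s : Fin d → LeafConfig d 4 n), ∏ c, (1 / 4 * totLik d lam n (s c))
        = (1 / 4) ^ d * ∏ c, totLik d lam n (s c) := by
      intro s
      rw [Finset.prod_mul_distrib]
      simp
    refine hPk.congr ?_ ?_
    · intro s
      show 1 / 4 * totLik d lam (n + 1) s = tupW _ _ _ _ _ d s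
      have htot : totLik d lam (n + 1) s = leafLik d 4 lam (n + 1) 0 s
          + leafLik d 4 lam (n + 1) 1 s + leafLik d 4 lam (n + 1) 2 s
          + leafLik d 4 lam (n + 1) 3 s := rfl
      rw [htot, hL, hL, hL, hL]
      unfold tupW
      dsimp only
      rw [hW]
      have e3 : ((1 : ℝ) / 4) ^ d * 4 ^ d = 1 := by
        rw [← mul_pow]
        norm_num
      set T := ∏ c, totLik d lam n (s c)
      set L0 := ∏ c, chanPt lam (postC d lam n 0 (s c))
      set L1 := ∏ c, chanPt lam (postC d lam n 1 (s c))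
      set L2 := ∏ c, chanPt lam (postC d lam n 2 (s c))
      set L3 := ∏ c, chanPt lam (postC d lam n 3 (s c))
      linear_combination (-(1 / 4) * T * (L0 + L1 + L2 + L3)) * e3
    · intro s hs
      have hs' : tupW (fun s => 1 / 4 * totLik d lam n s)
          (fun t => chanPt lam (postC d lam n 0 t)) (fun t => chanPt lam (postC d lam n 1 t))
          (fun t => chanPt lam (postC d lam n 2 t)) (fun t => chanPt lam (postC d lam n 3 t)) d s ≠ 0 := hs
      unfold tupW at hs'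
      simp only [hW] at hs'
      have hTne : ∏ c, totLik d lam n (s c) ≠ 0 :=
        right_ne_zero_of_mul (left_ne_zero_of_mul hs')
      have hSne : ∏ c, chanPt lam (postC d lam n 0 (s c)) + ∏ c, chanPt lam (postC d lam n 1 (s c))
          + ∏ c, chanPt lam (postC d lam n 2 (s c)) + ∏ c, chanPt lam (postC d lam n 3 (s c)) ≠ 0 :=
        right_ne_zero_of_mul (right_ne_zero_of_mul hs')
      have hP : ∀ i : Fin 4, postC d lam (n + 1) i s
          = (∏ c, chanPt lam (postC d lam n i (s c)))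
            / (∏ c, chanPt lam (postC d lam n 0 (s c)) + ∏ c, chanPt lam (postC d lam n 1 (s c))
              + ∏ c, chanPt lam (postC d lam n 2 (s c)) + ∏ c, chanPt lam (postC d lam n 3 (s c))) := by
        intro i
        have hpost : postC d lam (n + 1) i s = leafLik d 4 lam (n + 1) i s
            / (leafLik d 4 lam (n + 1) 0 s + leafLik d 4 lam (n + 1) 1 s
              + leafLik d 4 lam (n + 1) 2 s + leafLik d 4 lam (n + 1) 3 s) := rfl
        rw [hpost, hL, hL, hL, hL, hL]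
        set T := ∏ c, totLik d lam n (s c)
        set L0 := ∏ c, chanPt lam (postC d lam n 0 (s c))
        set L1 := ∏ c, chanPt lam (postC d lam n 1 (s c))
        set L2 := ∏ c, chanPt lam (postC d lam n 2 (s c))
        set L3 := ∏ c, chanPt lam (postC d lam n 3 (s c))
        have : T * L0 + T * L1 + T * L2 + T * L3 = T * (L0 + L1 + L2 + L3) := by
          ring
        rw [this, mul_div_mul_left _ _ hTne]
      exact ⟨hP 0, hP 1, hP 2, hP 3⟩

theorem leafProb_eq (n : ℕ) (s : LeafConfig d 4 n) :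
    leafProb d 4 lam n s = 1 / 4 * totLik d lam n s := by
  unfold leafProb totLik
  rw [Fin.sum_univ_four]
  push_cast
  ring

theorem rootPosterior_eq (n : ℕ) (s : LeafConfig d 4 n) (i : Fin 4) :
    rootPosterior d 4 lam n s i = postC d lam n i s := by
  unfold rootPosterior postC
  rw [leafProb_eq]
  push_cast
  exact mul_div_mul_left _ _ (by norm_num)

/-- the error function -/
noncomputable def errFn (a b c d : ℝ) : ℝ :=
  1 / 2 * (|a - 1 / 4| + |b - 1 / 4| + |c - 1 / 4| + |d - 1 / 4|)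

theorem bd_errFn : Bd errFn := by
  refine ⟨4, fun a b c d h => ?_⟩
  obtain ⟨a1, b1, c1, d1⟩ := h.le_one
  have e : ∀ t : ℝ, 0 ≤ t → t ≤ 1 → |t - 1 / 4| ≤ 2 := by
    intro t h0 h1
    rw [abs_le]
    constructor <;> linarith
  have h1 := e a h.ha a1
  have h2 := e b h.hb b1
  have h3 := e c h.hc c1
  have h4 := e d h.hd d1
  unfold errFn
  rw [abs_of_nonneg (by positivity)]
  linarith

/-- The reconstruction error in terms of the functional. -/
theorem reconError_eq (h0 : 0 ≤ lam) (h1 : lam ≤ 1) (n : ℕ) :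
    reconError d 4 lam n = Ehat d lam n errFn := by
  rw [(Ehat_rep h0 h1 n).eq errFn bd_errFn, tsum_fintype]
  unfold reconError
  refine Finset.sum_congr rfl (fun s _ => ?_)
  rw [leafProb_eq, Fin.sum_univ_four, rootPosterior_eq, rootPosterior_eq, rootPosterior_eq,
    rootPosterior_eq]
  unfold errFn
  push_cast
  ring

end tree

/-- a pointwise bound with a free parameter -/
theorem abs_bound {e a b c d : ℝ} (he : 0 < e) :
    errFn a b c d ≤ 2 * e + 1 / (8 * e) * I2 a b c d := by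
  have key : ∀ t : ℝ, |t| ≤ e + 1 / (4 * e) * t ^ 2 := by
    intro t
    have h2 : 0 ≤ (|t| - 2 * e) ^ 2 / (4 * e) := by positivity
    have h3 : (|t| - 2 * e) ^ 2 / (4 * e) = e + 1 / (4 * e) * t ^ 2 - |t| := by
      have : |t| ^ 2 = t ^ 2 := sq_abs t
      field_simp
      ring_nf
      rw [this]
      ring
    linarith
  have h1 := key (a - 1 / 4)
  have h2 := key (b - 1 / 4)
  have h3 := key (c - 1 / 4)
  have h4 := key (d - 1 / 4)
  unfold errFn I2
  have e1 : 1 / (8 * e) = 1 / 2 * (1 / (4 * e)) := by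
    field_simp
    norm_num
  rw [e1]
  nlinarith

/-- the error tends to zero when the second moment does -/
theorem err_tendsto {E : ℕ → Ex4} (hE : ∀ n, BExp (E n) Simp)
    (hm : Tendsto (fun n => E n I2) atTop (𝓝 0)) : Tendsto (fun n => E n errFn) atTop (𝓝 0) := by
  rw [Metric.tendsto_atTop] at hm ⊢
  intro ε hε
  set e := ε / 3 with he
  have hepos : 0 < e := by positivity
  obtain ⟨N, hN⟩ := hm (8 * e * e) (by positivity)
  refine ⟨N, fun n hn => ?_⟩
  have hp := hE n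
  have hb := hN n hn
  rw [Real.dist_eq, sub_zero] at hb ⊢
  have hm0 := I2_mean_nonneg hp
  rw [abs_of_nonneg hm0] at hb
  have hnn : 0 ≤ E n errFn :=
    hp.nonneg _ (fun a b c d _ => by unfold errFn; positivity)
  rw [abs_of_nonneg hnn]
  have hle := hp.mono (f := errFn)
    (g := fun a b c d => 2 * e + 1 / (8 * e) * I2 a b c d + 0 * I2 a b c d) bd_errFn
    (((Bd.const _).add (Bd.smul _ bd_I2)).add (Bd.smul _ bd_I2))
    (fun a b c d _ => by
      have := abs_bound (a := a) (b := b) (c := c) (d := d) hepos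
      linarith)
  rw [hp.lin3 _ _ _ bd_I2 bd_I2] at hle
  have h8 : 1 / (8 * e) * E n I2 < e := by
    rw [div_mul_eq_mul_div, one_mul, div_lt_iff₀ (by positivity)]
    linarith
  have he3 : ε = 3 * e := by rw [he]; ring
  linarith

/-- Nonreconstruction for the four-state ferromagnetic Potts channel on the `d`-ary tree, given the
kernel data. -/
theorem dary_main {fK fM A B al be : Fn4} {Msg : ℝ → ℝ → ℝ → ℝ → Prop} {g : ℝ}
    (hk : Kern fK fM A B al be Msg g) (hg : 0 < g) {d : ℕ} (hd : 2 ≤ d) {lam : ℝ}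
    (hc : ChanOK fK fM Msg lam) (hKS : (d : ℝ) * lam ^ 2 ≤ 1) :
    Tendsto (reconError d 4 lam) atTop (𝓝 0) := by
  have h0 := hc.h0
  have h1 := hc.h1
  have e : reconError d 4 lam = fun n => Ehat d lam n errFn :=
    funext (fun n => reconError_eq h0 h1 n)
  rw [e]
  exact err_tendsto (fun n => Ehat_bexp h0 h1 n) (Ehat_tendsto hk hg hd hc hKS)

/-- Nonreconstruction on the binary tree, given the kernel data on pairs of messages. -/
theorem dary2_main {fK fM A B al be : Fn4} {Msg : ℝ → ℝ → ℝ → ℝ → Prop} {g : ℝ}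
    (hk : Kern2 fK fM A B al be Msg g) (hg : 0 < g) {lam : ℝ}
    (hc : ChanOK fK fM Msg lam) (hKS : 2 * lam ^ 2 ≤ 1) :
    Tendsto (reconError 2 4 lam) atTop (𝓝 0) := by
  have h0 := hc.h0
  have h1 := hc.h1
  have e : reconError 2 4 lam = fun n => Ehat 2 lam n errFn :=
    funext (fun n => reconError_eq h0 h1 n)
  rw [e]
  exact err_tendsto (fun n => Ehat_bexp h0 h1 n) (Ehat2_tendsto hk hg hc hKS)

end Vale.Agent.Lib.P154Q4
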