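import Vale.Agent.Lib.P154Q4.K1
import Vale.Agent.Lib.P154Q4.Tree

/-!
Nonreconstruction at and below the Kesten-Stigum bound for the four-state ferromagnetic Potts
channel on every regular tree.
-/

namespace Vale.Agent.Lib.P154Q4

open Filter Topology K2 K1
open Vale.Agent.Lib.P154 (reconError)

/-- the kernel data of the four-state channel -/
theorem kern4 : Kern fK fM A1m B1m al be MsgD (1 / 64) where
  msg_simp := fun _ _ _ _ h => h.simp
  bd_fK := bd_fK
  bd_fM := bd_fM
  bd_A := bd_A1m
  bd_B := bd_B1m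
  bd_al := bd_al
  bd_be := bd_be
  A_nn := A1m_nonneg
  B_nn := B1m_nonneg
  al_nn := al_nonneg
  be_nn := be_nonneg
  g_nn := by norm_num
  g_le := by norm_num
  k1 := fun _ _ _ _ _ _ _ _ h hm => k1_main h hm
  k2 := fun _ _ _ _ _ _ _ _ h hm => k2_main h hm
  fK_centre := by
    unfold fK I3 I2
    norm_num
  fK_vertex := by
    unfold vertexEx fK I3 I2
    norm_num

/-- the channel conditions of the four-state channel -/
theorem chanOK4 {lam : ℝ} (h0 : 0 ≤ lam) (h1 : lam ≤ 5 / 7) : ChanOK fK fM MsgD lam where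
  h0 := h0
  h1 := by linarith
  msg := by
    intro a b c d h
    have ha := h.ha
    have hb := h.hb
    have hc := h.hc
    have hd := h.hd
    have hs := h.hs
    have key : ∀ x : ℝ, 0 ≤ x → 1 / 14 ≤ chanPt lam x := by
      intro x hx
      unfold chanPt
      have : 0 ≤ lam * x := by positivity
      linarith
    refine ⟨key a ha, key b hb, key c hc, key d hd, ?_⟩
    unfold chanPt
    linear_combination lam * hs
  cls := by
    intro a b c d _
    unfold fK fM
    rw [I3_chan, I2_chan]
    have hI := I2_nonneg a b c d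
    have hpos : 0 ≤ lam ^ 3 * (I2 a b c d) ^ 2 * (11 / 20 - (77 / 100) * lam) := by
      have : 0 ≤ 11 / 20 - (77 / 100) * lam := by linarith
      positivity
    nlinarith [hpos]

/-- nonreconstruction for four states on the regular tree with `d >= 2` children per vertex, for
`0 <= lam` and `d * lam ^ 2 <= 1`. -/
theorem q4_dary {d : ℕ} (hd : 2 ≤ d) {lam : ℝ} (h0 : 0 ≤ lam) (hKS : (d : ℝ) * lam ^ 2 ≤ 1) :
    Tendsto (reconError d 4 lam) atTop (𝓝 0) := by
  have hd2 : (2 : ℝ) ≤ d := by exact_mod_cast hd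
  have hl : lam ≤ 5 / 7 := by
    by_contra hc
    rw [not_le] at hc
    have : (5 / 7 : ℝ) ^ 2 < lam ^ 2 := by
      apply pow_lt_pow_left₀ hc (by norm_num) (by norm_num)
    nlinarith [sq_nonneg lam]
  exact dary_main kern4 (by norm_num) hd (chanOK4 h0 hl) hKS

end Vale.Agent.Lib.P154Q4
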